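import Vale.Agent.P173.DefsC

/-! Basic lemmas on `pair`, `Cov` and `Len`. -/

namespace Vale.Agent.P173

universe u

section pair
variable {E E' M M' : Type*} [AddCommGroup M] [AddCommGroup M']

@[simp] lemma pair_one (z : E → M) : pair z 1 = 0 := by simp [pair]
@[simp] lemma pair_of (z : E → M) (e : E) : pair z (FreeGroup.of e) = z e := by simp [pair]
@[simp] lemma pair_mul (z : E → M) (w w' : FreeGroup E) :
    pair z (w * w') = pair z w + pair z w' := by simp [pair]
@[simp] lemma pair_inv (z : E → M) (w : FreeGroup E) : pair z w⁻¹ = -pair z w := by simp [pair]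

lemma pair_map (z : E' → M) (f : E → E') (w : FreeGroup E) :
    pair z (FreeGroup.map f w) = pair (fun e => z (f e)) w := by
  induction w using FreeGroup.induction_on with
  | C1 => simp
  | of e => simp
  | inv_of e ih => simp
  | mul a b iha ihb => simp [iha, ihb]

lemma pair_hom (θ : M →+ M') (z : E → M) (w : FreeGroup E) :
    θ (pair z w) = pair (fun e => θ (z e)) w := by
  induction w using FreeGroup.induction_on with
  | C1 => simp
  | of e => simp
  | inv_of e ih => simp
  | mul a b iha ihb => simp [iha, ihb]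

lemma pair_add (z z' : E → M) (w : FreeGroup E) : pair (z + z') w = pair z w + pair z' w := by
  induction w using FreeGroup.induction_on with
  | C1 => simp
  | of e => simp
  | inv_of e ih => simp [add_comm]
  | mul a b iha ihb => simp only [pair_mul, iha, ihb]; abel

lemma pair_sub (z z' : E → M) (w : FreeGroup E) : pair (z - z') w = pair z w - pair z' w := by
  rw [eq_sub_iff_add_eq, ← pair_add, sub_add_cancel]

@[simp] lemma pair_zero (w : FreeGroup E) : pair (0 : E → M) w = 0 := by
  have := pair_sub (0 : E → M) 0 w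
  simpa using this

lemma pair_smul {R : Type*} [Monoid R] [DistribMulAction R M] (c : R) (z : E → M)
    (w : FreeGroup E) : pair (c • z) w = c • pair z w :=
  (pair_hom (DistribSMul.toAddMonoidHom M c) z w).symm

lemma pair_lift (z : E' → M) (f : E → FreeGroup E') (w : FreeGroup E) :
    pair z (FreeGroup.lift f w) = pair (fun e => pair z (f e)) w := by
  induction w using FreeGroup.induction_on with
  | C1 => simp
  | of e => simp
  | inv_of e ih => simp
  | mul a b iha ihb => simp [iha, ihb]

lemma lift_congr {G : Type*} [Group G] {Z : Set E} {w : FreeGroup E}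
    (hw : w ∈ Subgroup.closure (FreeGroup.of '' Z)) {a a' : E → G} (h : ∀ e ∈ Z, a e = a' e) :
    FreeGroup.lift a w = FreeGroup.lift a' w := by
  refine MonoidHom.eqOn_closure ?_ hw
  rintro _ ⟨e, he, rfl⟩
  simp [h e he]

lemma pair_congr {Z : Set E} {w : FreeGroup E} (hw : w ∈ Subgroup.closure (FreeGroup.of '' Z))
    {z z' : E → M} (h : ∀ e ∈ Z, z e = z' e) : pair z w = pair z' w := by
  unfold pair
  rw [lift_congr hw fun e he => by rw [h e he]]

lemma lift_eq_one_of_mem {G : Type*} [Group G] {s : Set (FreeGroup E)} {w : FreeGroup E}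
    (hw : w ∈ Subgroup.normalClosure s) {a : E → G} (h : ∀ x ∈ s, FreeGroup.lift a x = 1) :
    FreeGroup.lift a w = 1 :=
  Subgroup.normalClosure_le_normal (N := (FreeGroup.lift a).ker) (fun x hx => h x hx) hw

lemma pair_eq_zero_of_mem {s : Set (FreeGroup E)} {w : FreeGroup E}
    (hw : w ∈ Subgroup.normalClosure s) {z : E → M} (h : ∀ x ∈ s, pair z x = 0) :
    pair z w = 0 := by
  unfold pair
  rw [lift_eq_one_of_mem hw fun x hx => Multiplicative.toAdd.injective (h x hx)]
  rfl

lemma exists_finset_mem (w : FreeGroup E) :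
    ∃ Z : Finset E, w ∈ Subgroup.closure (FreeGroup.of '' (Z : Set E)) := by
  classical
  induction w using FreeGroup.induction_on with
  | C1 => exact ⟨∅, one_mem _⟩
  | of e => exact ⟨{e}, Subgroup.subset_closure ⟨e, by simp, rfl⟩⟩
  | inv_of e ih => exact ih.imp fun _ h => inv_mem h
  | mul a b iha ihb =>
    obtain ⟨Z, h⟩ := iha
    obtain ⟨Z', h'⟩ := ihb
    exact ⟨Z ∪ Z', mul_mem (Subgroup.closure_mono (Set.image_mono (by simp)) h)
      (Subgroup.closure_mono (Set.image_mono (by simp)) h')⟩

end pair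

section Cov
variable {V E : Type u} {src tgt : E → V}

lemma Cov.hol {w : FreeGroup E} {y y' : V} (h : Cov src tgt w y y') {G : Type*} [Group G]
    (a : E → G) (g : V → G) :
    FreeGroup.lift (fun e => (g (src e))⁻¹ * a e * g (tgt e)) w =
      (g y)⁻¹ * FreeGroup.lift a w * g y' := by
  have h1 := congrArg (FreeGroup.lift (Sum.elim a g)) h
  have h2 : ∀ w : FreeGroup E, FreeGroup.lift (Sum.elim a g) (FreeGroup.lift (fun e =>
      ((FreeGroup.of (Sum.inr (src e)))⁻¹ * FreeGroup.of (Sum.inl e) *
      FreeGroup.of (Sum.inr (tgt e)) : FreeGroup (E ⊕ V))) w) =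
      FreeGroup.lift (fun e => (g (src e))⁻¹ * a e * g (tgt e)) w := by
    intro w
    rw [← MonoidHom.comp_apply]
    congr 1
    ext e
    simp
  have h3 : ∀ w : FreeGroup E, FreeGroup.lift (Sum.elim a g) (FreeGroup.map Sum.inl w) =
      FreeGroup.lift a w := by
    intro w
    rw [← MonoidHom.comp_apply]
    congr 1
    ext e
    simp
  rw [h2, map_mul, map_mul, h3] at h1
  simpa using h1

lemma Cov.gauge {w : FreeGroup E} {y y' : V} (h : Cov src tgt w y y') {G : Type*} [Group G]
    (g : V → G) : FreeGroup.lift (fun e => (g (src e))⁻¹ * g (tgt e)) w = (g y)⁻¹ * g y' := by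
  have h1 := h.hol (fun _ => (1 : G)) g
  have h2 : FreeGroup.lift (fun _ : E => (1 : G)) = 1 := by ext; simp
  simpa [h2] using h1

lemma Cov.pair {w : FreeGroup E} {y y' : V} (h : Cov src tgt w y y') {M : Type*}
    [AddCommGroup M] (ψ : V → M) : pair (fun e => ψ (tgt e) - ψ (src e)) w = ψ y' - ψ y := by
  have h1 := congrArg Multiplicative.toAdd (h.gauge fun v => Multiplicative.ofAdd (ψ v))
  simp only [toAdd_mul, toAdd_inv, toAdd_ofAdd] at h1
  rw [← neg_add_eq_sub, ← h1]
  unfold P173.pair
  congr 3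
  funext e
  simp only [← neg_add_eq_sub]
  rfl

lemma Cov.one (y : V) : Cov src tgt 1 y y := by simp [Cov]

lemma Cov.of (e : E) : Cov src tgt (FreeGroup.of e) (src e) (tgt e) := by simp [Cov]

lemma Cov.mul {w w' : FreeGroup E} {y y' y'' : V} (h : Cov src tgt w y y')
    (h' : Cov src tgt w' y' y'') : Cov src tgt (w * w') y y'' := by
  unfold Cov at *
  rw [map_mul, h, h', map_mul]
  group

lemma Cov.inv {w : FreeGroup E} {y y' : V} (h : Cov src tgt w y y') : Cov src tgt w⁻¹ y' y := by
  unfold Cov at *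
  rw [map_inv, h, map_inv]
  group

lemma Cov.map {w : FreeGroup E} {y y' : V} (h : Cov src tgt w y y') (fV : V → V) (fE : E → E)
    (h1 : ∀ e, src (fE e) = fV (src e)) (h2 : ∀ e, tgt (fE e) = fV (tgt e)) :
    Cov src tgt (FreeGroup.map fE w) (fV y) (fV y') := by
  have h3 := h.hol (fun e => (FreeGroup.of (Sum.inl (fE e)) : FreeGroup (E ⊕ V)))
    fun v => FreeGroup.of (Sum.inr (fV v))
  unfold Cov
  convert h3 using 1
  · rw [← MonoidHom.comp_apply]
    congr 1
    ext e
    simp [h1, h2]
  · congr 2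
    rw [← MonoidHom.comp_apply]
    congr 1
    ext e
    simp

end Cov

section Len
variable {G G' : Type*} [Group G] [Group G'] {s t : Set G} {M M' : ℕ} {w w' : G}

lemma Len.one : Len s M 1 := ⟨[], by simp, by simp, rfl⟩

lemma Len.of_mem (h : w ∈ s) : Len s 1 w := ⟨[w], by simp, by simp [h], by simp⟩

lemma Len.mono (h : Len s M w) (hs : s ⊆ t) (hM : M ≤ M') : Len t M' w := by
  obtain ⟨l, h1, h2, h3⟩ := h
  exact ⟨l, h1.trans hM, fun x hx => (h2 x hx).imp (@hs _) (@hs _), h3⟩

lemma Len.mul (h : Len s M w) (h' : Len s M' w') : Len s (M + M') (w * w') := by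
  obtain ⟨l, h1, h2, rfl⟩ := h
  obtain ⟨l', h1', h2', rfl⟩ := h'
  refine ⟨l ++ l', by simp; omega, fun x hx => ?_, by simp⟩
  rcases List.mem_append.1 hx with hx | hx
  exacts [h2 x hx, h2' x hx]

lemma Len.inv (h : Len s M w) : Len s M w⁻¹ := by
  obtain ⟨l, h1, h2, rfl⟩ := h
  refine ⟨(l.map fun x => x⁻¹).reverse, by simpa using h1, fun x hx => ?_,
    (List.prod_inv_reverse l).symm⟩
  simp only [List.mem_reverse, List.mem_map] at hx
  obtain ⟨y, hy, rfl⟩ := hx
  rw [inv_inv]
  exact (h2 y hy).symm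

lemma Len.mem (h : Len s M w) : w ∈ Subgroup.closure s := by
  obtain ⟨l, -, h2, rfl⟩ := h
  refine list_prod_mem fun x hx => ?_
  rcases h2 x hx with h | h
  · exact Subgroup.subset_closure h
  · exact inv_mem_iff.1 (Subgroup.subset_closure h)

lemma exists_len (h : w ∈ Subgroup.closure s) : ∃ M, Len s M w := by
  induction h using Subgroup.closure_induction with
  | mem x hx => exact ⟨1, Len.of_mem hx⟩
  | one => exact ⟨0, Len.one⟩
  | mul x y _ _ i1 i2 =>
    obtain ⟨_, i1⟩ := i1
    obtain ⟨_, i2⟩ := i2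
    exact ⟨_, i1.mul i2⟩
  | inv x _ i => exact i.imp fun _ h => h.inv

lemma Len.map (h : Len s M w) (f : G →* G') {t : Set G'} (hf : ∀ x ∈ s, f x ∈ t) :
    Len t M (f w) := by
  obtain ⟨l, h1, h2, rfl⟩ := h
  refine ⟨l.map f, by simpa using h1, fun x hx => ?_, (map_list_prod f l).symm⟩
  obtain ⟨y, hy, rfl⟩ := List.mem_map.1 hx
  exact (h2 y hy).imp (hf _) fun h => by rw [← map_inv]; exact hf _ h

/-- Induction along a product, keeping track of the number of factors. -/
lemma Len.ind {P : ℕ → G → Prop} (h0 : P 0 1) (hm : ∀ k w, P k w → P (k + 1) w)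
    (h1 : ∀ k w x, x ∈ s ∨ x⁻¹ ∈ s → P k w → P (k + 1) (w * x)) (h : Len s M w) : P M w := by
  obtain ⟨l, hl, h2, rfl⟩ := h
  have key : ∀ l : List G, (∀ x ∈ l, x ∈ s ∨ x⁻¹ ∈ s) → P l.length l.prod := by
    intro l
    induction l using List.reverseRecOn with
    | nil => exact fun _ => h0
    | append_singleton l x ih =>
      intro h
      simp only [List.length_append, List.length_singleton, List.prod_append, List.prod_singleton]
      exact h1 _ _ _ (h x (by simp)) (ih fun y hy => h y (by simp [hy]))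
  induction hl with
  | refl => exact key l h2
  | step _ ih => exact hm _ _ ih

/-- Membership in a normal closure only needs finitely many generators. -/
lemma exists_finset_normalClosure {F : Type*} (bd : F → G)
    (h : w ∈ Subgroup.normalClosure (Set.range bd)) :
    ∃ F1 : Finset F, w ∈ Subgroup.normalClosure (bd '' (F1 : Set F)) := by
  classical
  unfold Subgroup.normalClosure at h
  induction h using Subgroup.closure_induction with
  | mem x hx =>
    obtain ⟨_, ⟨φ, rfl⟩, hx⟩ := Group.mem_conjugatesOfSet_iff.1 hx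
    exact ⟨{φ}, Subgroup.conjugatesOfSet_subset_normalClosure
      (Group.mem_conjugatesOfSet_iff.2 ⟨_, ⟨φ, by simp, rfl⟩, hx⟩)⟩
  | one => exact ⟨∅, one_mem _⟩
  | mul x y _ _ i1 i2 =>
    obtain ⟨Z, h⟩ := i1
    obtain ⟨Z', h'⟩ := i2
    exact ⟨Z ∪ Z', mul_mem (Subgroup.normalClosure_mono (Set.image_mono (by simp)) h)
      (Subgroup.normalClosure_mono (Set.image_mono (by simp)) h')⟩
  | inv x _ i => exact i.imp fun _ h => inv_mem h

end Len

end Vale.Agent.P173
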