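import Vale.Agent.P173.DefsT

/-! A CW complex of dimension at most two carries a `Cell2` structure. -/

namespace Vale.Agent.P173

open Topology Metric Set

universe u

namespace CW

lemma exists_psi : ∃ Ψ : ℂ ≃ₜ (Fin 2 → ℝ), (∀ z, ‖Ψ z‖ < 1 ↔ ‖z‖ < 1) ∧
    ∀ z, ‖Ψ z‖ ≤ 1 ↔ ‖z‖ ≤ 1 := by
  let L : ℂ ≃L[ℝ] (Fin 2 → ℝ) := Complex.basisOneI.equivFunL
  have ho : IsOpen (L '' ball 0 1) := L.toHomeomorph.isOpenMap _ isOpen_ball
  obtain ⟨h, h1, h2, -⟩ := exists_homeomorph_image_interior_closure_frontier_eq_unitBall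
    (s := L '' ball 0 1) ((convex_ball (0 : ℂ) 1).linear_image L.toLinearMap)
    (by rw [ho.interior_eq]; exact (nonempty_ball.2 one_pos).image _)
    (L.toContinuousLinearMap.lipschitz.isBounded_image isBounded_ball)
  rw [ho.interior_eq, image_image] at h1
  rw [← L.image_closure, closure_ball _ one_ne_zero, image_image] at h2
  refine ⟨L.toHomeomorph.trans h, fun z => ?_, fun z => ?_⟩
  · rw [← mem_ball_zero_iff, ← mem_ball_zero_iff, ← h1]
    exact (L.toHomeomorph.trans h).injective.mem_set_image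
  · rw [← mem_closedBall_zero_iff, ← mem_closedBall_zero_iff, ← h2]
    exact (L.toHomeomorph.trans h).injective.mem_set_image

/-- a parametrisation of the closed cube, collapsing outside the unit ball -/
structure Par {A : Type} [NormedAddCommGroup A] {n : ℕ} (c : A → Fin n → ℝ) : Prop where
  cont : Continuous c
  le : ∀ z, ‖c z‖ ≤ 1
  out : ∀ z, 1 ≤ ‖z‖ → ‖c z‖ = 1
  ball : c '' ball 0 1 = ball 0 1
  closedBall : c '' closedBall 0 1 = closedBall 0 1
  inj : InjOn c (Metric.ball 0 1)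

lemma par_of {A : Type} [NormedAddCommGroup A] [NormedSpace ℝ A] {n : ℕ} (Ψ : A ≃ₜ (Fin n → ℝ))
    (h1 : ∀ z, ‖Ψ z‖ < 1 ↔ ‖z‖ < 1) (h2 : ∀ z, ‖Ψ z‖ ≤ 1 ↔ ‖z‖ ≤ 1) :
    Par fun z => Ψ ((max 1 ‖z‖)⁻¹ • z) := by
  have hp : ∀ z : A, 0 < max 1 ‖z‖ := fun z => lt_max_of_lt_left one_pos
  have hn : ∀ z : A, ‖(max 1 ‖z‖)⁻¹ • z‖ = ‖z‖ / max 1 ‖z‖ := fun z => by
    rw [norm_smul, norm_inv, Real.norm_of_nonneg (hp z).le, inv_mul_eq_div]
  have hi : ∀ z : A, ‖z‖ ≤ 1 → (max 1 ‖z‖)⁻¹ • z = z := fun z hz => by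
    rw [max_eq_left hz, inv_one, one_smul]
  have hle : ∀ z : A, ‖Ψ ((max 1 ‖z‖)⁻¹ • z)‖ ≤ 1 := fun z => by
    rw [h2, hn, div_le_one (hp z)]
    exact le_max_right _ _
  refine ⟨Ψ.continuous.comp (((continuous_const.max continuous_norm).inv₀
    fun z => (hp z).ne').smul continuous_id), hle, fun z hz => ?_, ?_, ?_, fun z hz w hw h => ?_⟩
  · refine le_antisymm (hle z) (not_lt.1 fun h => ?_)
    rw [h1, hn, max_eq_right hz, div_self (by linarith)] at h
    exact lt_irrefl _ h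
  · refine Subset.antisymm ?_ fun y hy => ?_
    · rintro _ ⟨z, hz, rfl⟩
      rw [mem_ball_zero_iff] at hz ⊢
      dsimp only
      rwa [hi z hz.le, h1]
    · have : ‖Ψ.symm y‖ < 1 := by rwa [← h1, Ψ.apply_symm_apply, ← mem_ball_zero_iff]
      exact ⟨Ψ.symm y, mem_ball_zero_iff.2 this, by
        dsimp only; rw [hi _ this.le, Ψ.apply_symm_apply]⟩
  · refine Subset.antisymm ?_ fun y hy => ?_
    · rintro _ ⟨z, -, rfl⟩
      exact mem_closedBall_zero_iff.2 (hle z)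
    · have : ‖Ψ.symm y‖ ≤ 1 := by rwa [← h2, Ψ.apply_symm_apply, ← mem_closedBall_zero_iff]
      exact ⟨Ψ.symm y, mem_closedBall_zero_iff.2 this, by
        dsimp only; rw [hi _ this, Ψ.apply_symm_apply]⟩
  · rw [hi z (mem_ball_zero_iff.1 hz).le, hi w (mem_ball_zero_iff.1 hw).le] at h
    exact Ψ.injective h

variable {Y : Type u} [TopologicalSpace Y] [CWComplex (univ : Set Y)]
  {A : Type} [NormedAddCommGroup A] {n : ℕ} {c : A → Fin n → ℝ}

open RelCWComplex

lemma Par.continuous (h : Par c) (j : cell (univ : Set Y) n) :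
    Continuous fun z => map n j (c z) :=
  (continuousOn n j).comp_continuous h.cont fun z => mem_closedBall_zero_iff.2 (h.le z)

lemma Par.mem_open (h : Par c) (j : cell (univ : Set Y) n) {z : A} (hz : ‖z‖ < 1) :
    map n j (c z) ∈ openCell n j :=
  mem_image_of_mem _ (h.ball ▸ mem_image_of_mem _ (mem_ball_zero_iff.2 hz))

lemma Par.of_mem_open (h : Par c) {j : cell (univ : Set Y) n} {x : Y} (hx : x ∈ openCell n j) :
    ∃ z, ‖z‖ < 1 ∧ x = map n j (c z) := by
  obtain ⟨y, hy, rfl⟩ := hx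
  rw [← h.ball] at hy
  obtain ⟨z, hz, rfl⟩ := hy
  exact ⟨z, mem_ball_zero_iff.1 hz, rfl⟩

lemma Par.mem_frontier (h : Par c) (j : cell (univ : Set Y) n) {z : A} (hz : 1 ≤ ‖z‖) :
    map n j (c z) ∈ cellFrontier n j :=
  mem_image_of_mem _ (mem_sphere_zero_iff_norm.2 (h.out z hz))

lemma Par.eq_of_eq (h : Par c) {j j' : cell (univ : Set Y) n} {z z' : A} (hz : ‖z‖ < 1)
    (hz' : ‖z'‖ < 1) (he : map n j (c z) = map n j' (c z')) : j = j' ∧ z = z' := by
  have h1 := eq_of_not_disjoint_openCell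
    (not_disjoint_iff.2 ⟨_, h.mem_open j hz, he ▸ h.mem_open j' hz'⟩)
  obtain rfl : j = j' := eq_of_heq (Sigma.mk.inj h1).2
  refine ⟨rfl, h.inj (mem_ball_zero_iff.2 hz) (mem_ball_zero_iff.2 hz')
    ((map n j).injOn ?_ ?_ he)⟩
  · rw [source_eq, ← h.ball]
    exact mem_image_of_mem _ (mem_ball_zero_iff.2 hz)
  · rw [source_eq, ← h.ball]
    exact mem_image_of_mem _ (mem_ball_zero_iff.2 hz')

lemma Par.isClosed [T2Space Y] [ProperSpace A] (h : Par c) (j : cell (univ : Set Y) n)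
    {B : Set Y} (hB : IsClosed ((fun z => map n j (c z)) ⁻¹' B)) :
    IsClosed (B ∩ closedCell n j) := by
  have h1 : closedCell n j = (fun z => map n j (c z)) '' Metric.closedBall 0 1 := by
    rw [← image_image (map n j) c, h.closedBall]
    rfl
  rw [h1, ← image_preimage_inter]
  exact (((isCompact_closedBall 0 1).inter_left hB).image (h.continuous j)).isClosed

lemma ne_of_open {m : ℕ} (hmn : m ≠ n) {i : cell (univ : Set Y) m} {j : cell (univ : Set Y) n}
    {x : Y} (hi : x ∈ openCell m i) (hj : x ∈ openCell n j) : False :=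
  hmn (Sigma.mk.inj (eq_of_not_disjoint_openCell (not_disjoint_iff.2 ⟨x, hi, hj⟩))).1

end CW

open CW RelCWComplex in
theorem exists_cell2 (Y : Type u) [TopologicalSpace Y] [T2Space Y]
    [CWComplex (Set.univ : Set Y)]
    (hd : ∀ m, 2 < m → IsEmpty (RelCWComplex.cell (Set.univ : Set Y) m)) :
    ∃ (V E F : Type u) (pt : V → Y) (ed : E → ℝ → Y) (fc : F → ℂ → Y) (src tgt : E → V),
      Cell2 pt ed fc src tgt := by
  obtain ⟨Ψ, hΨ1, hΨ2⟩ := exists_psi
  have p2 := par_of Ψ hΨ1 hΨ2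
  have hn : ∀ s : ℝ, ‖(Homeomorph.funUnique (Fin 1) ℝ).symm s‖ = ‖s‖ := fun s => pi_norm_const s
  have p1 := par_of (Homeomorph.funUnique (Fin 1) ℝ).symm (fun s => by rw [hn]) fun s => by rw [hn]
  set c1 : ℝ → Fin 1 → ℝ := fun s => (Homeomorph.funUnique (Fin 1) ℝ).symm ((max 1 ‖s‖)⁻¹ • s)
    with hc1
  set c2 : ℂ → Fin 2 → ℝ := fun z => Ψ ((max 1 ‖z‖)⁻¹ • z) with hc2
  let pt : cell (univ : Set Y) 0 → Y := fun v => map 0 v ![]
  let ed : cell (univ : Set Y) 1 → ℝ → Y := fun e s => map 1 e (c1 s)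
  let fc : cell (univ : Set Y) 2 → ℂ → Y := fun φ z => map 2 φ (c2 z)
  have hpt : ∀ v, pt v ∈ openCell 0 v := fun v => by
    rw [openCell_zero_eq_singleton]
    rfl
  have hpt' : ∀ v x, x ∈ openCell 0 v → x = pt v := fun v x hx => by
    rwa [openCell_zero_eq_singleton] at hx
  have hend : ∀ e s, 1 ≤ ‖s‖ → ∃ v, ed e s = pt v := fun e s hs => by
    obtain ⟨I, hI⟩ := CWComplex.cellFrontier_subset_finite_openCell 1 e
    have := hI (p1.mem_frontier e hs)
    simp only [mem_iUnion] at this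
    obtain ⟨m, hm, j, -, hj⟩ := this
    obtain rfl : m = 0 := by omega
    exact ⟨j, hpt' j _ hj⟩
  choose src hsrc using fun e => hend e (-1) (by simp)
  choose tgt htgt using fun e => hend e 1 (by simp)
  have hsk : ∀ x, x ∈ sk1 pt ed → (∃ v : cell (univ : Set Y) 0, x ∈ openCell 0 v) ∨
      ∃ e : cell (univ : Set Y) 1, x ∈ openCell 1 e := by
    rintro x (⟨v, rfl⟩ | hx)
    · exact Or.inl ⟨v, hpt v⟩
    · obtain ⟨e, s, rfl⟩ := mem_iUnion.1 hx
      rcases lt_or_ge ‖s‖ 1 with hs | hs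
      · exact Or.inr ⟨e, p1.mem_open e hs⟩
      · obtain ⟨v, hv⟩ := hend e s hs
        exact Or.inl ⟨v, hv ▸ hpt v⟩
  have hfs : ∀ φ : cell (univ : Set Y) 2, ∀ x ∈ openCell 2 φ, x ∉ sk1 pt ed :=
      fun φ x hx hx' => by
    rcases hsk x hx' with ⟨v, hv⟩ | ⟨e, he⟩
    · exact ne_of_open (by norm_num) hv hx
    · exact ne_of_open (by norm_num) he hx
  have hes : ∀ e s, ed e s ∈ sk1 pt ed := fun e s => Or.inr (mem_iUnion.2 ⟨e, s, rfl⟩)
  refine ⟨_, _, _, pt, ed, fc, src, tgt, p1.continuous, p2.continuous, fun e s hs => ?_,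
    fun e s hs => ?_, fun φ z hz => ?_, fun φ z r hz hr => ?_, fun x => ?_, injective_map_zero _,
    fun e s e' s' hs hs' h => p1.eq_of_eq hs hs' h, fun φ z φ' z' hz hz' h => p2.eq_of_eq hz hz' h,
    fun v e s hs h => ne_of_open (m := 0) (n := 1) (by norm_num) (hpt v)
      (by rw [h]; exact p1.mem_open e hs),
    fun φ z hz => hfs φ _ (p2.mem_open φ hz), fun O hO => ?_, fun O hO hO' => ?_⟩
  · rw [← hsrc]
    have h1 : (max 1 ‖s‖)⁻¹ • s = (max 1 ‖(-1 : ℝ)‖)⁻¹ • (-1 : ℝ) := by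
      rw [Real.norm_of_nonpos (by linarith), max_eq_right (by linarith)]
      have : s ≠ 0 := by linarith
      simp [this]
    simp only [ed, hc1, h1]
  · rw [← htgt]
    have h1 : (max 1 ‖s‖)⁻¹ • s = (max 1 ‖(1 : ℝ)‖)⁻¹ • (1 : ℝ) := by
      rw [Real.norm_of_nonneg (by linarith), max_eq_right hs]
      have : s ≠ 0 := by linarith
      simp [this]
    simp only [ed, hc1, h1]
  · obtain ⟨I, hI⟩ := CWComplex.cellFrontier_subset_finite_openCell 2 φ
    have := hI (p2.mem_frontier φ hz)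
    simp only [mem_iUnion] at this
    obtain ⟨m, hm, j, -, hj⟩ := this
    obtain rfl | rfl : m = 0 ∨ m = 1 := by omega
    · exact Or.inl ⟨j, (hpt' j _ hj).symm⟩
    · obtain ⟨s, -, hs⟩ := p1.of_mem_open hj
      exact Or.inr (mem_iUnion.2 ⟨j, s, hs.symm⟩)
  · have h0 : ‖(r : ℂ) * z‖ = r * ‖z‖ := by
      rw [norm_mul, Complex.norm_real, Real.norm_of_nonneg (by linarith)]
    have h1 : (max 1 ‖(r : ℂ) * z‖)⁻¹ • ((r : ℂ) * z) = (max 1 ‖z‖)⁻¹ • z := by
      rw [h0, max_eq_right hz, max_eq_right (by nlinarith), ← Complex.real_smul, smul_smul]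
      congr 1
      have : r ≠ 0 := by linarith
      field_simp
    simp only [fc, hc2, h1]
  · have hx : x ∈ ⋃ (n : ℕ) (j : cell (univ : Set Y) n), openCell n j := by
      rw [CWComplex.iUnion_openCell_eq_complex]
      trivial
    simp only [mem_iUnion] at hx
    obtain ⟨m, j, hj⟩ := hx
    obtain rfl | rfl | rfl | hm : m = 0 ∨ m = 1 ∨ m = 2 ∨ 2 < m := by omega
    · exact Or.inl ⟨j, hpt' j x hj⟩
    · exact Or.inr (Or.inl ⟨j, p1.of_mem_open hj⟩)
    · exact Or.inr (Or.inr ⟨j, p2.of_mem_open hj⟩)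
    · exact ((hd m hm).false j).elim
  · rw [← isClosed_compl_iff, compl_union, compl_compl]
    refine CWComplex.isClosed_of_disjoint_openCell_or_isClosed_inter_closedCell (subset_univ _)
      fun m hm j => ?_
    obtain rfl | rfl | hm : m = 1 ∨ m = 2 ∨ 2 < m := by omega
    · refine Or.inr (p1.isClosed j ?_)
      have : (fun z => map 1 j (c1 z)) ⁻¹' (Oᶜ ∩ sk1 pt ed) = (ed j ⁻¹' O)ᶜ :=
        Set.ext fun s => and_iff_left (hes j s)
      rw [this]
      exact (hO j).isClosed_compl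
    · exact Or.inl (disjoint_left.2 fun x hx hx' => hfs j x hx' hx.2)
    · exact ((hd m hm).false j).elim
  · rw [← isClosed_compl_iff]
    refine CWComplex.isClosed_of_disjoint_openCell_or_isClosed_inter_closedCell (subset_univ _)
      fun m hm j => ?_
    obtain rfl | rfl | hm : m = 1 ∨ m = 2 ∨ 2 < m := by omega
    · exact Or.inr (p1.isClosed j (hO j).isClosed_compl)
    · exact Or.inr (p2.isClosed j (hO' j).isClosed_compl)
    · exact ((hd m hm).false j).elim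

end Vale.Agent.P173
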