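import Mathlib

/-! The notions used in the final statement. -/

namespace Vale.Agent.P173

open CategoryTheory Topology

universe u v

/-- The integral cohomological dimension: the projective dimension of the trivial
`ℤ[Γ]`-module `ℤ`. -/
noncomputable def cd (Γ : Type) [Group Γ] : WithBot ℕ∞ :=
  projectiveDimension
    (ModuleCat.of (MonoidAlgebra ℤ Γ) (Representation.trivial ℤ Γ ℤ).asModule)

/-- `Γ` has a classifying space of dimension at most `n`: a connected Hausdorff CW complex `Y`
without cells above dimension `n`, with fundamental group isomorphic to `Γ`, and with a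
contractible covering space (which is then its universal cover). -/
def HasClassifyingSpace (Γ : Type) [Group Γ] (n : ℕ) : Prop :=
  ∃ (Y : Type u) (_ : TopologicalSpace Y) (_ : T2Space Y) (_ : CWComplex (Set.univ : Set Y)),
    (∀ m, n < m → IsEmpty (RelCWComplex.cell (Set.univ : Set Y) m)) ∧ ConnectedSpace Y ∧
    (∃ y : Y, Nonempty (FundamentalGroup Y y ≃* Γ)) ∧
    ∃ (T : Type v) (_ : TopologicalSpace T) (p : T → Y),
      IsCoveringMap p ∧ Function.Surjective p ∧ ContractibleSpace T

end Vale.Agent.P173
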