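import Vale.Agent.P173.DefsL
import Vale.Agent.P173.Stmt

/-! The cohomological dimension of the Bestvina-Brady group. -/

namespace Vale.Agent.P173

open CategoryTheory MonoidAlgebra

section Abstract

variable {R C0 C1 C2 Z : Type} [Ring R] [AddCommGroup C0] [AddCommGroup C1] [AddCommGroup C2]
  [AddCommGroup Z] [Module R C0] [Module R C1] [Module R C2] [Module R Z]
  [Module.Projective R C0] [Module.Projective R C1]

theorem cd_shift {f : C0 →ₗ[R] Z} (hf : Function.Surjective f) (n : ℕ) :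
    HasProjectiveDimensionLT (ModuleCat.of R Z) (n + 2) ↔
      HasProjectiveDimensionLT (ModuleCat.of R (LinearMap.ker f)) (n + 1) :=
  (LinearMap.shortExact_shortComplexKer hf).hasProjectiveDimensionLT_X₃_iff n
    ((IsProjective.iff_projective C0).1 inferInstance)

theorem cd_abstract [Module.Projective R C2] {ε : C0 →ₗ[R] Z} {d1 : C1 →ₗ[R] C0}
    {d2 : C2 →ₗ[R] C1} (hε : Function.Surjective ε) (e1 : Function.Exact d1 ε)
    (e2 : Function.Exact d2 d1) (r : C2 →ₗ[R] C2) (hr : ∀ c, d2 (r c) = d2 c)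
    (hr0 : ∀ c, d2 c = 0 → r c = 0)
    (hno : ∀ rt : C1 →ₗ[R] C2, ¬ ∀ c, d2 (rt (d2 c)) = d2 c) :
    projectiveDimension (ModuleCat.of R Z) = 2 := by
  let p1 : C1 →ₗ[R] LinearMap.ker ε := d1.codRestrict _ fun c => (e1 _).2 ⟨c, rfl⟩
  have hp1 : Function.Surjective p1 := fun x => ((e1 x.1).1 x.2).imp fun c hc => Subtype.ext hc
  let p2 : C2 →ₗ[R] LinearMap.ker p1 :=
    d2.codRestrict _ fun c => Subtype.ext ((e2 _).2 ⟨c, rfl⟩)
  have hp2 : Function.Surjective p2 := fun x =>
    ((e2 x.1).1 (congrArg Subtype.val x.2)).imp fun c hc => Subtype.ext hc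
  refine le_antisymm ((projectiveDimension_le_iff _ 2).2 ?_)
    ((projectiveDimension_ge_iff _ 2).2 fun h => ?_)
  · refine (cd_shift hε 1).2 ((cd_shift hp1 0).2 ?_)
    rw [← projective_iff_hasProjectiveDimensionLT_one, ← IsProjective.iff_projective]
    refine Module.Projective.of_split ((LinearMap.ker p2).liftQ r (fun c hc =>
      hr0 c (congrArg Subtype.val hc)) ∘ₗ (p2.quotKerEquivOfSurjective hp2).symm.toLinearMap) p2 ?_
    ext1 y
    obtain ⟨c, rfl⟩ := hp2 y
    have : (p2.quotKerEquivOfSurjective hp2).symm (p2 c) = Submodule.Quotient.mk c := by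
      rw [LinearEquiv.symm_apply_eq]; rfl
    simp only [LinearMap.comp_apply, LinearEquiv.coe_coe, this]
    exact Subtype.ext (hr c)
  · have h1 := (cd_shift hε 0).1 h
    rw [← projective_iff_hasProjectiveDimensionLT_one, ← IsProjective.iff_projective] at h1
    obtain ⟨j, hj⟩ := Module.projective_lifting_property p1 LinearMap.id hp1
    obtain ⟨rt, hrt⟩ := Module.projective_lifting_property p2
      ((LinearMap.id - j ∘ₗ p1).codRestrict _ fun c => by
        have := LinearMap.congr_fun hj (p1 c)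
        simp only [LinearMap.comp_apply, LinearMap.id_apply] at this
        simp [this]) hp2
    refine hno rt fun c => ?_
    have h2 := congrArg Subtype.val (LinearMap.congr_fun hrt (d2 c))
    have h3 : p1 (d2 c) = 0 := (p2 c).2
    simpa [p2, h3] using! h2

end Abstract

/-- an equivariant additive map is linear over the group ring -/
def cdLin {H M N : Type} [Group H] [AddCommGroup M] [AddCommGroup N]
    [Module (MonoidAlgebra ℤ H) M] [Module (MonoidAlgebra ℤ H) N] (f : M →+ N)
    (hf : ∀ h x, f (of ℤ H h • x) = of ℤ H h • f x) : M →ₗ[MonoidAlgebra ℤ H] N where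
  toFun := f
  map_add' := f.map_add
  map_smul' r x := by
    induction r using MonoidAlgebra.induction_on with
    | of h => exact hf h x
    | add r s hr hs => simp_all [add_smul]
    | smul n r hr =>
      rw [RingHom.id_apply] at *
      rw [smul_assoc, map_zsmul, hr, smul_assoc]

theorem cd_proj {A B : Type} [Group A] [Group B] (φ : A →* B)
    [Module (MonoidAlgebra ℤ φ.ker) (MonoidAlgebra ℤ A)]
    (hs : ∀ (h : φ.ker) (x : MonoidAlgebra ℤ A), of ℤ _ h • x = of ℤ A h * x) :
    Module.Projective (MonoidAlgebra ℤ φ.ker) (MonoidAlgebra ℤ A) := by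
  have hm : ∀ g, g * (Function.invFun φ (φ g))⁻¹ ∈ φ.ker := fun g => by
    simp [Function.invFun_eq]
  let i : MonoidAlgebra ℤ A →ₗ[ℤ] (B →₀ MonoidAlgebra ℤ φ.ker) :=
    (basis A ℤ).constr ℤ fun g => Finsupp.single (φ g) (of ℤ _ ⟨_, hm g⟩)
  have hi : ∀ g, i (of ℤ A g) = Finsupp.single (φ g) (of ℤ _ ⟨_, hm g⟩) :=
    (basis A ℤ).constr_basis ℤ _
  refine Module.Projective.of_split (cdLin i.toAddMonoidHom fun h x => ?_)
    (Finsupp.linearCombination _ fun b => of ℤ A (Function.invFun φ b)) ?_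
  · change i _ = _ • i _
    induction x using MonoidAlgebra.induction_on with
    | of g =>
      have h1 : φ (h * g) = φ g := by rw [map_mul, MonoidHom.mem_ker.1 h.2, one_mul]
      rw [hs, ← map_mul, hi, hi, Finsupp.smul_single, smul_eq_mul, ← map_mul]
      congr 2
      exact Subtype.ext (by simp only [h1, mul_assoc, Subgroup.coe_mul])
    | add x y hx hy => rw [smul_add, map_add, map_add, hx, hy, smul_add]
    | smul n x hx =>
      have e1 : of ℤ _ h • n • x = n • of ℤ _ h • x :=
        map_zsmul (DistribSMul.toAddMonoidHom _ (of ℤ _ h)) n x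
      rw [e1, map_zsmul, map_zsmul, hx]
      exact (map_zsmul (DistribSMul.toAddMonoidHom _ (of ℤ _ h)) n (i x)).symm
  · refine LinearMap.ext fun x => ?_
    change Finsupp.linearCombination _ _ (i x) = x
    induction x using MonoidAlgebra.induction_on with
    | of g => rw [hi, Finsupp.linearCombination_single, hs, ← map_mul, inv_mul_cancel_right]
    | add x y hx hy => rw [map_add, map_add, hx, hy]
    | smul n x hx => rw [map_smul, map_zsmul, hx]

variable {V : Type} [LinearOrder V] [Fintype V] {G : SimpleGraph V}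

omit [LinearOrder V] [Fintype V] in
theorem cd_aug_of (g : RA G) : aug G (of ℤ _ g) = 1 := by simp [aug]

theorem cd_aug_d3 (t : Tr G → RR G) (e : Ed G) : aug G (d3 G t e) = 0 := by
  have h0 : ∀ (e' : Ed G) v, aug G ((Pi.single e' (am G v) : Ed G → RR G) e) = 0 := fun e' v => by
    rw [Pi.single_apply]
    split_ifs
    · rw [am, map_sub, cd_aug_of, map_one, sub_self]
    · exact map_zero _
  simp [d3, Fintype.linearCombination_apply, h0]

theorem cd_eq (h1 : Exa G) (h2 : Spl3 G) (h3 : Nonempty (Tr G)) : cd (BB G) = 2 := by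
  obtain ⟨σ, hσ, hσ3⟩ := h2
  obtain ⟨τ⟩ := h3
  let _ : Module (MonoidAlgebra ℤ (BB G)) (RR G) :=
    Module.compHom _ (mapDomainRingHom ℤ (ht G).ker.subtype)
  have hs : ∀ (h : BB G) (x : RR G), of ℤ _ h • x = of ℤ (RA G) h * x := fun h x => by
    change mapDomainRingHom ℤ (ht G).ker.subtype _ * x = _
    simp
  have hs' : ∀ {ι : Type} (h : BB G) (x : ι → RR G), of ℤ _ h • x = of ℤ (RA G) h • x :=
    fun h x => funext fun i => hs h (x i)
  have := cd_proj (ht G) hs
  have hp : ∀ (ι : Type) [Fintype ι], Module.Projective (MonoidAlgebra ℤ (BB G)) (ι → RR G) :=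
    fun ι _ => Module.Projective.of_equiv' (DFinsupp.linearEquivFunOnFintype
      (R := MonoidAlgebra ℤ (BB G)) (M := fun _ : ι => RR G))
  have := hp V
  have := hp (Ed G)
  let ρ := Representation.trivial ℤ (BB G) ℤ
  refine cd_abstract (C0 := RR G) (C1 := V → RR G) (C2 := Ed G → RR G)
    (ε := cdLin (ρ.asModuleEquiv.symm.toLinearMap.toAddMonoidHom.comp
      (aug G).toLinearMap.toAddMonoidHom) fun h x => ?_)
    (d1 := cdLin (d1 G).toAddMonoidHom fun h x => by rw [hs', hs]; exact map_smul (d1 G) _ _)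
    (d2 := cdLin (d2 G).toAddMonoidHom fun h x => by rw [hs', hs']; exact map_smul (d2 G) _ _)
    (fun z => ⟨(ρ.asModuleEquiv z : ℤ), ?_⟩) (fun x => ?_) h1.2.1
    (cdLin (AddMonoidHom.id _ - (d3 G).toAddMonoidHom.comp σ) fun h x => ?_) (fun c => ?_)
    (fun c hc => ?_) fun rt hrt => ?_
  · change ρ.asModuleEquiv.symm (aug G _) = _ • ρ.asModuleEquiv.symm (aug G _)
    rw [← ρ.asModuleEquiv_symm_map_rho, hs, map_mul, cd_aug_of, one_mul]
    rfl
  · change ρ.asModuleEquiv.symm (aug G _) = _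
    rw [map_intCast, Int.cast_id, LinearEquiv.symm_apply_apply]
  · exact (map_eq_zero_iff _ ρ.asModuleEquiv.symm.injective).trans (h1.2.2 x)
  · rw [hs', hs']
    change (of ℤ (RA G) h • x : Ed G → RR G) - d3 G (σ (of ℤ (RA G) h • x)) =
      of ℤ (RA G) h • (x - d3 G (σ x))
    rw [hσ, map_smul, smul_sub]
  · change d2 G (c - d3 G (σ c)) = d2 G c
    rw [map_sub, h1.1.apply_apply_eq_zero, sub_zero]
  · obtain ⟨t, rfl⟩ := (h1.1 c).1 hc
    change _ - d3 G (σ _) = 0
    rw [hσ3]
    exact sub_self _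
  · have k1 : ∀ (w : V) (u : RA G) (h : BB G), aug G (rt (Pi.single w (of ℤ _ (h * u))) (f0 τ)) =
        aug G (rt (Pi.single w (of ℤ _ u)) (f0 τ)) := fun w u h => by
      rw [map_mul, ← smul_eq_mul, Pi.single_smul', ← hs', map_smul, hs', Pi.smul_apply,
        smul_eq_mul, map_mul, cd_aug_of, one_mul]
    have k2 : ∀ w u v : V, aug G (rt (Pi.single w (am G u)) (f0 τ)) =
        aug G (rt (Pi.single w (am G v)) (f0 τ)) := fun w u v => by
      have := k1 w (ga G v) ⟨ga G u * (ga G v)⁻¹, by simp [ht, ga]⟩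
      simp only [inv_mul_cancel_right] at this
      simp only [am, Pi.single_sub, map_sub, Pi.sub_apply, this]
    have k3 := hrt (Pi.single (f0 τ) 1 - Pi.single (f1 τ) 1 + Pi.single (f2 τ) 1)
    change d2 G (rt (d2 G _)) = d2 G _ at k3
    rw [← sub_eq_zero, ← map_sub] at k3
    obtain ⟨t, ht⟩ := (h1.1 _).1 k3
    have k4 := cd_aug_d3 t (f0 τ)
    have n1 : f0 τ ≠ f1 τ := fun e => τ.2.1.ne' (congrArg (fun e : Ed G => e.1.1) e)
    have n2 : f0 τ ≠ f2 τ := fun e => τ.2.1.ne' (congrArg (fun e : Ed G => e.1.1) e)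
    rw [ht] at k4
    simp only [d2, map_add, map_sub, Fintype.linearCombination_apply_single, one_smul,
      Pi.add_apply, Pi.sub_apply, Pi.single_eq_same, Pi.single_eq_of_ne n1, Pi.single_eq_of_ne n2,
      map_one, map_zero] at k4
    simp only [f0, f1, f2] at k2 k4
    have := k2 τ.1.2.2 τ.1.2.1 τ.1.1
    have := k2 τ.1.2.1 τ.1.2.2 τ.1.1
    have := k2 τ.1.1 τ.1.2.2 τ.1.2.1
    omega

end Vale.Agent.P173
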