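import Vale.Agent.P173.CoreA

/-! The analytic core. -/

namespace Vale.Agent.P173

open selfAdjoint

universe u

/-- The supremum of the norms over a finite set. -/
noncomputable def nrm {E S : Type*} [SeminormedAddCommGroup S] (Z : Finset E) (ζ : E → S) : ℝ :=
  ‖fun e : Z => ζ e‖

section
variable {E S : Type*} [SeminormedAddCommGroup S] {Z : Finset E} {ζ : E → S}

lemma nrm_nonneg : 0 ≤ nrm Z ζ := norm_nonneg _

lemma le_nrm (ζ : E → S) {e : E} (he : e ∈ Z) : ‖ζ e‖ ≤ nrm Z ζ :=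
  norm_le_pi_norm (fun e : Z => ζ e) ⟨e, he⟩

lemma nrm_le {r : ℝ} (h0 : 0 ≤ r) (h : ∀ e ∈ Z, ‖ζ e‖ ≤ r) : nrm Z ζ ≤ r :=
  (pi_norm_le_iff_of_nonneg h0).2 fun e => h e e.2

lemma nrm_cont {X : Type*} [TopologicalSpace X] {ζ : X → E → S}
    (h : ∀ e, Continuous fun x => ζ x e) : Continuous fun x => nrm Z (ζ x) :=
  (continuous_pi fun e : Z => h e).norm

lemma nrm_smul [NormedSpace ℝ S] {c : ℝ} (hc : 0 ≤ c) : nrm Z (c • ζ) = c * nrm Z ζ := by
  have : (fun e : Z => (c • ζ) e) = c • fun e : Z => ζ e := rfl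
  rw [nrm, this, norm_smul, Real.norm_of_nonneg hc, nrm]

end

section
variable {V E F : Type u} {src tgt : E → V} {bd : F → FreeGroup E} {E0 : Finset E}
  {F0 F1 : Finset F} {ℓ : E → FreeGroup E} {p : V → FreeGroup E} {M : ℕ}
  {A : Type*} [CStarAlgebra A]

lemma Fin2.inner (h : Fin2 src tgt bd E0 F0 F1 ℓ p M) {ζ : E → selfAdjoint A}
    {a b : E → unitary A} {r κ : ℝ} (hr : ((M : ℝ) ^ 3 + M ^ 2) * r ≤ 1 / 4) (hκ : 0 ≤ κ)
    (hζ : nrm E0 ζ ≤ r) (hb : ∀ e ∈ E0, ‖(b e : A) - 1‖ ≤ r)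
    (ha : ∀ e ∈ E0, a e = expUnitary (ζ e) * b e)
    (c1 : ∀ φ ∈ F0, pair ζ (bd φ) = 0) (c2 : ∀ e ∈ E0, pair ζ (ℓ e) = ζ e)
    (k1 : ∀ φ ∈ F0, ‖(FreeGroup.lift b (bd φ) : unitary A) - (1 : A)‖ ≤ κ)
    (k2 : ∀ e ∈ E0, ‖(FreeGroup.lift b (ℓ e) : unitary A) - (1 : A)‖ ≤ κ)
    (fl : ∀ φ ∈ F1, φ ∉ F0 → FreeGroup.lift a (bd φ) = 1) : nrm E0 ζ ≤ 2 * (M + 1) * κ := by
  have h0 : 0 ≤ nrm E0 ζ := nrm_nonneg
  have hr0 : 0 ≤ r := h0.trans hζ
  have h1 := uniform (Z := (E0 : Set E)) (F0 := (F0 : Set F)) (F1 := (F1 : Set F)) h.len_bd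
    h.len_l h.area_l h0 hr0 hκ (fun e he => le_nrm ζ he) hb ha c1 c2 k1 k2 fl
  have h2 := nrm_le (by positivity) h1
  have h3 : ((M : ℝ) ^ 3 + M ^ 2) * (nrm E0 ζ + r) ≤ 1 / 2 := by
    have : (0 : ℝ) ≤ M ^ 3 + M ^ 2 := by positivity
    nlinarith
  nlinarith

end

set_option maxHeartbeats 1000000 in
theorem core {A : Type} [CStarAlgebra A] (hA : Deg A) : CoreP.{u} A := by
  classical
  intro M
  obtain ⟨r, hr0, hr1, hr⟩ : ∃ r : ℝ, 0 < r ∧ r ≤ 1 / 4 ∧ ((M : ℝ) ^ 3 + M ^ 2) * r ≤ 1 / 4 := by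
    have : (0 : ℝ) ≤ M ^ 3 + M ^ 2 := by positivity
    refine ⟨1 / (4 * (M ^ 3 + M ^ 2 + 1)), by positivity, ?_, ?_⟩
    · exact one_div_le_one_div_of_le (by norm_num) (by linarith)
    · rw [mul_one_div, div_le_div_iff₀ (by positivity) (by norm_num)]
      linarith
  have hM0 : (0 : ℝ) ≤ M := Nat.cast_nonneg M
  obtain ⟨ε, hε0, hε1, hε2⟩ : ∃ ε : ℝ, 0 < ε ∧ 2 * ε ≤ r ∧ 2 * (M + 1) * (M * (2 * ε)) < r / 4 := by
    refine ⟨r / (16 * (M + 1) ^ 2), by positivity, ?_, ?_⟩
    · rw [← mul_div_assoc, div_le_iff₀ (by positivity)]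
      nlinarith [mul_nonneg hr0.le hM0, mul_nonneg hr0.le (mul_nonneg hM0 hM0)]
    · have : 2 * ((M : ℝ) + 1) * (M * (2 * (r / (16 * (M + 1) ^ 2)))) = r / 4 * (M / (M + 1)) := by
        field_simp
        ring
      rw [this]
      exact mul_lt_of_lt_one_right (by positivity) ((div_lt_one (by positivity)).2 (by linarith))
  refine ⟨ε, hε0, fun V E F src tgt bd E0 F0 F1 ℓ p h a ha1 ha2 ha3 => ?_⟩
  obtain ⟨m, var, face, hvar, -, hrange, hdet, hT1, hT2⟩ := h.exists_vars
  obtain ⟨N, C, hC, hNc, hN1, hN2, hN3, hN4⟩ :=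
    h.exists_proj (T := {e | e ∉ Set.range var}) hT1 hT2 (selfAdjoint A)
  obtain ⟨lg, hlc, hlg⟩ := exists_log (A := A)
  obtain ⟨M', hMM, hM'⟩ := h.exists_bound
  have hM'0 : (0 : ℝ) ≤ M' := Nat.cast_nonneg M'
  have hC0 : 0 < C := by linarith
  obtain ⟨K, hK⟩ : ∃ K : ℝ, K = (5 * M' ^ 3 + 3 * M' ^ 2) * C ^ 2 := ⟨_, rfl⟩
  have hK0 : 0 ≤ K := by rw [hK]; positivity
  obtain ⟨δ, hδ0, hδ1, hδ2, hδ3⟩ : ∃ δ : ℝ, 0 < δ ∧ C * K * (2 * δ) < 1 ∧ M * (2 * δ) < 1 ∧
      C * (2 * δ) ≤ r := by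
    have hQ : 0 < C * (K + M + 1) := by positivity
    have e : 2 * (r / (2 * (C * (K + M + 1)))) = r / (C * (K + M + 1)) := by field_simp
    refine ⟨r / (2 * (C * (K + M + 1))), by positivity, ?_, ?_, ?_⟩
    · rw [e, ← mul_div_assoc, div_lt_one hQ]
      nlinarith [mul_nonneg hC0.le hK0, mul_nonneg hC0.le hM0]
    · rw [e, ← mul_div_assoc, div_lt_one hQ]
      nlinarith [mul_nonneg hC0.le hK0, mul_nonneg hC0.le hM0]
    · rw [e, ← mul_div_assoc, div_le_iff₀ hQ]
      nlinarith [mul_nonneg (mul_nonneg hC0.le hK0) hr0.le,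
        mul_nonneg (mul_nonneg hC0.le hM0) hr0.le]
  have hδr : 2 * δ ≤ r := by nlinarith
  obtain ⟨γ, hγ0, hγ1, hγ2⟩ : ∃ γ : ℝ, 0 < γ ∧ γ ≤ r ∧ C * ((M' + 1) * γ) ≤ δ / 2 := by
    refine ⟨δ / (2 * (C * (M' + 1))), by positivity, ?_, le_of_eq (by field_simp)⟩
    rw [div_le_iff₀ (by positivity)]
    nlinarith [mul_nonneg (mul_nonneg hC0.le hM'0) hr0.le]
  have hlg1 : lg 1 = 0 := by
    have := (hlg 1 (by simp)).2
    simpa using this
  -- the objects
  let X := Fin m → unitary A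
  let A0 : X → E → unitary A := fun x => Function.extend var x 1
  let ξ : X → E → selfAdjoint A := fun x e => lg (A0 x e)
  let ω : X → ℝ := fun x => nrm E0 fun e => (A0 x e : A) - 1
  let ν : X → ℝ := fun x => max (nrm F0 fun φ => pair (ξ x) (bd φ)) (nrm E0 (N (ξ x)))
  let μ : X → ℝ := fun x => 1 + cut γ (ν x) * (r / γ - 1)
  let B1 : X → ℝ → E → unitary A := fun x s e => A0 x e * expUnitary ((-s) • ξ x e)
  let B : X → ℝ → E → unitary A := fun x s e => if e ∈ E0 then B1 x s e *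
    (expUnitary ((s * μ x) • N (ξ x) e) * expUnitary ((s * cut (γ / 2) (ν x)) • lg (a e)))
    else A0 x e
  let Θ : X → ℝ → F → unitary A := fun x s φ => if φ ∈ F0 then
    FreeGroup.lift (B1 x s) (bd φ) * expUnitary (s • pair (ξ x) (bd φ))
    else FreeGroup.lift (B x s) (bd φ)
  have hA0T : ∀ x e, e ∉ Set.range var → A0 x e = 1 := fun x e he =>
    Function.extend_apply' _ _ _ he
  have hB10 : ∀ x, B1 x 0 = A0 x := fun x => funext fun e => by simp [B1]
  have hB0 : ∀ x, B x 0 = A0 x := fun x => funext fun e => by simp [B, hB10]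
  have hΘ0 : ∀ x φ, Θ x 0 φ = FreeGroup.lift (A0 x) (bd φ) := fun x φ => by
    simp [Θ, hB10, hB0]
  have cA0 : ∀ e, Continuous fun x => A0 x e := by
    intro e
    by_cases he : e ∈ Set.range var
    · obtain ⟨j, rfl⟩ := he
      simp only [A0, hvar.extend_apply]
      exact continuous_apply j
    · simp only [hA0T _ e he]
      exact continuous_const
  have cξ : ∀ e, Continuous fun x => ξ x e := fun e => hlc.comp (cA0 e)
  have cN : ∀ e, Continuous fun x => N (ξ x) e := fun e => (hNc e).comp (continuous_pi cξ)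
  have cω : Continuous ω :=
    nrm_cont fun e => (continuous_subtype_val.comp (cA0 e)).sub continuous_const
  have cν : Continuous ν := (nrm_cont fun φ => continuous_pair cξ _).max (nrm_cont cN)
  have cμ : Continuous μ :=
    continuous_const.add (((cut_cont γ).comp cν).mul continuous_const)
  have cB1 : ∀ e, Continuous fun z : X × ℝ => B1 z.1 z.2 e := fun e =>
    ((cA0 e).comp continuous_fst).mul (continuous_expUnitary.comp
      (continuous_snd.neg.smul ((cξ e).comp continuous_fst)))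
  have cB : ∀ e, Continuous fun z : X × ℝ => B z.1 z.2 e := by
    intro e
    by_cases he : e ∈ E0
    · simp only [B, if_pos he]
      exact (cB1 e).mul ((continuous_expUnitary.comp ((continuous_snd.mul
        (cμ.comp continuous_fst)).smul ((cN e).comp continuous_fst))).mul
        (continuous_expUnitary.comp ((continuous_snd.mul
          (((cut_cont _).comp cν).comp continuous_fst)).smul continuous_const)))
    · simp only [B, if_neg he]
      exact (cA0 e).comp continuous_fst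
  have cΘ : ∀ φ, Continuous fun z : X × ℝ => Θ z.1 z.2 φ := by
    intro φ
    by_cases hφ : φ ∈ F0
    · simp only [Θ, if_pos hφ]
      exact (continuous_lift cB1 _).mul (continuous_expUnitary.comp
        (continuous_snd.smul ((continuous_pair cξ _).comp continuous_fst)))
    · simp only [Θ, if_neg hφ]
      exact continuous_lift cB _
  obtain ⟨x, hx⟩ := hA m
    (fun l => FreeGroup.lift (Function.extend var FreeGroup.of 1) (bd (face l)))
    (by
      convert hdet using 5 with l j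
      rw [pair_lift]
      congr 1
      funext e
      by_cases he : e ∈ Set.range var
      · obtain ⟨i, rfl⟩ := he
        simp [hvar.extend_apply]
      · rw [Function.extend_apply' _ _ _ he, Function.extend_apply' _ _ _ he]
        simp)
    (fun z l => Θ z.1 (z.2 * cut δ (ω z.1)) (face l))
    (continuous_pi fun l => (cΘ (face l)).comp (continuous_fst.prodMk
      ((continuous_subtype_val.comp continuous_snd).mul
        (((cut_cont δ).comp cω).comp continuous_fst))))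
    (by
      intro x l
      simp only [Set.Icc.coe_zero, zero_mul, hΘ0]
      rw [← MonoidHom.comp_apply]
      congr 1
      ext e : 1
      by_cases he : e ∈ Set.range var
      · obtain ⟨i, rfl⟩ := he
        simp [A0, hvar.extend_apply]
      · simp [hA0T _ e he, Function.extend_apply' _ _ _ he])
  simp only [Set.Icc.coe_one, one_mul] at hx
  obtain ⟨s, hs⟩ : ∃ s, s = cut δ (ω x) := ⟨_, rfl⟩
  have hsol : ∀ φ ∈ F1, Θ x s φ = 1 := by
    intro φ hφ
    obtain ⟨l, rfl⟩ : φ ∈ Set.range face := by rw [hrange]; exact hφ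
    rw [hs]
    exact hx l
  have e0 : ∀ φ ∈ F0, FreeGroup.lift (B1 x s) (bd φ) * expUnitary (s • pair (ξ x) (bd φ)) = 1 :=
    fun φ hφ => by simpa only [Θ, if_pos hφ] using hsol φ (h.sub hφ)
  have e1 : ∀ φ ∈ F1, φ ∉ F0 → FreeGroup.lift (B x s) (bd φ) = 1 :=
    fun φ hφ hφ' => by simpa only [Θ, if_neg hφ'] using hsol φ hφ
  rcases le_or_gt δ (ω x) with hω | hω
  · -- the outer region
    exfalso
    rw [cut_zero hδ0 hω] at hs
    subst hs
    have hg := fun e he => h.gauge (B := A0 x) (fun φ hφ => (hΘ0 x φ).symm.trans (hsol φ hφ))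
      (e := e) he
    have : ω x ≤ 0 := by
      refine nrm_le le_rfl fun e he => ?_
      have h1 := hT2 (fun v => if FreeGroup.lift (A0 x) (p v) =
        FreeGroup.lift (A0 x) (p (src e)) then 1 else 0) (fun e' he' hT => by
          have := hg e' he'
          rw [hA0T x e' hT, eq_comm, inv_mul_eq_one] at this
          simp only [this]) e he
      simp only [if_true] at h1
      have h2 : FreeGroup.lift (A0 x) (p (tgt e)) = FreeGroup.lift (A0 x) (p (src e)) := by
        by_contra h2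
        simp [h2] at h1
      rw [hg e he, h2]
      simp
    linarith
  have hAe : ∀ e ∈ E0, ‖(A0 x e : A) - 1‖ ≤ ω x := fun e he => le_nrm (fun e => (A0 x e : A) - 1) he
  have hexp : ∀ e ∈ E0, expUnitary (ξ x e) = A0 x e := fun e he =>
    (hlg _ ((hAe e he).trans (by linarith))).1
  have hξδ : ∀ e ∈ E0, ‖ξ x e‖ ≤ 2 * δ := fun e he =>
    (hlg _ ((hAe e he).trans (by linarith))).2.trans (by linarith [hAe e he])
  have hξT : ∀ e ∈ E0, e ∉ Set.range var → ξ x e = 0 := fun e _ he => by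
    simp only [ξ, hA0T x e he, hlg1]
  have hωη : ω x ≤ nrm E0 (ξ x) := nrm_le nrm_nonneg fun e he => by
    rw [← hexp e he]
    exact (norm_exp_sub_one _).trans (le_nrm _ he)
  have hB1 : ∀ e ∈ E0, B1 x s e = expUnitary ((1 - s) • ξ x e) := fun e he => by
    simp only [B1]
    rw [← hexp e he, sub_eq_add_neg, ← exp_smul_mul, one_smul]
  have hν0 : 0 ≤ ν x := le_max_of_le_left nrm_nonneg
  rcases le_or_gt (δ / 2) (ω x) with hω' | hω'
  · -- the small annulus
    exfalso
    have h1 : ∀ e ∈ E0, ‖ξ x e‖ ≤ C * ((M' + 1) * ν x) := by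
      refine hN4 _ 1 _ zero_le_one le_rfl (by positivity) hξT (fun φ hφ => ?_) fun e he => ?_
      · have : ‖pair (ξ x) (bd φ)‖ ≤ ν x :=
          (le_nrm (fun φ => pair (ξ x) (bd φ)) hφ).trans (le_max_left _ _)
        nlinarith
      · rw [sub_self, zero_smul, zero_add, one_smul]
        have := pair_le (hM' e he).1 hν0 (ζ := N (ξ x))
          fun e he => (le_nrm _ he).trans (le_max_right _ _)
        nlinarith
    have h2 : γ ≤ ν x := by
      have h3 := hω'.trans (hωη.trans (nrm_le (by positivity) h1))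
      have h4 : C * ((M' + 1) * γ) ≤ C * ((M' + 1) * ν x) := hγ2.trans h3
      exact le_of_mul_le_mul_left (le_of_mul_le_mul_left h4 hC0) (by positivity)
    have hB : ∀ e ∈ E0, B x s e = expUnitary ((1 - s) • ξ x e) * expUnitary (s • N (ξ x) e) := by
      intro e he
      simp only [B, if_pos he, hB1 e he, μ, cut_zero hγ0 h2,
        cut_zero (half_pos hγ0) ((half_le_self hγ0.le).trans h2)]
      simp
    have hη0 : 0 ≤ nrm E0 (ξ x) := nrm_nonneg
    obtain ⟨a1, a2⟩ := stage1 (Z := (E0 : Set E)) (F0 := (F0 : Set F)) (F1 := (F1 : Set F))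
      (M := M') (fun φ hφ => (h.len_bd φ hφ).mono le_rfl hMM) (θ := C * nrm E0 (ξ x))
      (by positivity) (hs ▸ cut_nonneg _ _) (hs ▸ cut_le_one _ _)
      (fun e he => (le_nrm _ he).trans (le_mul_of_one_le_left hη0 hC))
      (hN3 _ _ hη0 fun e he => le_nrm _ he) (hN1 _) hB1 hB e0 e1
    have h3 : nrm E0 (ξ x) ≤ C * (K * nrm E0 (ξ x) ^ 2) := by
      refine nrm_le (by positivity) (hN4 _ s _ (hs ▸ cut_nonneg _ _) (hs ▸ cut_le_one _ _)
        (by positivity) hξT (fun φ hφ => (a1 φ hφ).trans ?_) fun e he =>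
          (a2 _ (hM' e he).1 (hM' e he).2).trans (le_of_eq ?_))
      · rw [hK, mul_pow, ← mul_assoc]
        gcongr
        nlinarith [pow_nonneg hM'0 3, pow_nonneg hM'0 2]
      · rw [hK]
        ring
    have h4 : nrm E0 (ξ x) ≤ 2 * δ := nrm_le (by positivity) hξδ
    have h5 : 0 < nrm E0 (ξ x) := by linarith
    have h6 : C * K * nrm E0 (ξ x) < 1 :=
      (mul_le_mul_of_nonneg_left h4 (by positivity)).trans_lt hδ1
    nlinarith
  -- the inner region
  rw [cut_one hδ0 hω'.le] at hs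
  subst hs
  have d0 : ∀ φ ∈ F0, pair (ξ x) (bd φ) = 0 := by
    intro φ hφ
    refine eq_zero_of_exp ((pair_le (h.len_bd φ hφ) (by positivity) hξδ).trans_lt hδ2) ?_
    have h1 := e0 φ hφ
    have h2 : FreeGroup.lift (fun _ : E => (1 : unitary A)) = 1 := by ext; simp
    rwa [lift_congr (h.len_bd φ hφ).mem (a' := fun _ => 1) (fun e he => by
      rw [hB1 e he]; simp), h2, MonoidHom.one_apply, one_mul, one_smul] at h1
  have hν : ν x = nrm E0 (N (ξ x)) :=
    max_eq_right ((nrm_le le_rfl fun φ hφ => by simp [d0 φ hφ]).trans nrm_nonneg)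
  have hνr : ν x ≤ r := by
    rw [hν]
    exact nrm_le hr0.le fun e he => (hN3 _ _ (by positivity) hξδ e he).trans hδ3
  have hq : 1 ≤ r / γ := (one_le_div hγ0).2 hγ1
  have hμ1 : 1 ≤ μ x := le_add_of_nonneg_right (mul_nonneg (cut_nonneg _ _) (by linarith))
  have hμ2 : μ x ≤ r / γ := by
    have := mul_le_of_le_one_left (sub_nonneg.2 hq) (cut_le_one γ (ν x))
    simp only [μ]
    linarith
  have hη : nrm E0 (μ x • N (ξ x)) = μ x * ν x := by rw [nrm_smul (by linarith), hν]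
  have hηr : nrm E0 (μ x • N (ξ x)) ≤ r := by
    rw [hη]
    rcases le_total γ (ν x) with h1 | h1
    · simp only [μ, cut_zero hγ0 h1]
      simpa using hνr
    · calc μ x * ν x ≤ r / γ * γ := mul_le_mul hμ2 h1 hν0 (by positivity)
        _ = r := by field_simp
  obtain ⟨t, ht⟩ : ∃ t, t = cut (γ / 2) (ν x) := ⟨_, rfl⟩
  have hla : ∀ e ∈ E0, expUnitary (lg (a e)) = a e ∧ ‖lg (a e)‖ ≤ 2 * ε := fun e he =>
    (hlg _ ((ha1 e he).trans (by linarith))).imp id fun h => h.trans (by linarith [ha1 e he])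
  have hb : ∀ e ∈ E0, ‖(expUnitary (t • lg (a e)) : A) - 1‖ ≤ 2 * ε := by
    intro e he
    refine (norm_exp_sub_one _).trans ?_
    rw [norm_smul, Real.norm_of_nonneg (ht ▸ cut_nonneg _ _)]
    exact (mul_le_of_le_one_left (norm_nonneg _) (ht ▸ cut_le_one _ _)).trans (hla e he).2
  have hB : ∀ e ∈ E0, B x 1 e = expUnitary ((μ x • N (ξ x)) e) * expUnitary (t • lg (a e)) := by
    intro e he
    simp only [B, if_pos he, hB1 e he, ← ht]
    simp
  have key : ∀ κ : ℝ, 0 ≤ κ → (∀ w, Len (FreeGroup.of '' (E0 : Set E)) M w →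
      FreeGroup.lift a w = 1 →
      ‖(FreeGroup.lift (fun e => expUnitary (t • lg (a e))) w : unitary A) - (1 : A)‖ ≤ κ) →
      μ x * ν x ≤ 2 * (M + 1) * κ := by
    intro κ hκ H
    rw [← hη]
    refine h.inner hr hκ hηr (fun e he => (hb e he).trans hε1) hB (fun φ hφ => ?_)
      (fun e he => ?_) (fun φ hφ => H _ (h.len_bd φ hφ) (ha2 φ hφ))
      (fun e he => H _ (h.len_l e he) (ha3 e he)) e1
    · rw [pair_smul, hN1 _ φ hφ, smul_zero]
    · rw [pair_smul, hN2 _ e he]
      rfl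
  rcases le_or_gt (ν x) (γ / 2 / 2) with h1 | h1
  · rw [cut_one (half_pos hγ0) h1] at ht
    subst ht
    have h2 := key 0 le_rfl fun w hw hw' => by
      rw [lift_congr hw.mem (a' := a) fun e he => by rw [one_smul, (hla e he).1], hw']
      simp
    rw [mul_zero, ← hη] at h2
    have h3 : ∀ e ∈ E0, B x 1 e = a e := by
      intro e he
      rw [hB e he, norm_le_zero_iff.1 ((le_nrm _ he).trans h2), one_smul, (hla e he).1]
      simp
    refine ⟨fun v => FreeGroup.lift (B x 1) (p v), fun e he => (h3 e he).symm.trans ?_⟩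
    refine h.gauge (fun φ hφ => ?_) he
    by_cases hφ' : φ ∈ F0
    · rw [lift_congr (h.len_bd φ hφ').mem h3, ha2 φ hφ']
    · exact e1 φ hφ hφ'
  exfalso
  rcases le_total (γ / 2) (ν x) with h2 | h2
  · rw [cut_zero (half_pos hγ0) h2] at ht
    subst ht
    have h3 := key 0 le_rfl fun w _ _ => by
      have h2 : FreeGroup.lift (fun _ : E => (1 : unitary A)) = 1 := by ext; simp
      simp [h2]
    nlinarith
  · have h3 := key (M * (2 * ε)) (by positivity) fun w hw _ => hol_le hw (by positivity) hb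
    have h4 : μ x = r / γ := by simp only [μ, cut_one hγ0 h2]; ring
    have h5 : r / 4 ≤ μ x * ν x := by
      rw [h4]
      calc r / 4 = r / γ * (γ / 2 / 2) := by field_simp; norm_num
        _ ≤ _ := mul_le_mul_of_nonneg_left h1.le (by positivity)
    linarith

end Vale.Agent.P173
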