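import Vale.Agent.P173.BasicC

/-! The linear algebra behind the analytic core. -/

namespace Vale.Agent.P173

universe u

variable {V E F : Type u} {src tgt : E → V} {bd : F → FreeGroup E} {E0 : Finset E}
  {F0 F1 : Finset F} {ℓ : E → FreeGroup E} {p : V → FreeGroup E} {M : ℕ}

/-- evaluation on a word as a linear functional -/
def pairL (w : FreeGroup E) : (E → ℝ) →ₗ[ℝ] ℝ where
  toFun z := pair z w
  map_add' z z' := pair_add z z' w
  map_smul' c z := pair_smul c z w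

lemma pairL_apply (w : FreeGroup E) (z : E → ℝ) : pairL w z = pair z w := rfl

lemma pair_eq_sum [DecidableEq E] {Z : Finset E} {w : FreeGroup E}
    (hw : w ∈ Subgroup.closure (FreeGroup.of '' (Z : Set E))) (z : E → ℝ) :
    pair z w = ∑ e ∈ Z, z e * pair (Pi.single e (1 : ℝ) : E → ℝ) w := by
  have h1 : pair z w = pairL w (∑ e ∈ Z, z e • (Pi.single e (1 : ℝ) : E → ℝ)) := by
    refine pair_congr hw fun e he => ?_
    simp [Finset.sum_apply, Pi.single_apply, Finset.mem_coe.1 he]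
  rw [h1, map_sum]
  exact Finset.sum_congr rfl fun e _ => by rw [map_smul]; rfl

lemma pair_sub_cob {w : FreeGroup E} {y : V} (h : Cov src tgt w y y) (z : E → ℝ) (ψ : V → ℝ) :
    pair (fun e => z e - (ψ (tgt e) - ψ (src e))) w = pair z w := by
  have := pair_sub z (fun e => ψ (tgt e) - ψ (src e)) w
  rw [h.pair, sub_self, sub_zero] at this
  exact this

/-- A maximal forest: functions on `T` are coboundaries, and `T` spans. -/
theorem exists_forest (src tgt : E → V) (E0 : Finset E) : ∃ T : Set E, T ⊆ E0 ∧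
    (∀ c : E → ℝ, ∃ ψ : V → ℝ, ∀ e ∈ T, c e = ψ (tgt e) - ψ (src e)) ∧
    ∀ ψ : V → ℝ, (∀ e ∈ T, ψ (tgt e) = ψ (src e)) → ∀ e ∈ E0, ψ (tgt e) = ψ (src e) := by
  let v : E → V →₀ ℝ := fun e => Finsupp.single (tgt e) 1 - Finsupp.single (src e) 1
  obtain ⟨T, hT, -, hsp, hli⟩ := exists_linearIndepOn_extension (linearIndepOn_empty ℝ v)
    (Set.empty_subset (E0 : Set E))
  refine ⟨T, hT, fun c => ?_, fun ψ hψ e he => ?_⟩
  · obtain ⟨g, hg⟩ := (Finsupp.linearCombination ℝ fun e : T => v e).exists_leftInverse_of_injective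
      (LinearMap.ker_eq_bot.2 hli)
    let L := Finsupp.linearCombination ℝ (fun e : T => c e) ∘ₗ g
    refine ⟨fun y => L (Finsupp.single y 1), fun e he => ?_⟩
    have h1 := LinearMap.congr_fun hg (Finsupp.single ⟨e, he⟩ 1)
    rw [LinearMap.comp_apply, Finsupp.linearCombination_single, one_smul] at h1
    rw [← map_sub]
    change c e = Finsupp.linearCombination ℝ (fun e : T => c e) (g (v e))
    rw [h1]
    simp
  · have h1 : ∀ e, Finsupp.linearCombination ℝ ψ (v e) = ψ (tgt e) - ψ (src e) := fun e => by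
      simp [v]
    have h2 : Submodule.span ℝ (v '' T) ≤ LinearMap.ker (Finsupp.linearCombination ℝ ψ) := by
      rw [Submodule.span_le]
      rintro _ ⟨e, he, rfl⟩
      exact (h1 e).trans (sub_eq_zero.2 (hψ e he))
    exact sub_eq_zero.1 ((h1 e).symm.trans (h2 (hsp ⟨e, he, rfl⟩)))

lemma exists_finset_mem_all (bd : F → FreeGroup E) (F1 : Finset F) :
    ∃ Z : Finset E, ∀ φ ∈ F1, bd φ ∈ Subgroup.closure (FreeGroup.of '' (Z : Set E)) := by
  classical
  choose Z hZ using fun φ => exists_finset_mem (bd φ)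
  exact ⟨F1.biUnion Z, fun φ hφ => Subgroup.closure_mono
    (Set.image_mono (Finset.coe_subset.2 (Finset.subset_biUnion_of_mem Z hφ))) (hZ φ)⟩

lemma cob_of_lam {c : E → ℝ} {e : E}
    (h : pair c (p (src e) * FreeGroup.of e * (p (tgt e))⁻¹) = 0) :
    c e = pair c (p (tgt e)) - pair c (p (src e)) := by
  rw [pair_mul, pair_mul, pair_inv, pair_of] at h
  linarith

/-- The choice of variables: a square nonsingular system whose unknowns contain all edges of
`E0` outside a maximal forest. -/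
theorem Fin2.exists_vars (h : Fin2 src tgt bd E0 F0 F1 ℓ p M) :
    ∃ (m : ℕ) (var : Fin m → E) (face : Fin m → F), Function.Injective var ∧
      Function.Injective face ∧ Set.range face = F1 ∧
      (Matrix.of fun l j => pair (Function.extend var (Pi.single j (1 : ℝ)) 0)
        (bd (face l))).det ≠ 0 ∧
      (∀ c : E → ℝ, ∃ ψ : V → ℝ, ∀ e ∈ E0, e ∉ Set.range var → c e = ψ (tgt e) - ψ (src e)) ∧
      ∀ ψ : V → ℝ, (∀ e ∈ E0, e ∉ Set.range var → ψ (tgt e) = ψ (src e)) →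
        ∀ e ∈ E0, ψ (tgt e) = ψ (src e) := by
  classical
  obtain ⟨T, hT, hT1, hT2⟩ := exists_forest src tgt E0
  let d : E → F1 → ℝ := fun e φ => pair (Pi.single e (1 : ℝ) : E → ℝ) (bd φ)
  have hspan : ⊤ ≤ Submodule.span ℝ (d '' Tᶜ) := by
    rw [← (Pi.basisFun ℝ F1).span_eq, Submodule.span_le]
    rintro _ ⟨φ, rfl⟩
    obtain ⟨β, hβ1, hβ2⟩ := h.h2 φ φ.2
    obtain ⟨ψ, hψ⟩ := hT1 β
    obtain ⟨Z, hZ⟩ := exists_finset_mem_all bd F1
    have h1 : Pi.basisFun ℝ F1 φ = ∑ e ∈ Z, (β e - (ψ (tgt e) - ψ (src e))) • d e := by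
      funext φ'
      obtain ⟨y, hy⟩ := h.cov φ' φ'.2
      rw [Finset.sum_apply]
      refine Eq.trans ?_ (pair_eq_sum (hZ φ' φ'.2) fun e => β e - (ψ (tgt e) - ψ (src e)))
      rw [pair_sub_cob hy, Pi.basisFun_apply]
      by_cases hφ : φ' = φ
      · rw [hφ, hβ1, Pi.single_eq_same]
      · rw [hβ2 φ' φ'.2 fun h => hφ (Subtype.ext h), Pi.single_eq_of_ne hφ]
    rw [h1]
    refine Submodule.sum_mem _ fun e _ => ?_
    by_cases he : e ∈ T
    · rw [← hψ e he, sub_self, zero_smul]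
      exact Submodule.zero_mem _
    · exact Submodule.smul_mem _ _ (Submodule.subset_span ⟨e, he, rfl⟩)
  have hli : LinearIndepOn ℝ d ((E0 : Set E) \ T) := by
    rw [linearIndepOn_iff']
    intro t g ht hg
    let c : E → ℝ := ∑ e ∈ t, g e • (Pi.single e (1 : ℝ) : E → ℝ)
    have hc : ∀ e, c e = if e ∈ t then g e else 0 := fun e => by
      simp [c, Finset.sum_apply, Pi.single_apply]
    have h1 : ∀ x ∈ bd '' (F1 : Set F), pair c x = 0 := by
      rintro _ ⟨φ, hφ, rfl⟩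
      have := congrFun hg ⟨φ, hφ⟩
      rw [Finset.sum_apply] at this
      rw [← pairL_apply, map_sum]
      refine Eq.trans (Finset.sum_congr rfl fun e _ => ?_) this
      rw [map_smul]
      rfl
    have h2 : ∀ e ∈ E0, c e = pair c (p (tgt e)) - pair c (p (src e)) := fun e he =>
      cob_of_lam (pair_eq_zero_of_mem (h.lam_mem e he) h1)
    have h3 := hT2 (fun y => pair c (p y)) fun e he => by
      rw [← sub_eq_zero, ← h2 e (hT he), hc, if_neg fun h' : e ∈ t => (ht h').2 he]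
    intro e he
    have h4 := h2 e (ht he).1
    rw [hc, if_pos he] at h4
    exact h4.trans (sub_eq_zero.2 (h3 e (ht he).1))
  obtain ⟨B, hB1, hB2, hB3, hB4⟩ := exists_linearIndepOn_extension hli (t := Tᶜ) fun e he => he.2
  have hfin : Finite B := LinearIndependent.finite hB4
  have := Fintype.ofFinite B
  have hsp : ⊤ ≤ Submodule.span ℝ (Set.range fun e : B => d e) := by
    rw [← Set.image_eq_range]
    exact hspan.trans (Submodule.span_le.2 hB3)
  have hcard : Fintype.card B = F1.card := by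
    rw [← Module.finrank_eq_card_basis (Module.Basis.mk hB4 hsp), Module.finrank_fintype_fun_eq_card,
      Fintype.card_coe]
  let eB : Fin F1.card ≃ B := (Fintype.equivFinOfCardEq hcard).symm
  let eF : Fin F1.card ≃ F1 := F1.equivFin.symm
  have hinj : Function.Injective fun j => (eB j : E) := Subtype.val_injective.comp eB.injective
  have hr : Set.range (fun j => (eB j : E)) = B :=
    (eB.surjective.range_comp Subtype.val).trans Subtype.range_coe
  refine ⟨F1.card, fun j => eB j, fun l => eF l, hinj, Subtype.val_injective.comp eF.injective,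
    (eF.surjective.range_comp Subtype.val).trans Subtype.range_coe, ?_, fun c => ?_,
    fun ψ hψ => hT2 ψ fun e he => hψ e (hT he) ?_⟩
  · have h1 : ∀ j, Function.extend (fun j => (eB j : E)) (Pi.single j (1 : ℝ)) 0 =
        (Pi.single (eB j : E) (1 : ℝ) : E → ℝ) := fun j => by
      funext e
      by_cases he : ∃ i, (eB i : E) = e
      · obtain ⟨i, rfl⟩ := he
        rw [hinj.extend_apply]
        simp only [Pi.single_apply, hinj.eq_iff]
      · rw [Function.extend_apply' _ _ _ he, Pi.single_eq_of_ne fun h' => he ⟨j, h'.symm⟩]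
        rfl
    simp only [h1]
    refine IsUnit.ne_zero ((Matrix.isUnit_iff_isUnit_det _).1
      (Matrix.linearIndependent_cols_iff_isUnit.1 ?_))
    exact (LinearIndependent.comp hB4 eB eB.injective).map'
      (LinearEquiv.funCongrLeft ℝ ℝ eF).toLinearMap (LinearEquiv.ker _)
  · obtain ⟨ψ, hψ⟩ := hT1 c
    refine ⟨ψ, fun e he he' => hψ e (by_contra fun h' => he' ?_)⟩
    rw [hr]
    exact hB2 ⟨he, h'⟩
  · rw [hr]
    exact fun h' => hB1 h' he

/-- The real-valued version of the projection. -/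
lemma Fin2.exists_proj_real (h : Fin2 src tgt bd E0 F0 F1 ℓ p M) {T : Set E}
    (hT1 : ∀ c : E → ℝ, ∃ ψ : V → ℝ, ∀ e ∈ E0, e ∈ T → c e = ψ (tgt e) - ψ (src e))
    (hT2 : ∀ ψ : V → ℝ, (∀ e ∈ E0, e ∈ T → ψ (tgt e) = ψ (src e)) →
      ∀ e ∈ E0, ψ (tgt e) = ψ (src e)) :
    ∃ (n : E → E → ℝ) (k : E → E0 → ℝ) (r : E → F0 → ℝ), ∀ z N : E → ℝ,
      (∀ e, N e = ∑ j ∈ E0, n e j * z j) →
      (∀ φ ∈ F0, pair N (bd φ) = 0) ∧ (∀ e ∈ E0, pair N (ℓ e) = N e) ∧
      ∀ s : ℝ, (∀ e ∈ E0, e ∈ T → z e = 0) → ∀ e ∈ E0, z e =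
        ∑ j : E0, k e j * pair ((1 - s) • z + s • N)
          (p (src j) * FreeGroup.of (j : E) * (p (tgt j))⁻¹) +
        s * ∑ φ : F0, r e φ * pair z (bd φ) := by
  classical
  let C : Submodule ℝ (E → ℝ) :=
    { carrier := {z | ∀ e, ¬ (e ∈ E0 ∧ e ∉ T) → z e = 0}
      add_mem' := fun {a b} ha hb e he => by rw [Pi.add_apply, ha e he, hb e he, add_zero]
      zero_mem' := fun _ _ => rfl
      smul_mem' := fun c z hz e he => by rw [Pi.smul_apply, hz e he, smul_zero] }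
  let κ : (E → ℝ) →ₗ[ℝ] C :=
    { toFun := fun z => ⟨fun e => if e ∈ E0 ∧ e ∉ T then z e else 0, fun e he => if_neg he⟩
      map_add' := fun a b => Subtype.ext (funext fun e => by
        by_cases he : e ∈ E0 ∧ e ∉ T <;> simp [he])
      map_smul' := fun c a => Subtype.ext (funext fun e => by
        by_cases he : e ∈ E0 ∧ e ∉ T <;> simp [he]) }
  have hκ : ∀ z : E → ℝ, (∀ e ∈ E0, e ∈ T → z e = 0) → ∀ e ∈ (E0 : Set E), (κ z).1 e = z e := by
    intro z hz e he
    change (if e ∈ E0 ∧ e ∉ T then z e else 0) = z e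
    by_cases hT : e ∈ T
    · rw [if_neg fun h' => h'.2 hT, hz e he hT]
    · rw [if_pos ⟨he, hT⟩]
  have hκs : ∀ z : E → ℝ, κ z = ∑ j ∈ E0, z j • κ (Pi.single j 1) := by
    intro z
    simp only [← map_smul, ← map_sum]
    refine Subtype.ext (funext fun e => ?_)
    change (if e ∈ E0 ∧ e ∉ T then _ else 0) = (if e ∈ E0 ∧ e ∉ T then _ else 0)
    split_ifs with he
    · simp [Finset.sum_apply, Pi.single_apply, he.1]
    · rfl
  let δ : C →ₗ[ℝ] (F0 → ℝ) := LinearMap.pi (fun φ : F0 => pairL (bd φ)) ∘ₗ C.subtype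
  have hδ : ∀ c φ, δ c φ = pair c.1 (bd φ) := fun _ _ => rfl
  have hδs : LinearMap.range δ = ⊤ := by
    rw [eq_top_iff, ← (Pi.basisFun ℝ F0).span_eq, Submodule.span_le]
    rintro _ ⟨φ, rfl⟩
    obtain ⟨β, hβ1, hβ2⟩ := h.h2 φ (h.sub φ.2)
    obtain ⟨ψ, hψ⟩ := hT1 β
    refine ⟨κ fun e => β e - (ψ (tgt e) - ψ (src e)), funext fun φ' => ?_⟩
    obtain ⟨y, hy⟩ := h.cov φ' (h.sub φ'.2)
    rw [hδ, pair_congr (h.len_bd φ' φ'.2).mem
      (hκ _ fun e he heT => sub_eq_zero.2 (hψ e he heT)), pair_sub_cob hy, Pi.basisFun_apply]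
    by_cases hφ : φ' = φ
    · rw [hφ, hβ1, Pi.single_eq_same]
    · rw [hβ2 φ' (h.sub φ'.2) fun h => hφ (Subtype.ext h), Pi.single_eq_of_ne hφ]
  obtain ⟨R, hR⟩ := δ.exists_rightInverse_of_surjective hδs
  let Λ : C →ₗ[ℝ] (E0 → ℝ) := LinearMap.pi (fun j : E0 =>
    pairL (p (src j) * FreeGroup.of (j : E) * (p (tgt j))⁻¹)) ∘ₗ C.subtype
  have hΛ : ∀ c j, Λ c j = pair c.1 (p (src j) * FreeGroup.of (j : E) * (p (tgt j))⁻¹) :=
    fun _ _ => rfl
  have hΛi : LinearMap.ker Λ = ⊥ := by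
    refine LinearMap.ker_eq_bot'.2 fun c hc => Subtype.ext (funext fun e => ?_)
    have h2 : ∀ e ∈ E0, c.1 e = pair c.1 (p (tgt e)) - pair c.1 (p (src e)) := fun e he =>
      cob_of_lam ((hΛ c ⟨e, he⟩).symm.trans (congrFun hc _))
    have h3 := hT2 (fun y => pair c.1 (p y)) fun e he heT => by
      rw [← sub_eq_zero, ← h2 e he, c.2 e fun h' => h'.2 heT]
    by_cases he : e ∈ E0
    · exact (h2 e he).trans (sub_eq_zero.2 (h3 e he))
    · exact c.2 e fun h' => he h'.1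
  obtain ⟨K, hK⟩ := Λ.exists_leftInverse_of_injective hΛi
  let Q : (E → ℝ) →ₗ[ℝ] C := κ - R ∘ₗ δ ∘ₗ κ
  have hQ : ∀ z, Q z = κ z - R (δ (κ z)) := fun _ => rfl
  refine ⟨fun e j => pair (Q (Pi.single j 1)).1 (ℓ e), fun e j => (K fun i => if j = i then 1 else 0).1 e,
    fun e φ => (R fun i => if φ = i then 1 else 0).1 e, fun z N hN => ?_⟩
  have hN' : ∀ e, N e = pair (Q z).1 (ℓ e) := fun e => by
    have h1 : Q z = ∑ j ∈ E0, z j • Q (Pi.single j 1) := by
      simp only [hQ, smul_sub, Finset.sum_sub_distrib, ← map_smul R, ← map_smul δ, ← map_sum,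
        ← hκs]
    rw [hN, h1]
    change _ = (pairL (ℓ e) ∘ₗ C.subtype) _
    rw [map_sum]
    exact Finset.sum_congr rfl fun j _ => by rw [map_smul, mul_comm]; rfl
  obtain ⟨ψ, hψ⟩ := h.coc (Q z).1 fun φ hφ => by
    have h1 : δ (Q z) = 0 := by
      rw [hQ, map_sub, ← LinearMap.comp_apply δ R, hR, LinearMap.id_apply, sub_self]
    exact congrFun h1 ⟨φ, hφ⟩
  have key : ∀ w y, w ∈ Subgroup.closure (FreeGroup.of '' (E0 : Set E)) → Cov src tgt w y y →
      pair N w = pair (Q z).1 w := fun w y hw hy => by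
    rw [← pair_sub_cob hy (Q z).1 ψ]
    exact pair_congr hw fun e he => by rw [← hψ e he, hN', sub_sub_cancel]
  refine ⟨fun φ hφ => ?_, fun e he => ?_, fun s hz e he => ?_⟩
  · obtain ⟨y, hy⟩ := h.cov φ (h.sub hφ)
    have h1 : δ (Q z) = 0 := by
      rw [hQ, map_sub, ← LinearMap.comp_apply δ R, hR, LinearMap.id_apply, sub_self]
    rw [key _ y (h.len_bd φ hφ).mem hy]
    exact congrFun h1 ⟨φ, hφ⟩
  · obtain ⟨y, hy⟩ := h.cov_l e he
    rw [key _ y (h.len_l e he).mem hy, hN']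
  · let y : E0 → ℝ := fun j => pair ((1 - s) • z + s • N)
      (p (src j) * FreeGroup.of (j : E) * (p (tgt j))⁻¹)
    have h1 : Λ (κ z) = y + s • Λ (R (δ (κ z))) := by
      funext j
      have hw : p (src j) * FreeGroup.of (j : E) * (p (tgt j))⁻¹ ∈
          Subgroup.closure (FreeGroup.of '' (E0 : Set E)) :=
        mul_mem (mul_mem (h.p_mem _) (Subgroup.subset_closure ⟨j, j.2, rfl⟩)) (inv_mem (h.p_mem _))
      obtain ⟨y', hy'⟩ := h.cov_lam j j.2
      have h2 : Λ (Q z) j = Λ (κ z) j - Λ (R (δ (κ z))) j := by rw [hQ, map_sub]; rfl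
      have h3 : y j = (1 - s) * Λ (κ z) j + s * Λ (Q z) j := by
        simp only [y]
        rw [pair_add, pair_smul, pair_smul, key _ y' hw hy', hΛ, hΛ, pair_congr hw (hκ z hz)]
        rfl
      rw [Pi.add_apply, Pi.smul_apply, h3, h2, smul_eq_mul]
      ring
    have h2 : ∀ c, K (Λ c) = c := fun c => LinearMap.congr_fun hK c
    have h3 : κ z = K y + s • R (δ (κ z)) := by
      conv_lhs => rw [← h2 (κ z), h1, map_add, map_smul, h2]
    have h4 : δ (κ z) = fun φ : F0 => pair z (bd φ) := funext fun φ => by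
      rw [hδ, pair_congr (h.len_bd φ φ.2).mem (hκ z hz)]
    rw [← hκ z hz e he, h3, h4, LinearMap.pi_apply_eq_sum_univ K, LinearMap.pi_apply_eq_sum_univ R]
    simp only [Submodule.coe_add, Submodule.coe_smul, Submodule.coe_sum, Pi.add_apply,
      Pi.smul_apply, Finset.sum_apply, smul_eq_mul]
    congr 1
    · exact Finset.sum_congr rfl fun j _ => mul_comm _ _
    · congr 1
      exact Finset.sum_congr rfl fun j _ => mul_comm _ _

lemma norm_sum_smul_le {ι S : Type*} [NormedAddCommGroup S] [NormedSpace ℝ S] (A : Finset ι)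
    (a : ι → ℝ) (x : ι → S) {η : ℝ} (hx : ∀ i ∈ A, ‖x i‖ ≤ η) :
    ‖∑ i ∈ A, a i • x i‖ ≤ (∑ i ∈ A, |a i|) * η := by
  rw [Finset.sum_mul]
  refine norm_sum_le_of_le _ fun i hi => ?_
  rw [norm_smul, Real.norm_eq_abs]
  exact mul_le_mul_of_nonneg_left (hx i hi) (abs_nonneg _)

/-- The projection onto normalised cocycles, for coefficients in a real normed space. Here `T` is
the forest and only cochains vanishing on `T` matter. -/
theorem Fin2.exists_proj (h : Fin2 src tgt bd E0 F0 F1 ℓ p M) {T : Set E}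
    (hT1 : ∀ c : E → ℝ, ∃ ψ : V → ℝ, ∀ e ∈ E0, e ∈ T → c e = ψ (tgt e) - ψ (src e))
    (hT2 : ∀ ψ : V → ℝ, (∀ e ∈ E0, e ∈ T → ψ (tgt e) = ψ (src e)) →
      ∀ e ∈ E0, ψ (tgt e) = ψ (src e))
    (S : Type*) [NormedAddCommGroup S] [NormedSpace ℝ S] :
    ∃ (N : (E → S) → E → S) (C : ℝ), 1 ≤ C ∧
      (∀ e, Continuous fun ξ : E → S => N ξ e) ∧
      (∀ ξ, ∀ φ ∈ F0, pair (N ξ) (bd φ) = 0) ∧
      (∀ ξ, ∀ e ∈ E0, pair (N ξ) (ℓ e) = N ξ e) ∧
      (∀ ξ (η : ℝ), 0 ≤ η → (∀ e ∈ E0, ‖ξ e‖ ≤ η) → ∀ e ∈ E0, ‖N ξ e‖ ≤ C * η) ∧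
      ∀ ξ (s η : ℝ), 0 ≤ s → s ≤ 1 → 0 ≤ η → (∀ e ∈ E0, e ∈ T → ξ e = 0) →
        (∀ φ ∈ F0, ‖pair ξ (bd φ)‖ ≤ η) →
        (∀ e ∈ E0, ‖pair ((1 - s) • ξ + s • N ξ)
          (p (src e) * FreeGroup.of e * (p (tgt e))⁻¹)‖ ≤ η) →
        ∀ e ∈ E0, ‖ξ e‖ ≤ C * η := by
  obtain ⟨n, k, r, H⟩ := h.exists_proj_real hT1 hT2
  let N : (E → S) → E → S := fun ξ e => ∑ j ∈ E0, n e j • ξ j
  let c : E → ℝ := fun e => ∑ j ∈ E0, |n e j| + (∑ j, |k e j| + ∑ φ, |r e φ|)
  have h1 : ∀ e, 0 ≤ ∑ j ∈ E0, |n e j| := fun e => Finset.sum_nonneg fun _ _ => abs_nonneg _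
  have h2 : ∀ e, 0 ≤ ∑ j, |k e j| := fun e => Finset.sum_nonneg fun _ _ => abs_nonneg _
  have h3 : ∀ e, 0 ≤ ∑ φ, |r e φ| := fun e => Finset.sum_nonneg fun _ _ => abs_nonneg _
  have hc0 : ∀ e, 0 ≤ c e := fun e => add_nonneg (h1 e) (add_nonneg (h2 e) (h3 e))
  have hc : ∀ e ∈ E0, c e ≤ 1 + ∑ e ∈ E0, c e := fun e he =>
    (Finset.single_le_sum (fun e _ => hc0 e) he).trans (le_add_of_nonneg_left zero_le_one)
  have hθ : ∀ (θ : Module.Dual ℝ S) (z : E → S) (w : FreeGroup E),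
      θ (pair z w) = pair (fun e => θ (z e)) w := fun θ z w => pair_hom θ.toAddMonoidHom z w
  have H' := fun (θ : Module.Dual ℝ S) (ξ : E → S) =>
    H (fun e => θ (ξ e)) (fun e => θ (N ξ e)) fun e => by simp [N]
  refine ⟨N, 1 + ∑ e ∈ E0, c e, le_add_of_nonneg_right (Finset.sum_nonneg fun e _ => hc0 e),
    fun e => by fun_prop, fun ξ φ hφ => ?_, fun ξ e he => ?_, fun ξ η hη hξ e he => ?_,
    fun ξ s η hs0 hs1 hη hT hφ hl e he => ?_⟩
  · refine (Module.forall_dual_apply_eq_zero_iff ℝ _).1 fun θ => ?_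
    rw [hθ]
    exact (H' θ ξ).1 φ hφ
  · rw [← sub_eq_zero]
    refine (Module.forall_dual_apply_eq_zero_iff ℝ _).1 fun θ => ?_
    rw [map_sub, hθ, (H' θ ξ).2.1 e he, sub_self]
  · refine (norm_sum_smul_le E0 (n e) ξ hξ).trans (mul_le_mul_of_nonneg_right ?_ hη)
    exact (le_add_of_nonneg_right (add_nonneg (h2 e) (h3 e))).trans (hc e he)
  · have h4 : ξ e = ∑ j : E0, k e j • pair ((1 - s) • ξ + s • N ξ)
        (p (src j) * FreeGroup.of (j : E) * (p (tgt j))⁻¹) +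
        s • ∑ φ : F0, r e φ • pair ξ (bd φ) := by
      rw [← sub_eq_zero]
      refine (Module.forall_dual_apply_eq_zero_iff ℝ _).1 fun θ => ?_
      rw [map_sub, (H' θ ξ).2.2 s (fun e he heT => by rw [hT e he heT, map_zero]) e he, sub_eq_zero]
      simp only [map_add, map_smul, map_sum, hθ, smul_eq_mul, Pi.add_apply, Pi.smul_apply]
      rfl
    have h5 := norm_sum_smul_le Finset.univ (k e) (fun j : E0 => pair ((1 - s) • ξ + s • N ξ)
      (p (src j) * FreeGroup.of (j : E) * (p (tgt j))⁻¹)) fun j _ => hl j j.2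
    have h6 := norm_sum_smul_le Finset.univ (r e) (fun φ : F0 => pair ξ (bd φ))
      fun φ _ => hφ φ φ.2
    have h7 : ‖s • ∑ φ : F0, r e φ • pair ξ (bd φ)‖ ≤ (∑ φ, |r e φ|) * η := by
      rw [norm_smul, Real.norm_of_nonneg hs0]
      exact (mul_le_of_le_one_left (norm_nonneg _) hs1).trans h6
    rw [h4]
    refine (norm_add_le _ _).trans ((add_le_add h5 h7).trans ?_)
    rw [← add_mul]
    exact mul_le_mul_of_nonneg_right ((le_add_of_nonneg_left (h1 e)).trans (hc e he)) hη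

end Vale.Agent.P173
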