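import Vale.Agent.P173.Est
import Vale.Agent.P173.Lin

/-! Auxiliary estimates for the analytic core. -/

namespace Vale.Agent.P173

open selfAdjoint

universe u

/-- A cutoff: `1` below `a / 2`, `0` above `a`. -/
noncomputable def cut (a r : ℝ) : ℝ := max 0 (min 1 (2 - 2 * r / a))

lemma cut_nonneg (a r : ℝ) : 0 ≤ cut a r := le_max_left _ _

lemma cut_le_one (a r : ℝ) : cut a r ≤ 1 := max_le zero_le_one (min_le_left _ _)

lemma cut_zero {a r : ℝ} (ha : 0 < a) (h : a ≤ r) : cut a r = 0 := by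
  have : 2 ≤ 2 * r / a := by rw [le_div_iff₀ ha]; linarith
  exact max_eq_left ((min_le_right _ _).trans (by linarith))

lemma cut_one {a r : ℝ} (ha : 0 < a) (h : r ≤ a / 2) : cut a r = 1 := by
  have : 2 * r / a ≤ 1 := by rw [div_le_iff₀ ha]; linarith
  rw [cut, min_eq_left (by linarith), max_eq_right zero_le_one]

lemma cut_cont (a : ℝ) : Continuous (cut a) := by
  unfold cut
  fun_prop

section
variable {V E F : Type u} {src tgt : E → V} {bd : F → FreeGroup E} {E0 : Finset E}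
  {F0 F1 : Finset F} {ℓ : E → FreeGroup E} {p : V → FreeGroup E} {M : ℕ}

lemma Fin2.gauge (h : Fin2 src tgt bd E0 F0 F1 ℓ p M) {G : Type*} [Group G] {B : E → G}
    (hB : ∀ φ ∈ F1, FreeGroup.lift B (bd φ) = 1) {e : E} (he : e ∈ E0) :
    B e = (FreeGroup.lift B (p (src e)))⁻¹ * FreeGroup.lift B (p (tgt e)) := by
  have := lift_eq_one_of_mem (h.lam_mem e he) (a := B) (by
    rintro _ ⟨φ, hφ, rfl⟩
    exact hB φ hφ)
  simp only [map_mul, map_inv, FreeGroup.lift_apply_of] at this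
  rw [mul_inv_eq_one] at this
  rw [← this, inv_mul_cancel_left]

lemma Fin2.exists_bound (h : Fin2 src tgt bd E0 F0 F1 ℓ p M) : ∃ M' : ℕ, M ≤ M' ∧ ∀ e ∈ E0,
    Len (FreeGroup.of '' (E0 : Set E)) M' (p (src e) * FreeGroup.of e * (p (tgt e))⁻¹) ∧
    Len (Group.conjugatesOfSet (bd '' (F1 : Set F))) M'
      (p (src e) * FreeGroup.of e * (p (tgt e))⁻¹) := by
  have h1 : ∀ e : E0, ∃ k, Len (FreeGroup.of '' (E0 : Set E)) k
      (p (src e) * FreeGroup.of e.1 * (p (tgt e))⁻¹) := fun e =>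
    exists_len (mul_mem (mul_mem (h.p_mem _) (Subgroup.subset_closure ⟨e, e.2, rfl⟩))
      (inv_mem (h.p_mem _)))
  have h2 : ∀ e : E0, ∃ k, Len (Group.conjugatesOfSet (bd '' (F1 : Set F))) k
      (p (src e) * FreeGroup.of e.1 * (p (tgt e))⁻¹) := fun e => exists_len (h.lam_mem e e.2)
  choose k1 h1 using h1
  choose k2 h2 using h2
  refine ⟨M + ∑ e, (k1 e + k2 e), Nat.le_add_right _ _, fun e he => ?_⟩
  have := Finset.single_le_sum (f := fun e => k1 e + k2 e) (fun _ _ => Nat.zero_le _)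
    (Finset.mem_univ ⟨e, he⟩)
  exact ⟨(h1 ⟨e, he⟩).mono le_rfl (by omega), (h2 ⟨e, he⟩).mono le_rfl (by omega)⟩

end

variable {A : Type*} [CStarAlgebra A] {E F : Type*}

lemma norm_I_smul (x : selfAdjoint A) : ‖Complex.I • (x : A)‖ = ‖x‖ := by
  rw [norm_smul, Complex.norm_I, one_mul]
  rfl

lemma bch1 {Z : Set E} {M : ℕ} {w : FreeGroup E} (hw : Len (FreeGroup.of '' Z) M w)
    {ζ : E → selfAdjoint A} {θ : ℝ} (hθ : 0 ≤ θ) (hζ : ∀ e ∈ Z, ‖ζ e‖ ≤ θ) :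
    ‖((FreeGroup.lift (fun e => expUnitary (ζ e)) w : unitary A) : A) - 1 -
      Complex.I • ((pair ζ w : selfAdjoint A) : A)‖ ≤ M ^ 2 * θ ^ 2 := by
  have := bch hw (b := fun _ => (1 : unitary A)) hθ le_rfl hζ (by simp)
  have h2 : FreeGroup.lift (fun _ : E => (1 : unitary A)) = 1 := by ext; simp
  simp only [mul_one, h2, MonoidHom.one_apply, OneMemClass.coe_one, add_zero] at this
  rwa [mul_assoc, ← sq] at this

lemma bch2 {Z : Set E} {M : ℕ} {w : FreeGroup E} (hw : Len (FreeGroup.of '' Z) M w)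
    {ζ ζ' : E → selfAdjoint A} {θ : ℝ} (hθ : 0 ≤ θ) (hζ : ∀ e ∈ Z, ‖ζ e‖ ≤ θ)
    (hζ' : ∀ e ∈ Z, ‖ζ' e‖ ≤ θ) :
    ‖((FreeGroup.lift (fun e => expUnitary (ζ e) * expUnitary (ζ' e)) w : unitary A) : A) - 1 -
      Complex.I • ((pair (ζ + ζ') w : selfAdjoint A) : A)‖ ≤ 3 * M ^ 2 * θ ^ 2 := by
  have h1 := bch hw (b := fun e => expUnitary (ζ' e)) hθ hθ hζ
    fun e he => (norm_exp_sub_one _).trans (hζ' e he)
  have h2 := bch1 hw hθ hζ'
  have h3 := norm_add_le_of_le h1 h2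
  rw [pair_add, AddSubgroup.coe_add, smul_add]
  convert h3 using 1
  · congr 1
    abel
  · ring

/-- The estimate at the small scale. -/
lemma stage1 {bd : F → FreeGroup E} {Z : Set E} {F0 F1 : Set F} {M : ℕ}
    (h1 : ∀ φ ∈ F0, Len (FreeGroup.of '' Z) M (bd φ)) {ξ n : E → selfAdjoint A} {θ s : ℝ}
    (hθ : 0 ≤ θ) (s0 : 0 ≤ s) (s1 : s ≤ 1) (hξ : ∀ e ∈ Z, ‖ξ e‖ ≤ θ) (hn : ∀ e ∈ Z, ‖n e‖ ≤ θ)
    (c1 : ∀ φ ∈ F0, pair n (bd φ) = 0) {B B1 : E → unitary A}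
    (hB1 : ∀ e ∈ Z, B1 e = expUnitary ((1 - s) • ξ e))
    (hB : ∀ e ∈ Z, B e = expUnitary ((1 - s) • ξ e) * expUnitary (s • n e))
    (e0 : ∀ φ ∈ F0, FreeGroup.lift B1 (bd φ) * expUnitary (s • pair ξ (bd φ)) = 1)
    (e1 : ∀ φ ∈ F1, φ ∉ F0 → FreeGroup.lift B (bd φ) = 1) :
    (∀ φ ∈ F0, ‖pair ξ (bd φ)‖ ≤ 2 * M ^ 2 * θ ^ 2) ∧
    ∀ w, Len (FreeGroup.of '' Z) M w → Len (Group.conjugatesOfSet (bd '' F1)) M w →
      ‖pair ((1 - s) • ξ + s • n) w‖ ≤ (5 * M ^ 3 + 3 * M ^ 2) * θ ^ 2 := by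
  have k1 : ∀ e ∈ Z, ‖((1 - s) • ξ) e‖ ≤ θ := fun e he => by
    rw [Pi.smul_apply, norm_smul, Real.norm_of_nonneg (by linarith)]
    nlinarith [hξ e he, norm_nonneg (ξ e)]
  have k2 : ∀ e ∈ Z, ‖(s • n) e‖ ≤ θ := fun e he => by
    rw [Pi.smul_apply, norm_smul, Real.norm_of_nonneg s0]
    nlinarith [hn e he, norm_nonneg (n e)]
  have a1 : ∀ φ ∈ F0, ‖pair ξ (bd φ)‖ ≤ 2 * M ^ 2 * θ ^ 2 := by
    intro φ hφ
    have b1 := bch1 (h1 φ hφ) hθ k1
    have b2 : FreeGroup.lift (fun e => expUnitary (((1 - s) • ξ) e)) (bd φ) =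
        expUnitary (-(s • pair ξ (bd φ))) := by
      rw [exp_neg]
      exact (lift_congr (h1 φ hφ).mem hB1).symm.trans (eq_inv_of_mul_eq_one_left (e0 φ hφ))
    have b3 := norm_exp_sub_lin (-(s • pair ξ (bd φ)))
    have b4 : ‖-(s • pair ξ (bd φ))‖ ≤ M * θ := by
      rw [norm_neg, norm_smul, Real.norm_of_nonneg s0]
      nlinarith [pair_le (h1 φ hφ) hθ hξ, norm_nonneg (pair ξ (bd φ))]
    rw [b2, pair_smul] at b1
    have b5 := norm_sub_le_of_le (b3.trans (pow_le_pow_left₀ (norm_nonneg _) b4 2)) b1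
    rw [← norm_I_smul]
    convert b5 using 1
    · congr 1
      simp only [AddSubgroup.coe_neg, selfAdjoint.val_smul]
      module
    · ring
  refine ⟨a1, fun w hw hw' => ?_⟩
  have a2 : ∀ w, Len (FreeGroup.of '' Z) M w → ‖((FreeGroup.lift B w : unitary A) : A) - 1 -
      Complex.I • ((pair ((1 - s) • ξ + s • n) w : selfAdjoint A) : A)‖ ≤ 3 * M ^ 2 * θ ^ 2 := by
    intro w hw
    rw [lift_congr hw.mem hB]
    exact bch2 hw hθ k1 k2
  have a3 : ∀ x ∈ bd '' F1, ‖((FreeGroup.lift B x : unitary A) : A) - 1‖ ≤ 5 * M ^ 2 * θ ^ 2 := by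
    rintro _ ⟨φ, hφ, rfl⟩
    by_cases h0 : φ ∈ F0
    · have b1 := a2 _ (h1 φ h0)
      have b2 : ‖Complex.I • ((pair ((1 - s) • ξ + s • n) (bd φ) : selfAdjoint A) : A)‖ ≤
          2 * M ^ 2 * θ ^ 2 := by
        rw [norm_I_smul, pair_add, pair_smul, pair_smul, c1 φ h0, smul_zero, add_zero, norm_smul,
          Real.norm_of_nonneg (by linarith)]
        nlinarith [a1 φ h0, norm_nonneg (pair ξ (bd φ))]
      have b3 := norm_add_le_of_le b1 b2
      rw [sub_add_cancel] at b3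
      linarith
    · rw [e1 φ hφ h0]
      simp only [OneMemClass.coe_one, sub_self, norm_zero]
      positivity
  have a4 := norm_sub_le_of_le (area_le hw' (by positivity) a3) (a2 w hw)
  rw [sub_sub_cancel, norm_I_smul] at a4
  linarith

end Vale.Agent.P173
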