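import Vale.Agent.P173.LocSys

/-! Cell structures lift to covering spaces; deck transformations. -/

namespace Vale.Agent.P173

open Topology

universe u v w

theorem deck_monodromy {Y : Type u} {T : Type v} [TopologicalSpace Y] [TopologicalSpace T]
    {p : T → Y} (hp : IsCoveringMap p) (D : C(T, T)) (hD : p ∘ D = p) {y : Y}
    (γ : Path.Homotopic.Quotient y y) (t t' : p ⁻¹' {y}) (e : D t = t') :
    D (hp.monodromy γ t) = hp.monodromy γ t' := by
  obtain ⟨γ⟩ := γ
  have : D.comp (hp.liftPath γ t (γ.source.trans t.2.symm)) =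
      hp.liftPath γ t' (γ.source.trans t'.2.symm) := by
    rw [hp.eq_liftPath_iff']
    refine ⟨?_, ?_⟩
    · rw [ContinuousMap.coe_comp, ← Function.comp_assoc, hD, hp.liftPath_lifts]
    · rw [ContinuousMap.comp_apply, hp.liftPath_zero, e]
  exact congr($this 1)

theorem eq_refl_of_monodromy {Y : Type u} {T : Type v} [TopologicalSpace Y] [TopologicalSpace T]
    [SimplyConnectedSpace T] {p : T → Y} (hp : IsCoveringMap p) (t : T)
    (γ : Path.Homotopic.Quotient (p t) (p t)) (e : hp.monodromy γ ⟨t, rfl⟩ = ⟨t, rfl⟩) :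
    γ = .refl (p t) := by
  obtain ⟨γ⟩ := γ
  let Γ : Path t t := ⟨hp.liftPath γ t γ.source, hp.liftPath_zero .., congrArg Subtype.val e⟩
  have h1 := (SimplyConnectedSpace.paths_homotopic Γ (Path.refl t)).map ⟨p, hp.continuous⟩
  have h2 : Γ.map (ContinuousMap.continuous ⟨p, hp.continuous⟩) = γ := by
    ext1
    exact hp.liftPath_lifts _ _ γ.source
  rw [h2] at h1
  exact Quotient.sound h1

theorem exists_lifts {Y : Type u} {T : Type v} [TopologicalSpace Y] [TopologicalSpace T]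
    {p : T → Y} (hp : IsCoveringMap p) {A : Type} [TopologicalSpace A] [SimplyConnectedSpace A]
    [LocallyPathConnectedSpace A] (a₀ : A) {I : Type w} {k : I → A → Y}
    (hk : ∀ i, Continuous (k i)) : ∃ k' : {q : I × T // p q.2 = k q.1 a₀} → A → T,
      (∀ q, Continuous (k' q)) ∧ (∀ q a, p (k' q a) = k q.1.1 a) ∧ (∀ q, k' q a₀ = q.1.2) ∧
      (∀ i a t, p t = k i a → ∃ q, q.1.1 = i ∧ k' q a = t) ∧
      (∀ q q' a, q.1.1 = q'.1.1 → k' q a = k' q' a → q = q') ∧
      ∀ O : Set T, (∀ q, IsOpen (k' q ⁻¹' O)) → ∀ i, IsOpen (k i ⁻¹' (p '' O)) := by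
  choose L h1 h2 using fun q : {q : I × T // p q.2 = k q.1 a₀} =>
    (hp.existsUnique_continuousMap_lifts ⟨k q.1.1, hk _⟩ a₀ q.1.2 q.2).exists
  have h3 : ∀ q a, p (L q a) = k q.1.1 a := fun q => congrFun (h2 q)
  have h4 : ∀ i a t, p t = k i a → ∃ q, q.1.1 = i ∧ L q a = t := fun i a t e => by
    obtain ⟨M, m1, m2⟩ := (hp.existsUnique_continuousMap_lifts ⟨k i, hk _⟩ a t e).exists
    refine ⟨⟨(i, M a₀), congrFun m2 a₀⟩, rfl, ?_⟩
    rw [← m1]
    exact congrFun (hp.eq_of_comp_eq (L _).continuous M.continuous ((h2 _).trans m2.symm) a₀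
      (h1 _)) a
  refine ⟨fun q => L q, fun q => (L q).continuous, h3, h1, h4, fun q q' a e1 e2 => ?_,
    fun O hO i => isOpen_iff_eventually.2 ?_⟩
  · refine Subtype.ext (Prod.ext e1 ?_)
    rw [← h1, ← h1]
    exact congrFun (hp.eq_of_comp_eq (L q).continuous (L q').continuous
      (funext fun b => by simp only [Function.comp, h3, e1]) a e2) a₀
  · rintro a ⟨t, ht, e⟩
    obtain ⟨q, rfl, rfl⟩ := h4 i a t e
    filter_upwards [(hO q).mem_nhds ht] with b hb using ⟨_, hb, h3 q b⟩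

/-- The action on the cells of a cover. -/
@[reducible] def cellSMul {Y : Type u} {T : Type v} {p : T → Y} {H : Type} [Group H]
    [MulAction H T] (hp : ∀ (h : H) (t : T), p (h • t) = p t) {I : Type w} (c : I → Y) :
    MulAction H {q : I × T // p q.2 = c q.1} where
  smul h q := ⟨(q.1.1, h • q.1.2), (hp h _).trans q.2⟩
  one_smul q := Subtype.ext (Prod.ext rfl (one_smul H q.1.2))
  mul_smul h h' q := Subtype.ext (Prod.ext rfl (mul_smul h h' q.1.2))

/-- The fundamental group acts freely by deck transformations on a simply connected cover. -/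
theorem exists_deck {Y : Type u} {T : Type v} [TopologicalSpace Y] [TopologicalSpace T]
    [SimplyConnectedSpace T] [LocallyPathConnectedSpace T] {p : T → Y} (hp : IsCoveringMap p)
    (hs : Function.Surjective p) {H : Type} [Group H] (y : Y) (e : FundamentalGroup Y y ≃* H) :
    ∃ _ : MulAction H T, (∀ h : H, Continuous fun t : T => h • t) ∧
      (∀ (h : H) (t : T), p (h • t) = p t) ∧ ∀ (h : H) (t : T), h • t = t → h = 1 := by
  obtain ⟨t₀, rfl⟩ := hs y
  choose D h1 h2 using fun t : p ⁻¹' {p t₀} =>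
    (hp.existsUnique_continuousMap_lifts ⟨p, hp.continuous⟩ t₀ t.1 t.2).exists
  let m : H → p ⁻¹' {p t₀} := fun h => hp.monodromyPerm _ (e.symm h)⁻¹ ⟨t₀, rfl⟩
  refine ⟨{ smul := fun h t => D (m h) t, one_smul := fun t => ?one, mul_smul := fun h h' t => ?mul },
    fun h => (D _).continuous, fun h => congrFun (h2 _), fun h t ht => ?_⟩
  case one =>
    refine congrFun (hp.eq_of_comp_eq (D (m 1)).continuous continuous_id (h2 _) t₀ ?_) t
    rw [h1]
    simp only [m, map_one, inv_one, Equiv.Perm.one_apply, id]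
  case mul =>
    refine congrFun (hp.eq_of_comp_eq (D (m (h * h'))).continuous
      ((D (m h)).continuous.comp (D (m h')).continuous) ?_ t₀ ?_) t
    · rw [← Function.comp_assoc, h2, h2]
      exact (h2 _).symm
    · rw [Function.comp_apply, h1, h1]
      have := deck_monodromy hp (D (m h)) (h2 _) ((e.symm h')⁻¹ : FundamentalGroup Y (p t₀))
        ⟨t₀, rfl⟩ (m h) (h1 _)
      refine Eq.trans ?_ this.symm
      simp only [m, map_mul, mul_inv_rev, Equiv.Perm.mul_apply]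
      rfl
  · have a := congrFun (hp.eq_of_comp_eq (D (m h)).continuous continuous_id (h2 _) t ht) t₀
    rw [h1] at a
    have b : (e.symm h)⁻¹ = 1 := eq_refl_of_monodromy hp t₀ _ (Subtype.ext a)
    exact e.symm.map_eq_one_iff.1 (inv_eq_one.1 b)

/-- The lifted cell structure. A lifted cell is a cell together with a point over its centre. -/
theorem Cell2.lift {Y : Type u} {T : Type v} [TopologicalSpace Y] [TopologicalSpace T]
    {V E F : Type w} {pt : V → Y} {ed : E → ℝ → Y} {fc : F → ℂ → Y} {src tgt : E → V}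
    (h : Cell2 pt ed fc src tgt) {p : T → Y} (hp : IsCoveringMap p) :
    ∃ (ed' : {q : E × T // p q.2 = ed q.1 0} → ℝ → T)
      (fc' : {q : F × T // p q.2 = fc q.1 0} → ℂ → T)
      (src' tgt' : {q : E × T // p q.2 = ed q.1 0} → {q : V × T // p q.2 = pt q.1}),
      Cell2 (fun q : {q : V × T // p q.2 = pt q.1} => q.1.2) ed' fc' src' tgt' ∧
      (∀ q s, p (ed' q s) = ed q.1.1 s) ∧ (∀ q, ed' q 0 = q.1.2) ∧
      (∀ q z, p (fc' q z) = fc q.1.1 z) ∧ ∀ q, fc' q 0 = q.1.2 := by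
  obtain ⟨ed', e1, e2, e3, e4, e5, e6⟩ := exists_lifts hp 0 h.ed_cont
  obtain ⟨fc', f1, f2, f3, f4, f5, f6⟩ := exists_lifts hp 0 h.fc_cont
  have sk : ∀ t, t ∈ sk1 (fun q : {q : V × T // p q.2 = pt q.1} => q.1.2) ed' ↔
      p t ∈ sk1 pt ed := fun t => by
    simp only [sk1, Set.mem_union, Set.mem_range, Set.mem_iUnion]
    refine ⟨?_, ?_⟩
    · rintro (⟨q, rfl⟩ | ⟨q, s, rfl⟩)
      · exact .inl ⟨_, q.2.symm⟩
      · exact .inr ⟨_, s, (e2 q s).symm⟩
    · rintro (⟨v, e⟩ | ⟨e, s, e'⟩)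
      · exact .inl ⟨⟨(v, t), e.symm⟩, rfl⟩
      · obtain ⟨q, -, hq⟩ := e4 e s t e'.symm
        exact .inr ⟨q, s, hq⟩
  refine ⟨ed', fc', fun q => ⟨(src q.1.1, ed' q (-1)), (e2 q _).trans (h.ed_src _ _ le_rfl)⟩,
    fun q => ⟨(tgt q.1.1, ed' q 1), (e2 q _).trans (h.ed_tgt _ _ le_rfl)⟩,
    ⟨e1, f1, fun q s hs => ?_, fun q s hs => ?_, fun q z hz => ?_, fun q z r hz hr => ?_,
      fun t => ?_, fun q q' e => ?_, fun q s q' s' hs hs' e => ?_, fun q s q' s' hs hs' e => ?_,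
      fun q q' s hs e => ?_, fun q z hz e => ?_, fun O hO => ?_, fun O hO hO' => ?_⟩,
    e2, e3, f2, f3⟩
  · exact hp.constOn_of_comp isPreconnected_Iic (e1 q).continuousOn
      (fun a ha b hb => by rw [e2, e2, h.ed_src _ _ ha, h.ed_src _ _ hb]) hs Set.self_mem_Iic
  · exact hp.constOn_of_comp isPreconnected_Ici (e1 q).continuousOn
      (fun a ha b hb => by rw [e2, e2, h.ed_tgt _ _ ha, h.ed_tgt _ _ hb]) hs Set.self_mem_Ici
  · rw [sk, f2]; exact h.fc_out _ z hz
  · have := hp.constOn_of_comp (g := fun r : ℝ => fc' q (r * z)) isPreconnected_Ici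
      ((f1 q).comp (by fun_prop)).continuousOn
      (fun a ha b hb => by rw [f2, f2, h.fc_rad _ _ _ hz ha, h.fc_rad _ _ _ hz hb]) hr
      Set.self_mem_Ici
    simpa using this
  · rcases h.cover (p t) with ⟨v, e⟩ | ⟨e, s, hs, e'⟩ | ⟨φ, z, hz, e⟩
    · exact .inl ⟨⟨(v, t), e⟩, rfl⟩
    · obtain ⟨q, -, hq⟩ := e4 e s t e'
      exact .inr (.inl ⟨q, s, hs, hq.symm⟩)
    · obtain ⟨q, -, hq⟩ := f4 φ z t e
      exact .inr (.inr ⟨q, z, hz, hq.symm⟩)
  · exact Subtype.ext (Prod.ext (h.pt_inj (q.2.symm.trans ((congrArg p e).trans q'.2))) e)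
  · obtain ⟨a, rfl⟩ := h.ed_inj _ _ _ _ hs hs' ((e2 q s).symm.trans ((congrArg p e).trans (e2 _ _)))
    exact ⟨e5 q q' s a e, rfl⟩
  · obtain ⟨a, rfl⟩ := h.fc_inj _ _ _ _ hs hs' ((f2 q s).symm.trans ((congrArg p e).trans (f2 _ _)))
    exact ⟨f5 q q' s a e, rfl⟩
  · exact h.pt_ed _ _ s hs (q.2.symm.trans ((congrArg p e).trans (e2 _ _)))
  · rw [sk, f2] at e; exact h.fc_sk _ z hz e
  · refine isOpen_iff_mem_nhds.2 fun x hx => ?_
    obtain ⟨N, n1, n2, n3⟩ := hp.isLocalHomeomorph.isLocallyInjective x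
    have := (h.weak1 _ (e6 (O ∩ N) fun q => (hO q).inter (n1.preimage (e1 q)))).preimage
      hp.continuous
    refine Filter.mem_of_superset ((n1.inter this).mem_nhds ⟨n2, ?_⟩) ?_
    · exact hx.imp (fun a => ⟨x, ⟨a, n2⟩, rfl⟩) fun a b => a ((sk x).2 b)
    · rintro t ⟨t1, ⟨t', t2, e⟩ | t2⟩
      · exact .inl (n3 t2.2 t1 e ▸ t2.1)
      · exact .inr fun b => t2 ((sk t).1 b)
  · refine isOpen_iff_mem_nhds.2 fun x hx => ?_
    obtain ⟨N, n1, n2, n3⟩ := hp.isLocalHomeomorph.isLocallyInjective x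
    have := (h.weak2 _ (e6 (O ∩ N) fun q => (hO q).inter (n1.preimage (e1 q)))
      (f6 (O ∩ N) fun q => (hO' q).inter (n1.preimage (f1 q)))).preimage hp.continuous
    refine Filter.mem_of_superset ((n1.inter this).mem_nhds ⟨n2, x, ⟨hx, n2⟩, rfl⟩) ?_
    rintro t ⟨t1, t', t2, e⟩
    exact n3 t2.2 t1 e ▸ t2.1

/-- A contractible cover carries a cell structure with a free action. -/
theorem exists_cellAct {Y : Type u} {T : Type v} [TopologicalSpace Y] [TopologicalSpace T]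
    [ContractibleSpace T] {V E F : Type u} {pt : V → Y} {ed : E → ℝ → Y} {fc : F → ℂ → Y}
    {src tgt : E → V} (h : Cell2 pt ed fc src tgt) {p : T → Y} (hp : IsCoveringMap p)
    (hs : Function.Surjective p) {H : Type} [Group H] (y : Y) (e : FundamentalGroup Y y ≃* H) :
    ∃ (V' E' F' : Type (max u v)) (pt' : V' → T) (ed' : E' → ℝ → T) (fc' : F' → ℂ → T)
      (src' tgt' : E' → V') (_ : MulAction H T) (_ : MulAction H V') (_ : MulAction H E')
      (_ : MulAction H F'), Cell2 pt' ed' fc' src' tgt' ∧ CellAct H pt' ed' fc' := by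
  obtain ⟨ed', fc', src', tgt', c, e2, e3, f2, f3⟩ := h.lift hp
  have := c.locPathConn
  obtain ⟨act, a1, a2, a3⟩ := exists_deck hp hs y e
  refine ⟨_, _, _, _, ed', fc', src', tgt', act, cellSMul a2 pt, cellSMul a2 fun e => ed e 0,
    cellSMul a2 fun φ => fc φ 0, c, ?_⟩
  letI := cellSMul a2 pt
  letI := cellSMul a2 fun e => ed e 0
  letI := cellSMul a2 fun φ => fc φ 0
  refine ⟨fun _ _ => rfl, fun g q => congrFun ?_, fun g q => congrFun ?_,
    fun g q e => a3 g q.1.2 congr(($e).1.2)⟩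
  · refine hp.eq_of_comp_eq (c.ed_cont _) ((a1 g).comp (c.ed_cont q)) (funext fun s => ?_) 0 ?_
    · simp only [Function.comp, a2, e2]; rfl
    · simp only [e3]; rfl
  · refine hp.eq_of_comp_eq (c.fc_cont _) ((a1 g).comp (c.fc_cont q)) (funext fun s => ?_) 0 ?_
    · simp only [Function.comp, a2, f2]; rfl
    · simp only [f3]; rfl

end Vale.Agent.P173
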