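import Mathlib

/-! Combinatorial interfaces. -/

namespace Vale.Agent.P173

universe u

/-- Evaluation of an additive cochain on a word. -/
def pair {E M : Type*} [AddCommGroup M] (z : E → M) (w : FreeGroup E) : M :=
  Multiplicative.toAdd (FreeGroup.lift (fun e => Multiplicative.ofAdd (z e)) w)

/-- The word `w` transforms under gauge changes like a path from `y` to `y'`. -/
def Cov {V E : Type u} (src tgt : E → V) (w : FreeGroup E) (y y' : V) : Prop :=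
  FreeGroup.lift (fun e => ((FreeGroup.of (Sum.inr (src e)))⁻¹ * FreeGroup.of (Sum.inl e) *
      FreeGroup.of (Sum.inr (tgt e)) : FreeGroup (E ⊕ V))) w =
    (FreeGroup.of (Sum.inr y))⁻¹ * FreeGroup.map Sum.inl w * FreeGroup.of (Sum.inr y')

/-- `w` is a product of at most `M` elements of `s` and inverses of elements of `s`. -/
def Len {G : Type*} [Group G] (s : Set G) (M : ℕ) (w : G) : Prop :=
  ∃ l : List G, l.length ≤ M ∧ (∀ x ∈ l, x ∈ s ∨ x⁻¹ ∈ s) ∧ l.prod = w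

/-- A combinatorial two-complex with an action of `H`, free on vertices, connected,
simply connected and without second homology. -/
structure Cx (H : Type) [Group H] (V E F : Type u) [MulAction H V] [MulAction H E]
    [MulAction H F] (src tgt : E → V) (bd : F → FreeGroup E) : Prop where
  src_smul : ∀ (h : H) e, src (h • e) = h • src e
  tgt_smul : ∀ (h : H) e, tgt (h • e) = h • tgt e
  bd_smul : ∀ (h : H) φ, bd (h • φ) = FreeGroup.map (fun e => h • e) (bd φ)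
  free : ∀ (h : H) (y : V), h • y = y → h = 1
  ne : Nonempty V
  conn : ∀ P : V → Prop, (∀ e, P (src e) ↔ P (tgt e)) → ∀ y y', P y → P y'
  cov : ∀ φ, ∃ y, Cov src tgt (bd φ) y y
  sc : ∀ (G : Type u) [Group G] (a : E → G), (∀ φ, FreeGroup.lift a (bd φ) = 1) →
    ∃ g : V → G, ∀ e, a e = (g (src e))⁻¹ * g (tgt e)
  h2 : ∀ φ, ∃ β : E → ℝ, pair β (bd φ) = 1 ∧ ∀ ψ, ψ ≠ φ → pair β (bd ψ) = 0

/-- The degree property of the unitary group of `A`. -/
def Deg (A : Type) [CStarAlgebra A] : Prop :=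
  ∀ (m : ℕ) (w : Fin m → FreeGroup (Fin m)),
    (Matrix.of fun l j => pair (Pi.single j (1 : ℝ) : Fin m → ℝ) (w l)).det ≠ 0 →
    ∀ H : (Fin m → unitary A) × unitInterval → Fin m → unitary A, Continuous H →
      (∀ x l, H (x, 0) l = FreeGroup.lift x (w l)) → ∃ x, ∀ l, H (x, 1) l = 1

/-- Labelled walks. -/
inductive Walk {S L : Type} (arr : S → L → S → Prop) : S → List L → S → Prop
  | nil (x : S) : Walk arr x [] x
  | cons {x y z : S} {σ : L} {ω : List L} : arr x σ y → Walk arr y ω z → Walk arr x (σ :: ω) z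

/-- The sum of a cochain of the Cayley graph along a walk. -/
def wsum {H L : Type} [Group H] (gen : L → H) (z : H → L → ℝ) : H → List L → ℝ
  | _, [] => 0
  | h, σ :: ω => z h σ + wsum gen z (h * gen σ) ω

/-- One scaled acyclic piece in the Cayley graph with a small nontrivial flat connection. -/
structure Piece {H L : Type} [Group H] (gen : L → H) (ν : H → ℕ) {A : Type} [CStarAlgebra A]
    (c : ℕ) (ε : ℝ) {S : Type} (ι : S → H) (arr : S → L → S → Prop)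
    (ρ : S → S → unitary A) : Prop where
  inj : Function.Injective ι
  lab : ∀ x σ y, arr x σ y → ι y = ι x * gen σ
  h1 : ∀ z : H → L → ℝ, (∀ x ω, ω.length ≤ 4 → Walk arr x ω x → wsum gen z (ι x) ω = 0) →
    ∃ ψ : S → ℝ, ∀ x σ y, arr x σ y → z (ι x) σ = ψ y - ψ x
  walk : ∀ x y, ν ((ι x)⁻¹ * ι y) ≤ c → ∃ ω, ω.length ≤ ν ((ι x)⁻¹ * ι y) ∧ Walk arr x ω y
  cocycle : ∀ x₀ x y, ν ((ι x₀)⁻¹ * ι x) ≤ c → ν ((ι x₀)⁻¹ * ι y) ≤ c → ρ x₀ x * ρ x y = ρ x₀ y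
  small : ∀ x y, ν ((ι x)⁻¹ * ι y) ≤ c → ‖(ρ x y : A) - 1‖ ≤ ε
  nontriv : ¬ ∃ g : S → unitary A, ∀ x σ y, arr x σ y → ρ x y = (g x)⁻¹ * g y

/-- `H` has scaled pieces at every scale. -/
def Scal (H : Type) [Group H] (A : Type) [CStarAlgebra A] : Prop :=
  ∃ (L : Type) (_ : Fintype L) (gen : L → H) (ν : H → ℕ), ν 1 = 0 ∧
    (∀ g h, ν (g * h) ≤ ν g + ν h) ∧ (∀ g, ν g⁻¹ = ν g) ∧
    ∀ (c : ℕ) (ε : ℝ), 0 < ε → ∃ (S : Type) (_ : Fintype S) (ι : S → H)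
      (arr : S → L → S → Prop) (ρ : S → S → unitary A), Piece gen ν c ε ι arr ρ

/-- The finite data fed into the analytic core. -/
structure Fin2 {V E F : Type u} (src tgt : E → V) (bd : F → FreeGroup E) (E0 : Finset E)
    (F0 F1 : Finset F) (ℓ : E → FreeGroup E) (p : V → FreeGroup E) (M : ℕ) : Prop where
  sub : F0 ⊆ F1
  h2 : ∀ φ ∈ F1, ∃ β : E → ℝ, pair β (bd φ) = 1 ∧ ∀ ψ ∈ F1, ψ ≠ φ → pair β (bd ψ) = 0
  cov : ∀ φ ∈ F1, ∃ y, Cov src tgt (bd φ) y y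
  len_bd : ∀ φ ∈ F0, Len (FreeGroup.of '' (E0 : Set E)) M (bd φ)
  len_l : ∀ e ∈ E0, Len (FreeGroup.of '' (E0 : Set E)) M (ℓ e)
  area_l : ∀ e ∈ E0, Len (Group.conjugatesOfSet (bd '' (F1 : Set F))) M (ℓ e)
  cov_l : ∀ e ∈ E0, ∃ y, Cov src tgt (ℓ e) y y
  coc : ∀ z : E → ℝ, (∀ φ ∈ F0, pair z (bd φ) = 0) →
    ∃ ψ : V → ℝ, ∀ e ∈ E0, z e - pair z (ℓ e) = ψ (tgt e) - ψ (src e)
  p_mem : ∀ y, p y ∈ Subgroup.closure (FreeGroup.of '' (E0 : Set E))
  lam_mem : ∀ e ∈ E0, p (src e) * FreeGroup.of e * (p (tgt e))⁻¹ ∈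
    Subgroup.normalClosure (bd '' (F1 : Set F))
  cov_lam : ∀ e ∈ E0, ∃ y, Cov src tgt (p (src e) * FreeGroup.of e * (p (tgt e))⁻¹) y y

/-- The analytic core statement. -/
def CoreP (A : Type) [CStarAlgebra A] : Prop :=
  ∀ M : ℕ, ∃ ε : ℝ, 0 < ε ∧ ∀ (V E F : Type u) (src tgt : E → V) (bd : F → FreeGroup E)
    (E0 : Finset E) (F0 F1 : Finset F) (ℓ : E → FreeGroup E) (p : V → FreeGroup E),
    Fin2 src tgt bd E0 F0 F1 ℓ p M → ∀ a : E → unitary A, (∀ e ∈ E0, ‖(a e : A) - 1‖ ≤ ε) →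
      (∀ φ ∈ F0, FreeGroup.lift a (bd φ) = 1) → (∀ e ∈ E0, FreeGroup.lift a (ℓ e) = 1) →
      ∃ g : V → unitary A, ∀ e ∈ E0, a e = (g (src e))⁻¹ * g (tgt e)

end Vale.Agent.P173
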