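import Mathlib

/-! Flag complexes, right-angled Artin groups and Bestvina-Brady groups. -/

namespace Vale.Agent.P173

open scoped Quaternion

variable {V : Type} (G : SimpleGraph V)

/-- Adjacent or equal. -/
def AE (u v : V) : Prop := u = v ∨ G.Adj u v

/-- The first real cohomology of the flag complex vanishes. -/
def H1 : Prop := ∀ c : V → V → ℝ,
  (∀ u v w, AE G u v → AE G v w → AE G u w → c u v + c v w = c u w) →
    ∃ k : V → ℝ, ∀ u v, AE G u v → c u v = k v - k u

/-- A nontrivial flat connection with values in the unit quaternions of nonnegative real part. -/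
structure QRep (a : V → V → ℍ[ℝ]) : Prop where
  norm : ∀ u v, AE G u v → ‖a u v‖ = 1
  re : ∀ u v, AE G u v → 0 ≤ (a u v).re
  self : ∀ u, a u u = 1
  coc : ∀ u v w, AE G u v → AE G v w → AE G u w → a u v * a v w = a u w
  nontriv : ∃ (u : V) (w : G.Walk u u), (w.darts.map fun d => a d.fst d.snd).prod ≠ 1

/-- The right-angled Artin group. -/
abbrev RA : Type :=
  PresentedGroup {r : FreeGroup V | ∃ u v, G.Adj u v ∧
    r = FreeGroup.of u * FreeGroup.of v * (FreeGroup.of u)⁻¹ * (FreeGroup.of v)⁻¹}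

/-- The standard generators. -/
def ga (v : V) : RA G := PresentedGroup.of v

/-- The height homomorphism. -/
def ht : RA G →* Multiplicative ℤ :=
  PresentedGroup.toGroup (f := fun _ => Multiplicative.ofAdd 1) (by
    rintro r ⟨u, v, -, rfl⟩
    simp)

/-- The Bestvina-Brady group. -/
abbrev BB : Type := (ht G).ker

variable [LinearOrder V]

/-- Edges. -/
def Ed : Type := {p : V × V // p.1 < p.2 ∧ G.Adj p.1 p.2}

/-- Triangles. -/
def Tr : Type := {p : V × V × V // p.1 < p.2.1 ∧ p.2.1 < p.2.2 ∧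
  G.Adj p.1 p.2.1 ∧ G.Adj p.2.1 p.2.2 ∧ G.Adj p.1 p.2.2}

instance : DecidableEq (Ed G) := inferInstanceAs (DecidableEq (Subtype _))
instance : DecidableEq (Tr G) := inferInstanceAs (DecidableEq (Subtype _))
noncomputable instance [Fintype V] : Fintype (Ed G) :=
  @Fintype.ofFinite _ (inferInstanceAs (Finite (Subtype _)))
noncomputable instance [Fintype V] : Fintype (Tr G) :=
  @Fintype.ofFinite _ (inferInstanceAs (Finite (Subtype _)))

variable {G}

def f0 (τ : Tr G) : Ed G := ⟨(τ.1.2.1, τ.1.2.2), τ.2.2.1, τ.2.2.2.2.1⟩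
def f1 (τ : Tr G) : Ed G := ⟨(τ.1.1, τ.1.2.2), τ.2.1.trans τ.2.2.1, τ.2.2.2.2.2⟩
def f2 (τ : Tr G) : Ed G := ⟨(τ.1.1, τ.1.2.1), τ.2.1, τ.2.2.2.1⟩

variable (G)

/-- The simplicial boundary of triangles is split injective over the integers. -/
def Split : Prop := ∃ s : Ed G → Tr G → ℤ, ∀ τ τ',
  s (f0 τ) τ' - s (f1 τ) τ' + s (f2 τ) τ' = if τ = τ' then 1 else 0

/-- The integral group ring of the Artin group. -/
abbrev RR : Type := MonoidAlgebra ℤ (RA G)

/-- `a_v - 1`. -/
noncomputable def am (v : V) : RR G := MonoidAlgebra.of ℤ (RA G) (ga G v) - 1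

/-- The augmentation. -/
noncomputable def aug : RR G →ₐ[ℤ] ℤ := MonoidAlgebra.lift ℤ ℤ (RA G) 1

variable [Fintype V]

noncomputable def d1 : (V → RR G) →ₗ[RR G] RR G := Fintype.linearCombination (RR G) (am G)

noncomputable def d2 : (Ed G → RR G) →ₗ[RR G] (V → RR G) :=
  Fintype.linearCombination (RR G) fun e =>
    (Pi.single e.1.2 (am G e.1.1) - Pi.single e.1.1 (am G e.1.2) : V → RR G)

noncomputable def d3 : (Tr G → RR G) →ₗ[RR G] (Ed G → RR G) :=
  Fintype.linearCombination (RR G) fun τ =>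
    (Pi.single (f0 τ) (am G τ.1.1) - Pi.single (f1 τ) (am G τ.1.2.1) +
      Pi.single (f2 τ) (am G τ.1.2.2) : Ed G → RR G)

/-- Exactness of the Salvetti complex in low degrees. -/
def Exa : Prop := Function.Exact (d3 G) (d2 G) ∧ Function.Exact (d2 G) (d1 G) ∧
  Function.Exact (d1 G) (aug G)

/-- `d3` has a left inverse commuting with the Bestvina-Brady group. -/
def Spl3 : Prop := ∃ σ : (Ed G → RR G) →+ (Tr G → RR G),
  (∀ (h : BB G) c, σ (MonoidAlgebra.of ℤ (RA G) h.1 • c) = MonoidAlgebra.of ℤ (RA G) h.1 • σ c) ∧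
    ∀ t, σ (d3 G t) = t

end Vale.Agent.P173
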