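import Vale.Agent.P173.DefsL
import Vale.Agent.P173.BasicC

/-! The scaled copies of a flag complex. -/

namespace Vale.Agent.P173

variable {V : Type} [Fintype V] [DecidableEq V] (G : SimpleGraph V)

/-- Lattice points of the flag complex scaled by `n`. -/
def Pt (n : ℕ) : Type :=
  {x : V → ℕ // ∑ v, x v = n ∧ ∀ u v, x u ≠ 0 → x v ≠ 0 → AE G u v}

/-- Directed edges of the graph. -/
def Lb : Type := {q : V × V // G.Adj q.1 q.2}

noncomputable instance : Fintype (Lb G) :=
  @Fintype.ofFinite _ (inferInstanceAs (Finite (Subtype _)))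

/-- Moving one unit of mass from `σ.1` to `σ.2` inside a simplex. -/
def arr (n : ℕ) (x : Pt G n) (σ : Lb G) (y : Pt G n) : Prop :=
  y.1 + Pi.single σ.1.1 1 = x.1 + Pi.single σ.1.2 1 ∧ ∀ w, x.1 w ≠ 0 → AE G w σ.1.2

/-- The distance between lattice points. -/
def dist1 {n : ℕ} (x y : Pt G n) : ℕ := ∑ v, ((x.1 v : ℤ) - y.1 v).natAbs

end Vale.Agent.P173
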