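import Mathlib

/-! Two-dimensional cell structures and local systems. -/

namespace Vale.Agent.P173

open Topology Filter

universe u

/-- The one-skeleton. -/
def sk1 {X V E : Type*} (pt : V → X) (ed : E → ℝ → X) : Set X :=
  Set.range pt ∪ ⋃ e, Set.range (ed e)

/-- A cell structure of dimension at most two with the weak topology. Edges are parametrised by
`ℝ` (constant outside `(-1, 1)`), faces by `ℂ` (radially constant outside the unit disc). -/
structure Cell2 {X : Type*} [TopologicalSpace X] {V E F : Type*} (pt : V → X) (ed : E → ℝ → X)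
    (fc : F → ℂ → X) (src tgt : E → V) : Prop where
  ed_cont : ∀ e, Continuous (ed e)
  fc_cont : ∀ φ, Continuous (fc φ)
  ed_src : ∀ e s, s ≤ -1 → ed e s = pt (src e)
  ed_tgt : ∀ e s, 1 ≤ s → ed e s = pt (tgt e)
  fc_out : ∀ φ z, 1 ≤ ‖z‖ → fc φ z ∈ sk1 pt ed
  fc_rad : ∀ φ z (r : ℝ), 1 ≤ ‖z‖ → 1 ≤ r → fc φ (r * z) = fc φ z
  cover : ∀ x, (∃ v, x = pt v) ∨ (∃ e s, |s| < 1 ∧ x = ed e s) ∨ ∃ φ z, ‖z‖ < 1 ∧ x = fc φ z
  pt_inj : Function.Injective pt
  ed_inj : ∀ e s e' s', |s| < 1 → |s'| < 1 → ed e s = ed e' s' → e = e' ∧ s = s'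
  fc_inj : ∀ φ z φ' z', ‖z‖ < 1 → ‖z'‖ < 1 → fc φ z = fc φ' z' → φ = φ' ∧ z = z'
  pt_ed : ∀ v e s, |s| < 1 → pt v ≠ ed e s
  fc_sk : ∀ φ z, ‖z‖ < 1 → fc φ z ∉ sk1 pt ed
  weak1 : ∀ O : Set X, (∀ e, IsOpen (ed e ⁻¹' O)) → IsOpen (O ∪ (sk1 pt ed)ᶜ)
  weak2 : ∀ O : Set X, (∀ e, IsOpen (ed e ⁻¹' O)) → (∀ φ, IsOpen (fc φ ⁻¹' O)) → IsOpen O

/-- An action of `H` on a cell structure, free on vertices. -/
structure CellAct (H : Type) [Group H] {X V E F : Type*} [MulAction H X] [MulAction H V]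
    [MulAction H E] [MulAction H F] (pt : V → X) (ed : E → ℝ → X) (fc : F → ℂ → X) : Prop where
  pt_smul : ∀ (h : H) v, pt (h • v) = h • pt v
  ed_smul : ∀ (h : H) e s, ed (h • e) s = h • ed e s
  fc_smul : ∀ (h : H) φ z, fc (h • φ) z = h • fc φ z
  free : ∀ (h : H) (v : V), h • v = v → h = 1

/-- A local system: open sets with local gauges whose transitions are locally constant. -/
structure LocSys {X : Type*} [TopologicalSpace X] {ι G : Type*} [Group G] (U : ι → Set X)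
    (τ : ι → X → G) : Prop where
  isOpen : ∀ i, IsOpen (U i)
  compat : ∀ i j x, x ∈ U i → x ∈ U j → ∀ᶠ y in 𝓝 x, (τ i y)⁻¹ * τ j y = (τ i x)⁻¹ * τ j x

/-- `η` is a lift of `k` to the covering defined by the local system. -/
def IsLift {X A : Type*} [TopologicalSpace A] {ι G : Type*} [Group G] (U : ι → Set X)
    (τ : ι → X → G) (k : A → X) (η : A → G) : Prop :=
  ∀ i a, k a ∈ U i → ∀ᶠ b in 𝓝 a, η b * τ i (k b) = η a * τ i (k a)

end Vale.Agent.P173
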