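import Vale.Agent.P173.DefsT
import Vale.Agent.P173.BasicC

/-! The radial retraction and the local system attached to an edge labelling. -/

namespace Vale.Agent.P173

open Classical in
/-- A function on the one-skeleton glued from vertex values and edge functions. -/
noncomputable def glue {X V E Z : Type*} (pt : V → X) (ed : E → ℝ → X) (fV : V → Z)
    (fE : E → ℝ → Z) (d : Z) (x : X) : Z :=
  if h : ∃ v, x = pt v then fV h.choose
  else if h : ∃ q : E × ℝ, |q.2| < 1 ∧ x = ed q.1 q.2 then fE h.choose.1 h.choose.2 else d

open Classical in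
/-- The radial retraction onto the one-skeleton (junk at the centres of faces). -/
noncomputable def ret {X F : Type*} (fc : F → ℂ → X) (x : X) : X :=
  if h : ∃ q : F × ℂ, ‖q.2‖ < 1 ∧ x = fc q.1 q.2 then
    fc h.choose.1 (h.choose.2 / ‖h.choose.2‖) else x

/-- The centres of the faces. -/
def cen {X F : Type*} (fc : F → ℂ → X) : Set X := Set.range fun φ => fc φ 0

/-- The radial thickening of a set. -/
def thick {X F : Type*} (fc : F → ℂ → X) (W : Set X) : Set X := (cen fc)ᶜ ∩ ret fc ⁻¹' W

/-- The union of the open edges. -/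
def Uo {X E : Type*} (ed : E → ℝ → X) : Set X := {x | ∃ e s, |s| < 1 ∧ x = ed e s}

/-- The complement of the midpoints of edges. -/
def Us {X E : Type*} (ed : E → ℝ → X) : Set X := {x | ∀ e, x ≠ ed e 0}

/-- The label of the edge on its positive half, `1` elsewhere. -/
noncomputable def tau {X V E G : Type*} [Group G] (pt : V → X) (ed : E → ℝ → X) (a : E → G) :
    X → G :=
  glue pt ed (fun _ => 1) (fun e s => if 0 < s ∧ s < 1 then a e else 1) 1

/-- The two open sets of the local system. -/
def sU {X E F : Type*} (ed : E → ℝ → X) (fc : F → ℂ → X) : Bool → Set X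
  | true => thick fc (Us ed)
  | false => thick fc (Uo ed)

/-- The two gauges of the local system. -/
noncomputable def sT {X V E F G : Type*} [Group G] (pt : V → X) (ed : E → ℝ → X)
    (fc : F → ℂ → X) (a : E → G) : Bool → X → G
  | true => fun x => tau pt ed a (ret fc x)
  | false => fun _ => 1

/-- The attaching loop. -/
noncomputable def loop {X F : Type*} (fc : F → ℂ → X) (φ : F) (θ : ℝ) : X :=
  fc φ (Complex.exp (θ * Complex.I))

/-- `w` is the boundary word of `φ`. -/
def IsBd {X V E F : Type*} (pt : V → X) (ed : E → ℝ → X) (fc : F → ℂ → X) (φ : F)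
    (w : FreeGroup E) : Prop :=
  ∃ η : ℝ → FreeGroup E, IsLift (sU ed fc) (sT pt ed fc FreeGroup.of) (loop fc φ) η ∧
    η 0 = 1 ∧ η (2 * Real.pi) = w

end Vale.Agent.P173
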