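import Vale.Agent.P173.BasicC

/-! Estimates for holonomies of small unitary connections. -/

namespace Vale.Agent.P173

open selfAdjoint

variable {A : Type*} [CStarAlgebra A] {E : Type*}

lemma est_scalar (t : ℝ) : ‖Complex.exp (Complex.I * t) - 1 - Complex.I * t‖ ≤ |t| ^ 2 := by
  rcases le_total |t| 2 with h | h
  · have h1 : ‖Complex.I * ((t / 2 : ℝ) : ℂ)‖ = |t| / 2 := by
      rw [norm_mul, Complex.norm_I, one_mul, Complex.norm_real, Real.norm_eq_abs, abs_div]
      norm_num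
    have h2 := Complex.norm_exp_sub_one_sub_id_le (x := Complex.I * ((t / 2 : ℝ) : ℂ))
      (by rw [h1]; linarith)
    have h3 := Real.norm_exp_I_mul_ofReal_sub_one_le (x := t / 2)
    rw [Real.norm_eq_abs, abs_div, abs_two] at h3
    rw [h1] at h2
    have h4 : Complex.exp (Complex.I * t) - 1 - Complex.I * t =
        (Complex.exp (Complex.I * ((t / 2 : ℝ) : ℂ)) - 1) ^ 2 +
          2 * (Complex.exp (Complex.I * ((t / 2 : ℝ) : ℂ)) - 1 - Complex.I * ((t / 2 : ℝ) : ℂ)) := by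
      have : Complex.exp (Complex.I * t) = Complex.exp (Complex.I * ((t / 2 : ℝ) : ℂ)) ^ 2 := by
        rw [sq, ← Complex.exp_add]
        congr 1
        push_cast
        ring
      rw [this]
      push_cast
      ring
    rw [h4]
    refine (norm_add_le _ _).trans ?_
    rw [norm_pow, norm_mul, Complex.norm_two]
    have h5 : ‖Complex.exp (Complex.I * ((t / 2 : ℝ) : ℂ)) - 1‖ ^ 2 ≤ (|t| / 2) ^ 2 := by
      gcongr
    nlinarith [abs_nonneg t]
  · have h3 := Real.norm_exp_I_mul_ofReal_sub_one_le (x := t)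
    rw [Real.norm_eq_abs] at h3
    refine (norm_sub_le _ _).trans ?_
    rw [norm_mul, Complex.norm_I, one_mul, Complex.norm_real, Real.norm_eq_abs]
    nlinarith

lemma est_cfc (x : selfAdjoint A) :
    (expUnitary x : A) = cfc (fun z : ℂ => Complex.exp (Complex.I * z)) (x : A) := by
  have hx : IsStarNormal (x : A) := x.2.isStarNormal
  rw [expUnitary_coe, ← CFC.exp_eq_normedSpace_exp (𝕜 := ℂ), ← cfc_comp_smul ..]
  simp only [smul_eq_mul, Complex.exp_eq_exp_ℂ]

lemma est_spec (x : selfAdjoint A) {z : ℂ} (hz : z ∈ spectrum ℂ (x : A)) :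
    ∃ t : ℝ, z = t ∧ |t| ≤ ‖x‖ := by
  rcases subsingleton_or_nontrivial A with h | h
  · simp at hz
  rw [← x.2.spectrumRestricts.algebraMap_image] at hz
  obtain ⟨y, hy, rfl⟩ := hz
  exact ⟨y, rfl, spectrum.norm_le_norm_of_mem hy⟩

theorem norm_exp_sub_one (x : selfAdjoint A) : ‖(expUnitary x : A) - 1‖ ≤ ‖x‖ := by
  have hx : IsStarNormal (x : A) := x.2.isStarNormal
  rw [est_cfc, ← cfc_one ℂ (x : A), ← cfc_sub ..]
  refine norm_cfc_le (norm_nonneg _) fun z hz => ?_
  obtain ⟨t, rfl, ht⟩ := est_spec x hz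
  exact Real.norm_exp_I_mul_ofReal_sub_one_le.trans ht

theorem norm_exp_sub_lin (x : selfAdjoint A) :
    ‖(expUnitary x : A) - 1 - Complex.I • (x : A)‖ ≤ ‖x‖ ^ 2 := by
  have hx : IsStarNormal (x : A) := x.2.isStarNormal
  have h1 : Complex.I • (x : A) = cfc (fun z : ℂ => Complex.I * z) (x : A) := by
    rw [cfc_const_mul .., cfc_id' ..]
  rw [h1, est_cfc, ← cfc_one ℂ (x : A), ← cfc_sub .., ← cfc_sub ..]
  refine norm_cfc_le (by positivity) fun z hz => ?_
  obtain ⟨t, rfl, ht⟩ := est_spec x hz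
  refine (est_scalar t).trans ?_
  gcongr

theorem exp_neg (x : selfAdjoint A) : expUnitary (-x) = (expUnitary x)⁻¹ := by
  rw [eq_inv_iff_mul_eq_one, ← Commute.expUnitary_add, neg_add_cancel, expUnitary_zero]
  exact (Commute.refl (x : A)).neg_left

theorem exp_smul_mul (x : selfAdjoint A) (s t : ℝ) :
    expUnitary (s • x) * expUnitary (t • x) = expUnitary ((s + t) • x) := by
  rw [add_smul, Commute.expUnitary_add]
  exact ((Commute.refl (x : A)).smul_left s).smul_right t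

theorem eq_zero_of_exp {x : selfAdjoint A} (hx : ‖x‖ < 1) (h : expUnitary x = 1) : x = 0 := by
  have h1 := argSelfAdjoint_expUnitary (hx.trans (by linarith [Real.pi_gt_three]))
  have h2 := argSelfAdjoint_expUnitary (x := (0 : selfAdjoint A)) (by simpa using Real.pi_pos)
  rw [expUnitary_zero] at h2
  rw [← h1, h, h2]

lemma est_norm_arg {u : unitary A} (hu : ‖(u : A) - 1‖ < 2) :
    ‖Unitary.argSelfAdjoint u‖ ≤ 2 * ‖(u : A) - 1‖ := by
  have h1 := Unitary.two_mul_one_sub_cos_norm_argSelfAdjoint hu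
  have h2 := Unitary.norm_argSelfAdjoint_le_pi u
  have h3 := Real.cos_le_one_sub_mul_cos_sq (x := ‖Unitary.argSelfAdjoint u‖)
    (by rwa [abs_of_nonneg (norm_nonneg _)])
  have h4 : Real.pi ^ 2 ≤ 16 := by nlinarith [Real.pi_le_four, Real.pi_pos]
  have h5 : (1 : ℝ) / 8 ≤ 2 / Real.pi ^ 2 := by
    rw [div_le_div_iff₀ (by norm_num) (by positivity)]
    linarith
  have h6 : 1 / 8 * ‖Unitary.argSelfAdjoint u‖ ^ 2 ≤
      2 / Real.pi ^ 2 * ‖Unitary.argSelfAdjoint u‖ ^ 2 := by gcongr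
  refine le_of_sq_le_sq ?_ (by positivity)
  nlinarith

/-- A globally continuous logarithm, exact near the identity. -/
theorem exists_log : ∃ lg : unitary A → selfAdjoint A, Continuous lg ∧
    ∀ u : unitary A, ‖(u : A) - 1‖ ≤ 1 → expUnitary (lg u) = u ∧ ‖lg u‖ ≤ 2 * ‖(u : A) - 1‖ := by
  have hc : Continuous fun u : unitary A => max 0 (min 1 (3 - 2 * ‖(u : A) - 1‖)) := by fun_prop
  have hn : Continuous fun u : unitary A => ‖(u : A) - 1‖ := by fun_prop
  refine ⟨fun u => max 0 (min 1 (3 - 2 * ‖(u : A) - 1‖)) • Unitary.argSelfAdjoint u, ?_, ?_⟩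
  · rw [continuous_iff_continuousAt]
    intro u
    by_cases h : ‖(u : A) - 1‖ < 2
    · refine hc.continuousAt.smul (Unitary.continuousOn_argSelfAdjoint.continuousAt
        (Metric.isOpen_ball.mem_nhds ?_))
      simpa [Subtype.dist_eq, dist_eq_norm] using h
    · have h1 : ∀ᶠ v : unitary A in nhds u, 3 / 2 < ‖(v : A) - 1‖ :=
        hn.continuousAt.eventually (lt_mem_nhds (by push Not at h; linarith))
      refine (continuousAt_const (y := (0 : selfAdjoint A))).congr (h1.mono fun v hv => ?_)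
      have : max 0 (min 1 (3 - 2 * ‖(v : A) - 1‖)) = 0 :=
        max_eq_left ((min_le_right _ _).trans (by linarith))
      simp only [this, zero_smul]
  · intro u hu
    have : max 0 (min 1 (3 - 2 * ‖(u : A) - 1‖)) = 1 := by
      rw [min_eq_left (by linarith), max_eq_right zero_le_one]
    simp only [this, one_smul]
    exact ⟨expUnitary_argSelfAdjoint (by linarith), est_norm_arg (by linarith)⟩

lemma est_mul (u v : unitary A) :
    ‖((u * v : unitary A) : A) - 1‖ ≤ ‖(u : A) - 1‖ + ‖(v : A) - 1‖ := by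
  have : ((u * v : unitary A) : A) - 1 = ((u : A) - 1) * v + ((v : A) - 1) := by
    push_cast
    noncomm_ring
  rw [this]
  refine (norm_add_le _ _).trans ?_
  rw [CStarRing.norm_mul_coe_unitary]

lemma est_coe_inv (u : unitary A) : ((u⁻¹ : unitary A) : A) = star (u : A) := rfl

lemma est_inv (u : unitary A) : ‖((u⁻¹ : unitary A) : A) - 1‖ = ‖(u : A) - 1‖ := by
  rw [est_coe_inv, ← norm_star ((u : A) - 1), star_sub, star_one]

lemma est_conj (g u : unitary A) : ‖((g * u * g⁻¹ : unitary A) : A) - 1‖ = ‖(u : A) - 1‖ := by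
  have h1 : (g : A) * ((g⁻¹ : unitary A) : A) = 1 := by
    rw [← Submonoid.coe_mul, mul_inv_cancel]
    rfl
  have : ((g * u * g⁻¹ : unitary A) : A) - 1 = g * ((u : A) - 1) * (g⁻¹ : unitary A) := by
    rw [mul_sub, sub_mul, mul_one, h1]
    rfl
  rw [this, CStarRing.norm_mul_coe_unitary, CStarRing.norm_coe_unitary_mul]

lemma est_len {G : Type*} [Group G] (f : G →* unitary A) {s : Set G} {M : ℕ} {w : G}
    (hw : Len s M w) {κ : ℝ} (h0 : 0 ≤ κ) (hb : ∀ x ∈ s, ‖(f x : A) - 1‖ ≤ κ) :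
    ‖(f w : A) - 1‖ ≤ M * κ := by
  refine hw.ind (P := fun k w => ‖(f w : A) - 1‖ ≤ k * κ) (by simp) (fun k w h => ?_)
    fun k w x hx h => ?_
  · push_cast
    linarith
  · have h1 : ‖(f x : A) - 1‖ ≤ κ := by
      rcases hx with hx | hx
      · exact hb x hx
      · rw [← est_inv, ← map_inv]
        exact hb _ hx
    rw [map_mul, Nat.cast_succ]
    linarith [est_mul (f w) (f x)]

theorem hol_le {Z : Set E} {M : ℕ} {w : FreeGroup E} (hw : Len (FreeGroup.of '' Z) M w)
    {b : E → unitary A} {ε : ℝ} (h0 : 0 ≤ ε) (hb : ∀ e ∈ Z, ‖(b e : A) - 1‖ ≤ ε) :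
    ‖(FreeGroup.lift b w : unitary A) - (1 : A)‖ ≤ M * ε := by
  refine est_len _ hw h0 ?_
  rintro _ ⟨e, he, rfl⟩
  simpa using hb e he

theorem area_le {s : Set (FreeGroup E)} {M : ℕ} {w : FreeGroup E}
    (hw : Len (Group.conjugatesOfSet s) M w) {b : E → unitary A} {κ : ℝ} (h0 : 0 ≤ κ)
    (hb : ∀ x ∈ s, ‖(FreeGroup.lift b x : unitary A) - (1 : A)‖ ≤ κ) :
    ‖(FreeGroup.lift b w : unitary A) - (1 : A)‖ ≤ M * κ := by
  refine est_len _ hw h0 fun x hx => ?_
  obtain ⟨y, hy, hx⟩ := Group.mem_conjugatesOfSet_iff.1 hx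
  obtain ⟨c, rfl⟩ := isConj_iff.1 hx
  rw [map_mul, map_mul, map_inv, est_conj]
  exact hb y hy

theorem pair_le {S : Type*} [SeminormedAddCommGroup S] {Z : Set E} {M : ℕ} {w : FreeGroup E}
    (hw : Len (FreeGroup.of '' Z) M w) {ζ : E → S} {η : ℝ} (h0 : 0 ≤ η)
    (hζ : ∀ e ∈ Z, ‖ζ e‖ ≤ η) : ‖pair ζ w‖ ≤ M * η := by
  refine hw.ind (P := fun k w => ‖pair ζ w‖ ≤ k * η) (by simp) (fun k w h => ?_)
    fun k w x hx h => ?_
  · push_cast
    linarith
  · have h1 : ‖pair ζ x‖ ≤ η := by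
      rcases hx with ⟨e, he, rfl⟩ | ⟨e, he, hx⟩
      · simpa using hζ e he
      · rw [← norm_neg, ← pair_inv, ← hx]
        simpa using hζ e he
    rw [pair_mul]
    push_cast
    linarith [norm_add_le (pair ζ w) (pair ζ x)]

lemma est_one (ζ : selfAdjoint A) (b : unitary A) {η ε : ℝ} (hη : 0 ≤ η) (hζ : ‖ζ‖ ≤ η)
    (hb : ‖(b : A) - 1‖ ≤ ε) :
    ‖((expUnitary ζ * b : unitary A) : A) - b - Complex.I • (ζ : A)‖ ≤ η * (η + ε) := by
  have h1 : ((expUnitary ζ * b : unitary A) : A) - b - Complex.I • (ζ : A) =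
      ((expUnitary ζ : A) - 1 - Complex.I • (ζ : A)) * b + (Complex.I • (ζ : A)) * ((b : A) - 1) := by
    rw [Submonoid.coe_mul]
    noncomm_ring
  have h2 : ‖Complex.I • (ζ : A)‖ ≤ η := by
    rw [norm_smul, Complex.norm_I, one_mul]
    exact hζ
  have h3 : ‖ζ‖ ^ 2 ≤ η ^ 2 := by gcongr
  have h4 : ‖(Complex.I • (ζ : A)) * ((b : A) - 1)‖ ≤ η * ε :=
    (norm_mul_le _ _).trans (by gcongr)
  rw [h1]
  refine (norm_add_le _ _).trans ?_
  rw [CStarRing.norm_mul_coe_unitary]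
  nlinarith [norm_exp_sub_lin ζ]

lemma est_one_inv (a b : unitary A) (ζ : selfAdjoint A) :
    ‖((a⁻¹ : unitary A) : A) - (b⁻¹ : unitary A) - Complex.I • ((-ζ : selfAdjoint A) : A)‖ =
      ‖(a : A) - b - Complex.I • (ζ : A)‖ := by
  rw [← norm_star ((a : A) - b - _), star_sub, star_sub, star_smul, ζ.2.star_eq, est_coe_inv,
    est_coe_inv]
  simp

/-- First order expansion of the holonomy. -/
theorem bch {Z : Set E} {M : ℕ} {w : FreeGroup E} (hw : Len (FreeGroup.of '' Z) M w)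
    {ζ : E → selfAdjoint A} {b : E → unitary A} {η ε : ℝ} (hη : 0 ≤ η) (hε : 0 ≤ ε)
    (hζ : ∀ e ∈ Z, ‖ζ e‖ ≤ η) (hb : ∀ e ∈ Z, ‖(b e : A) - 1‖ ≤ ε) :
    ‖((FreeGroup.lift (fun e => expUnitary (ζ e) * b e) w : unitary A) : A) -
      (FreeGroup.lift b w : unitary A) - Complex.I • ((pair ζ w : selfAdjoint A) : A)‖ ≤
      M ^ 2 * η * (η + ε) := by
  set a : E → unitary A := fun e => expUnitary (ζ e) * b e with ha
  have hI : ∀ y : selfAdjoint A, ‖Complex.I • (y : A)‖ = ‖y‖ := fun y => by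
    rw [norm_smul, Complex.norm_I, one_mul]
    rfl
  have hp : 0 ≤ η * (η + ε) := by positivity
  refine (hw.ind (P := fun k w => Len (FreeGroup.of '' Z) k w ∧
    ‖((FreeGroup.lift a w : unitary A) : A) - (FreeGroup.lift b w : unitary A) -
      Complex.I • ((pair ζ w : selfAdjoint A) : A)‖ ≤ k ^ 2 * η * (η + ε)) ⟨Len.one, by simp⟩
      (fun k w h => ⟨h.1.mono le_rfl (Nat.le_succ k), h.2.trans ?_⟩) fun k w x hx h => ?_).2
  · push_cast
    gcongr
    linarith
  obtain ⟨hl, h⟩ := h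
  have hx1 : Len (FreeGroup.of '' Z) 1 x := by
    rcases hx with hx | hx
    · exact Len.of_mem hx
    · simpa using (Len.of_mem hx).inv
  refine ⟨hl.mul hx1, ?_⟩
  have e1 : ‖((FreeGroup.lift a x : unitary A) : A) - (FreeGroup.lift b x : unitary A) -
      Complex.I • ((pair ζ x : selfAdjoint A) : A)‖ ≤ η * (η + ε) := by
    rcases hx with ⟨e, he, rfl⟩ | ⟨e, he, hx⟩
    · simp only [FreeGroup.lift_apply_of, pair_of]
      exact est_one _ _ hη (hζ e he) (hb e he)
    · obtain rfl : x = (FreeGroup.of e)⁻¹ := by rw [hx, inv_inv]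
      simp only [map_inv, FreeGroup.lift_apply_of, pair_inv, pair_of]
      rw [est_one_inv]
      exact est_one _ _ hη (hζ e he) (hb e he)
  have e2 : ‖((FreeGroup.lift a x : unitary A) : A) - 1‖ ≤ η + ε := by
    have := hol_le hx1 (b := a) (ε := η + ε) (by positivity) fun e he =>
      (est_mul _ _).trans (add_le_add ((norm_exp_sub_one _).trans (hζ e he)) (hb e he))
    simpa using this
  have e3 : ‖pair ζ x‖ ≤ η := by simpa using pair_le hx1 hη hζ
  have e4 := hol_le hl hε hb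
  have e5 := pair_le hl hη hζ
  rw [map_mul, map_mul, pair_mul, Submonoid.coe_mul, Submonoid.coe_mul, AddSubgroup.coe_add,
    smul_add]
  rw [← hI] at e3 e5
  generalize (FreeGroup.lift a w : unitary A) = Aw at *
  generalize (FreeGroup.lift a x : unitary A) = Ax at *
  generalize (FreeGroup.lift b w : unitary A) = Bw at *
  generalize (FreeGroup.lift b x : unitary A) = Bx at *
  generalize Complex.I • ((pair ζ w : selfAdjoint A) : A) = pw at *
  generalize Complex.I • ((pair ζ x : selfAdjoint A) : A) = px at *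
  have key : (Aw : A) * Ax - Bw * Bx - (pw + px) = ((Aw : A) - Bw - pw) * Ax +
      (Bw : A) * ((Ax : A) - Bx - px) + ((Bw : A) - 1) * px + pw * ((Ax : A) - 1) := by
    noncomm_ring
  have f1 : ‖((Bw : A) - 1) * px‖ ≤ k * ε * η := (norm_mul_le _ _).trans (by gcongr)
  have f2 : ‖pw * ((Ax : A) - 1)‖ ≤ k * η * (η + ε) := (norm_mul_le _ _).trans (by gcongr)
  have f3 : (0 : ℝ) ≤ k * η * η := by positivity
  rw [key]
  refine (norm_add_le_of_le (norm_add_le_of_le (norm_add_le _ _) f1) f2).trans ?_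
  rw [CStarRing.norm_mul_coe_unitary, CStarRing.norm_coe_unitary_mul]
  push_cast
  nlinarith

/-- The uniform estimate. -/
theorem uniform {F : Type*} {bd : F → FreeGroup E} {Z : Set E} {F0 F1 : Set F}
    {ℓ : E → FreeGroup E} {M : ℕ} (h1 : ∀ φ ∈ F0, Len (FreeGroup.of '' Z) M (bd φ))
    (h2 : ∀ e ∈ Z, Len (FreeGroup.of '' Z) M (ℓ e))
    (h3 : ∀ e ∈ Z, Len (Group.conjugatesOfSet (bd '' F1)) M (ℓ e))
    {ζ : E → selfAdjoint A} {a b : E → unitary A} {η ε κ : ℝ} (hη : 0 ≤ η) (hε : 0 ≤ ε)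
    (hκ : 0 ≤ κ) (hζ : ∀ e ∈ Z, ‖ζ e‖ ≤ η) (hb : ∀ e ∈ Z, ‖(b e : A) - 1‖ ≤ ε)
    (ha : ∀ e ∈ Z, a e = expUnitary (ζ e) * b e)
    (c1 : ∀ φ ∈ F0, pair ζ (bd φ) = 0) (c2 : ∀ e ∈ Z, pair ζ (ℓ e) = ζ e)
    (k1 : ∀ φ ∈ F0, ‖(FreeGroup.lift b (bd φ) : unitary A) - (1 : A)‖ ≤ κ)
    (k2 : ∀ e ∈ Z, ‖(FreeGroup.lift b (ℓ e) : unitary A) - (1 : A)‖ ≤ κ)
    (fl : ∀ φ ∈ F1, φ ∉ F0 → FreeGroup.lift a (bd φ) = 1) :
    ∀ e ∈ Z, ‖ζ e‖ ≤ (M + 1) * κ + (M ^ 3 + M ^ 2) * η * (η + ε) := by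
  intro e he
  have hp : 0 ≤ (M : ℝ) ^ 2 * η * (η + ε) := by positivity
  have cur : ∀ x ∈ bd '' F1, ‖(FreeGroup.lift a x : unitary A) - (1 : A)‖ ≤
      κ + M ^ 2 * η * (η + ε) := by
    rintro _ ⟨φ, hφ, rfl⟩
    by_cases h : φ ∈ F0
    · have := bch (h1 φ h) hη hε hζ hb
      rw [← lift_congr (h1 φ h).mem ha, c1 φ h] at this
      simp only [ZeroMemClass.coe_zero, smul_zero, sub_zero] at this
      linarith [norm_sub_le_norm_sub_add_norm_sub ((FreeGroup.lift a (bd φ) : unitary A) : A)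
        (FreeGroup.lift b (bd φ) : unitary A) 1, k1 φ h]
    · rw [fl φ hφ h]
      simp only [OneMemClass.coe_one, sub_self, norm_zero]
      positivity
  have g1 := area_le (h3 e he) (by positivity) cur
  have g2 := bch (h2 e he) hη hε hζ hb
  rw [← lift_congr (h2 e he).mem ha, c2 e he] at g2
  have g3 := k2 e he
  have hI : ‖Complex.I • (ζ e : A)‖ = ‖ζ e‖ := by
    rw [norm_smul, Complex.norm_I, one_mul]
    rfl
  rw [← hI]
  generalize ((FreeGroup.lift a (ℓ e) : unitary A) : A) = X at *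
  generalize ((FreeGroup.lift b (ℓ e) : unitary A) : A) = Y at *
  generalize Complex.I • (ζ e : A) = p at *
  have key : p = (X - 1) - (Y - 1) - (X - Y - p) := by abel
  have := norm_sub_le_of_le (norm_sub_le_of_le g1 g3) g2
  rw [← key] at this
  refine this.trans (le_of_eq ?_)
  ring

theorem continuous_lift {X : Type*} [TopologicalSpace X] {G : Type*} [TopologicalSpace G]
    [Group G] [IsTopologicalGroup G] {b : X → E → G} (hb : ∀ e, Continuous fun x => b x e)
    (w : FreeGroup E) : Continuous fun x => FreeGroup.lift (b x) w := by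
  induction w using FreeGroup.induction_on with
  | C1 => simpa using continuous_const
  | of e => simpa using hb e
  | inv_of e ih => simpa only [map_inv] using ih.fun_inv
  | mul u v i1 i2 => simpa only [map_mul] using i1.fun_mul i2

theorem continuous_pair {X : Type*} [TopologicalSpace X] {S : Type*} [TopologicalSpace S]
    [AddCommGroup S] [IsTopologicalAddGroup S] {ζ : X → E → S}
    (hζ : ∀ e, Continuous fun x => ζ x e) (w : FreeGroup E) :
    Continuous fun x => pair (ζ x) w := by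
  induction w using FreeGroup.induction_on with
  | C1 => simpa using continuous_const
  | of e => simpa using hζ e
  | inv_of e ih => simpa only [pair_inv] using ih.fun_neg
  | mul u v i1 i2 => simpa only [pair_mul] using i1.fun_add i2

end Vale.Agent.P173
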