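import Vale.Agent.P173.ExactA

/-! Exactness of the Salvetti complex. -/

namespace Vale.Agent.P173

variable {V : Type} [LinearOrder V] [Fintype V] (G : SimpleGraph V)

lemma ex_supp_ind {ι R : Type*} [Fintype ι] [DecidableEq ι] [AddCommMonoid R] {S : ι → Prop}
    {p : (ι → R) → Prop} (h0 : p 0) (hadd : ∀ a b, p a → p b → p (a + b))
    (h1 : ∀ i r, S i → p (Pi.single i r)) (y : ι → R) (hy : ∀ i, ¬ S i → y i = 0) : p y := by
  rw [← Finset.univ_sum_single y]
  refine Finset.sum_induction _ p hadd h0 fun i _ => ?_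
  by_cases hi : S i
  · exact h1 i _ hi
  · rw [hy i hi, Pi.single_zero]; exact h0

/-- The edge with given endpoints. -/
def mkEd (u v : V) (h : u < v ∧ G.Adj u v) : Ed G := ⟨(u, v), h⟩

/-- The triangle with given vertices. -/
def mkTr (u v w : V) (h : u < v ∧ v < w ∧ G.Adj u v ∧ G.Adj v w ∧ G.Adj u w) : Tr G :=
  ⟨(u, v, w), h⟩

omit [Fintype V] in
lemma Ed.ext' {G : SimpleGraph V} {e e' : Ed G} (h1 : e.1.1 = e'.1.1) (h2 : e.1.2 = e'.1.2) :
    e = e' := Subtype.ext (Prod.ext h1 h2)

lemma d1_single (u : V) (r : RR G) : d1 G (Pi.single u r) = r * am G u :=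
  Fintype.linearCombination_apply_single _ _ _ _

lemma d2_single (e : Ed G) (r : RR G) : d2 G (Pi.single e r) =
    Pi.single e.1.2 (r * am G e.1.1) - Pi.single e.1.1 (r * am G e.1.2) := by
  rw [d2, Fintype.linearCombination_apply_single, smul_sub, ← Pi.single_smul', ← Pi.single_smul',
    smul_eq_mul, smul_eq_mul]

lemma d3_single (τ : Tr G) (r : RR G) : d3 G (Pi.single τ r) =
    Pi.single (f0 τ) (r * am G τ.1.1) - Pi.single (f1 τ) (r * am G τ.1.2.1) +
      Pi.single (f2 τ) (r * am G τ.1.2.2) := by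
  rw [d3, Fintype.linearCombination_apply_single, smul_add, smul_sub, ← Pi.single_smul',
    ← Pi.single_smul', ← Pi.single_smul', smul_eq_mul, smul_eq_mul, smul_eq_mul]

lemma d1_d2 (d : Ed G → RR G) : d1 G (d2 G d) = 0 := by
  refine ex_supp_ind (S := fun _ => True) (p := fun d => d1 G (d2 G d) = 0) (by simp)
    (fun a b ha hb => by rw [map_add, map_add, ha, hb, add_zero]) (fun e r _ => ?_) d (by simp)
  rw [d2_single, map_sub, d1_single, d1_single, mul_assoc, mul_assoc, am_comm G e.2.2, sub_self]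

lemma d2_d3 (t : Tr G → RR G) : d2 G (d3 G t) = 0 := by
  refine ex_supp_ind (S := fun _ => True) (p := fun t => d2 G (d3 G t) = 0) (by simp)
    (fun a b ha hb => by rw [map_add, map_add, ha, hb, add_zero]) (fun τ r _ => ?_) t (by simp)
  rw [d3_single, map_add, map_sub, d2_single, d2_single, d2_single]
  simp only [f0, f1, f2, mul_assoc, am_comm G τ.2.2.2.1, am_comm G τ.2.2.2.2.1,
    am_comm G τ.2.2.2.2.2]
  abel

lemma d1_mem_exI {T : Set V} (c : V → RR G) (hc : ∀ w, w ∉ T → c w = 0) : d1 G c ∈ exI G T :=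
  ex_supp_ind (S := fun w => w ∈ T) (p := fun c => d1 G c ∈ exI G T) (by simp)
    (fun a b ha hb => by rw [map_add]; exact add_mem ha hb)
    (fun u r hu => by
      rw [d1_single]
      exact Submodule.smul_mem _ r (Submodule.subset_span ⟨u, hu, rfl⟩)) c hc

lemma exists_d1_of_mem {T : Set V} {x : RR G} (hx : x ∈ exI G T) :
    ∃ c : V → RR G, (∀ w, w ∉ T → c w = 0) ∧ d1 G c = x := by
  induction hx using Submodule.span_induction with
  | mem z hz =>
    obtain ⟨u, hu, rfl⟩ := hz
    refine ⟨Pi.single u 1, fun w hw => Pi.single_eq_of_ne (by rintro rfl; exact hw hu) _, ?_⟩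
    rw [d1_single, one_mul]
  | zero => exact ⟨0, fun _ _ => rfl, map_zero _⟩
  | add a b _ _ ha hb =>
    obtain ⟨c, h1, rfl⟩ := ha
    obtain ⟨c', h2, rfl⟩ := hb
    exact ⟨c + c', fun w hw => by rw [Pi.add_apply, h1 w hw, h2 w hw, add_zero], map_add _ _ _⟩
  | smul r a _ ha =>
    obtain ⟨c, h1, rfl⟩ := ha
    exact ⟨r • c, fun w hw => by rw [Pi.smul_apply, h1 w hw, smul_zero], map_smul _ _ _⟩

lemma exact_one (W : Finset V) : ∀ c : V → RR G, (∀ w, w ∉ W → c w = 0) → d1 G c = 0 →
    ∃ d : Ed G → RR G, (∀ e : Ed G, ¬ (e.1.1 ∈ W ∧ e.1.2 ∈ W) → d e = 0) ∧ d2 G d = c := by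
  induction W using Finset.induction_on_max with
  | empty =>
    intro c hc _
    exact ⟨0, fun _ _ => rfl, by rw [map_zero]; exact funext fun w => (hc w (by simp)).symm⟩
  | insert v W hlt ih =>
    intro c hc h0
    have hv : v ∉ W := fun h => lt_irrefl _ (hlt v h)
    have h1 : ∀ w, w ∉ W → (c - Pi.single v (c v) : V → RR G) w = 0 := by
      intro w hw
      by_cases hwv : w = v
      · subst hwv; simp
      · rw [Pi.sub_apply, Pi.single_eq_of_ne hwv, hc w (by simp [hw, hwv]), sub_self]
    have h2 : c v * am G v ∈ exI G (W : Set V) := by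
      have := d1_mem_exI G (T := (W : Set V)) _ h1
      rw [map_sub, h0, d1_single, zero_sub] at this
      exact neg_mem_iff.1 this
    obtain ⟨y, hy, hyc⟩ := exists_d1_of_mem G (mem_exI_of_mul G (by simpa using hv) h2)
    obtain ⟨d', hd', hd''⟩ : ∃ d' : Ed G → RR G,
        (∀ e : Ed G, ¬ (e.1.1 ∈ insert v W ∧ e.1.2 ∈ insert v W) → d' e = 0) ∧
        ∀ w, w ∉ W → (d2 G d' - Pi.single v (d1 G y) : V → RR G) w = 0 := by
      refine ex_supp_ind (S := fun u => u ∈ {u | u ∈ (W : Set V) ∧ G.Adj u v})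
        (p := fun y => ∃ d' : Ed G → RR G,
          (∀ e : Ed G, ¬ (e.1.1 ∈ insert v W ∧ e.1.2 ∈ insert v W) → d' e = 0) ∧
          ∀ w, w ∉ W → (d2 G d' - Pi.single v (d1 G y) : V → RR G) w = 0)
        ⟨0, fun _ _ => rfl, by simp⟩ ?_ ?_ y hy
      · rintro a b ⟨d, h3, h4⟩ ⟨d', h5, h6⟩
        refine ⟨d + d', fun e he => by rw [Pi.add_apply, h3 e he, h5 e he, add_zero],
          fun w hw => ?_⟩
        rw [map_add, map_add, Pi.single_add, ← sub_add_sub_comm, Pi.add_apply, h4 w hw, h6 w hw,
          add_zero]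
      · rintro u r ⟨hu, huv⟩
        refine ⟨Pi.single (mkEd G u v ⟨hlt u hu, huv⟩) r, fun e he => Pi.single_eq_of_ne ?_ _,
          fun w hw => ?_⟩
        · rintro rfl
          exact he ⟨Finset.mem_insert_of_mem hu, Finset.mem_insert_self _ _⟩
        · rw [d2_single, d1_single]
          refine (congrFun (sub_sub_cancel_left _ _) w).trans ?_
          rw [Pi.neg_apply, Pi.single_eq_of_ne, neg_zero]
          rintro rfl
          exact hw hu
    obtain ⟨d, hd, hdc⟩ := ih (c - d2 G d') (fun w hw => by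
      have := sub_eq_zero.2 ((h1 w hw).trans (hd'' w hw).symm)
      rw [hyc, ← Pi.sub_apply, sub_sub_sub_cancel_right] at this
      exact this) (by rw [map_sub, h0, d1_d2, sub_self])
    refine ⟨d + d', fun e he => ?_, by rw [map_add, hdc, sub_add_cancel]⟩
    rw [Pi.add_apply, hd' e he, add_zero]
    exact hd e fun h => he ⟨Finset.mem_insert_of_mem h.1, Finset.mem_insert_of_mem h.2⟩

/-- Coning off a chain of vertices. -/
noncomputable def exCone (v : V) : (V → RR G) →+ (Ed G → RR G) where
  toFun c e := if e.1.2 = v then c e.1.1 else 0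
  map_zero' := by ext1 e; simp
  map_add' a b := by
    ext1 e
    simp only [Pi.add_apply]
    split_ifs <;> simp

open Classical in
/-- The coefficients of the edges ending at `v`. -/
noncomputable def exEv (v : V) : (Ed G → RR G) →+ (V → RR G) where
  toFun d u := if h : u < v ∧ G.Adj u v then d (mkEd G u v h) else 0
  map_zero' := by ext1 e; simp
  map_add' a b := by
    ext1 e
    simp only [Pi.add_apply]
    split_ifs <;> simp

omit [Fintype V] in
open Classical in
lemma exEv_apply (v : V) (d : Ed G → RR G) (u : V) :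
    exEv G v d u = if h : u < v ∧ G.Adj u v then d (mkEd G u v h) else 0 := rfl

omit [Fintype V] in
lemma exCone_single {u v : V} (h : u < v ∧ G.Adj u v) (r : RR G) :
    exCone G v (Pi.single u r) = Pi.single (mkEd G u v h) r := by
  ext1 e
  change (if e.1.2 = v then (Pi.single u r : V → RR G) e.1.1 else 0) = _
  by_cases hb : e.1.2 = v
  · by_cases ha : e.1.1 = u
    · have : e = mkEd G u v h := Ed.ext' ha hb
      rw [if_pos hb, ha, this, Pi.single_eq_same, Pi.single_eq_same]
    · rw [if_pos hb, Pi.single_eq_of_ne ha, Pi.single_eq_of_ne]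
      intro h
      exact ha (congrArg (fun e : Ed G => e.1.1) h)
  · rw [if_neg hb, Pi.single_eq_of_ne]
    intro h
    exact hb (congrArg (fun e : Ed G => e.1.2) h)

omit [Fintype V] in
lemma exCone_exEv (v : V) (d : Ed G → RR G) (e : Ed G) (he : e.1.2 = v) :
    exCone G v (exEv G v d) e = d e := by
  subst he
  change (if e.1.2 = e.1.2 then exEv G e.1.2 d e.1.1 else 0) = _
  rw [if_pos rfl]
  exact dif_pos e.2

lemma exact_two (W : Finset V) : ∀ d : Ed G → RR G,
    (∀ e : Ed G, ¬ (e.1.1 ∈ W ∧ e.1.2 ∈ W) → d e = 0) → d2 G d = 0 → ∃ t, d3 G t = d := by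
  classical
  induction W using Finset.induction_on_max with
  | empty =>
    intro d hd _
    exact ⟨0, by rw [map_zero]; exact funext fun e => (hd e (by simp)).symm⟩
  | insert v W hlt ih =>
    intro d hd h0
    have h1 : d1 G (exEv G v d) = d2 G d v := by
      refine ex_supp_ind (S := fun e : Ed G => e.1.1 ∈ insert v W ∧ e.1.2 ∈ insert v W)
        (p := fun d => d1 G (exEv G v d) = d2 G d v) (by simp)
        (fun a b ha hb => by rw [map_add, map_add, map_add, ha, hb, Pi.add_apply]) ?_ d hd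
      rintro e r ⟨-, hb⟩
      have hav : e.1.1 ≠ v := by
        rcases Finset.mem_insert.1 hb with hb | hb
        · exact (e.2.1.trans_eq hb).ne
        · exact (e.2.1.trans (hlt _ hb)).ne
      rw [d2_single, Pi.sub_apply, Pi.single_eq_of_ne hav.symm, sub_zero]
      by_cases hbv : e.1.2 = v
      · subst hbv
        have : exEv G e.1.2 (Pi.single e r) = Pi.single e.1.1 r := by
          ext1 u
          by_cases hu : u = e.1.1
          · subst hu
            rw [Pi.single_eq_same]
            exact (dif_pos e.2).trans (Pi.single_eq_same (M := fun _ => RR G) e r)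
          · rw [Pi.single_eq_of_ne hu, exEv_apply]
            split_ifs with h'
            · refine Pi.single_eq_of_ne (fun h => hu ?_) _
              exact congrArg (fun e : Ed G => e.1.1) h
            · rfl
        rw [this, d1_single, Pi.single_eq_same]
      · have : exEv G v (Pi.single e r) = 0 := by
          ext1 u
          rw [exEv_apply]
          split_ifs with h'
          · refine Pi.single_eq_of_ne (fun h => hbv ?_) _
            exact (congrArg (fun e : Ed G => e.1.2) h).symm
          · rfl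
        rw [this, map_zero, Pi.single_eq_of_ne (Ne.symm hbv)]
    obtain ⟨y, hy, hyd⟩ := exact_one G (W.filter fun u => G.Adj u v) (exEv G v d) (fun w hw => by
      rw [exEv_apply]
      split_ifs with h'
      · refine hd _ fun h => hw (Finset.mem_filter.2 ⟨?_, h'.2⟩)
        exact (Finset.mem_insert.1 h.1).resolve_left h'.1.ne
      · rfl) (by rw [h1, h0, Pi.zero_apply])
    obtain ⟨t', ht'⟩ : ∃ t' : Tr G → RR G, ∀ e : Ed G, ¬ (e.1.1 ∈ W ∧ e.1.2 ∈ W) →
        (d3 G t' - exCone G v (d2 G y)) e = 0 := by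
      refine ex_supp_ind (S := fun e : Ed G => e.1.1 ∈ W.filter (fun u => G.Adj u v) ∧
          e.1.2 ∈ W.filter fun u => G.Adj u v)
        (p := fun y => ∃ t' : Tr G → RR G, ∀ e : Ed G, ¬ (e.1.1 ∈ W ∧ e.1.2 ∈ W) →
          (d3 G t' - exCone G v (d2 G y)) e = 0) ⟨0, by simp⟩ ?_ ?_ y hy
      · rintro a b ⟨t, h3⟩ ⟨t', h4⟩
        refine ⟨t + t', fun e he => ?_⟩
        rw [map_add, map_add, map_add, ← sub_add_sub_comm, Pi.add_apply, h3 e he, h4 e he,
          add_zero]
      · rintro e' r ⟨ha, hb⟩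
        obtain ⟨ha1, ha2⟩ := Finset.mem_filter.1 ha
        obtain ⟨hb1, hb2⟩ := Finset.mem_filter.1 hb
        refine ⟨Pi.single (mkTr G e'.1.1 e'.1.2 v ⟨e'.2.1, hlt _ hb1, e'.2.2, hb2, ha2⟩) r,
          fun e he => ?_⟩
        rw [d3_single, d2_single, map_sub, exCone_single G ⟨hlt _ hb1, hb2⟩,
          exCone_single G ⟨hlt _ ha1, ha2⟩]
        refine (congrFun (add_sub_cancel_left _ _) e).trans ?_
        refine Pi.single_eq_of_ne ?_ _
        rintro rfl
        exact he ⟨ha1, hb1⟩
    obtain ⟨t, ht⟩ := ih (d - d3 G t') (fun e he => by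
      have h3 := ht' e he
      rw [hyd, Pi.sub_apply, sub_eq_zero] at h3
      rw [Pi.sub_apply, h3, sub_eq_zero]
      by_cases hev : e.1.2 = v
      · exact (exCone_exEv G v d e hev).symm
      · refine (hd e fun h => he ?_).trans (if_neg hev).symm
        have h4 := (Finset.mem_insert.1 h.2).resolve_left hev
        exact ⟨(Finset.mem_insert.1 h.1).resolve_left (e.2.1.trans (hlt _ h4)).ne, h4⟩)
      (by rw [map_sub, h0, d2_d3, sub_self])
    exact ⟨t + t', by rw [map_add, ht, sub_add_cancel]⟩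

omit [LinearOrder V] [Fintype V] in
lemma aug_of (g : RA G) : aug G (MonoidAlgebra.of ℤ (RA G) g) = 1 := by
  rw [aug, MonoidAlgebra.lift_of, MonoidHom.one_apply]

theorem exa : Exa G := by
  refine ⟨fun d => ⟨fun h => exact_two G Finset.univ d (by simp) h, ?_⟩,
    fun c => ⟨fun h => ?_, ?_⟩, fun x => ⟨fun h => ?_, ?_⟩⟩
  · rintro ⟨t, rfl⟩
    exact d2_d3 G t
  · obtain ⟨d, -, hd⟩ := exact_one G Finset.univ c (by simp) h
    exact ⟨d, hd⟩
  · rintro ⟨t, rfl⟩
    exact d1_d2 G t
  · have h1 : ∀ y : RR G, y - aug G y • (1 : RR G) ∈ exI G Set.univ := by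
      intro y
      induction y using MonoidAlgebra.induction_on with
      | of g => rw [aug_of, one_smul]; exact of_sub_one_mem G g
      | add a b ha hb => rw [map_add, add_smul, ← sub_add_sub_comm]; exact add_mem ha hb
      | smul r a ha => rw [map_smul, smul_assoc, ← smul_sub]; exact zsmul_mem ha r
    have h2 := h1 x
    rw [h, zero_smul, sub_zero] at h2
    obtain ⟨c, -, hc⟩ := exists_d1_of_mem G h2
    exact ⟨c, hc⟩
  · rintro ⟨c, rfl⟩
    refine ex_supp_ind (S := fun _ => True) (p := fun c => aug G (d1 G c) = 0) (by simp)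
      (fun a b ha hb => by rw [map_add, map_add, ha, hb, add_zero]) (fun u r _ => ?_) c (by simp)
    rw [d1_single, map_mul, am, map_sub, aug_of, map_one, sub_self, mul_zero]

end Vale.Agent.P173
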