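import Vale.Agent.P173.DefsL

/-! The key injectivity statement (a Bass-Serre forest) for the Salvetti complex. -/

namespace Vale.Agent.P173

variable {V : Type} (G : SimpleGraph V)

lemma ga_comm {u v : V} (h : G.Adj u v) : ga G u * ga G v = ga G v * ga G u := by
  have h1 : (PresentedGroup.mk _ (FreeGroup.of u * FreeGroup.of v * (FreeGroup.of u)⁻¹ *
      (FreeGroup.of v)⁻¹) : RA G) = 1 := PresentedGroup.one_of_mem ⟨u, v, h, rfl⟩
  simp only [map_mul, map_inv] at h1
  rw [mul_inv_eq_one, mul_inv_eq_iff_eq_mul] at h1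
  exact h1

lemma am_comm {u v : V} (h : G.Adj u v) : am G u * am G v = am G v * am G u := by
  simp only [am, sub_mul, mul_sub, ← map_mul, ga_comm G h, mul_one, one_mul]
  abel

lemma of_mul_am (g : RA G) (v : V) : MonoidAlgebra.of ℤ (RA G) g * am G v =
    MonoidAlgebra.of ℤ (RA G) (g * ga G v) - MonoidAlgebra.of ℤ (RA G) g := by
  rw [am, mul_sub, mul_one, map_mul]

/-- The left ideal generated by the `a_u - 1`, `u ∈ T`. -/
noncomputable def exI (T : Set V) : Submodule (RR G) (RR G) := Submodule.span (RR G) (am G '' T)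

open Classical in
/-- The cocycle counting crossings of the edges of the Bass-Serre forest. -/
lemma exists_chi {M : Type} [AddCommGroup M] (W : Set V) {v : V} (hv : v ∉ W) (f : RA G → M)
    (hf : ∀ g u, u ∈ W → G.Adj u v → f (g * ga G u) = f g) :
    ∃ χ : RA G → M, (∀ g u, u ∈ W → χ (g * ga G u) = χ g) ∧ ∀ g, χ (g * ga G v) = χ g + f g := by
  let s : V → RA G := fun w => if w ∈ W ∨ w = v then ga G w else 1
  let t : V → RA G → M := fun w g => if w = v then f g else 0
  let σ : V → Equiv.Perm (RA G × M) := fun w =>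
    { toFun := fun p => (p.1 * s w, p.2 + t w p.1)
      invFun := fun p => (p.1 * (s w)⁻¹, p.2 - t w (p.1 * (s w)⁻¹))
      left_inv := fun p => by simp
      right_inv := fun p => by simp }
  have hσ : ∀ w p, σ w p = (p.1 * s w, p.2 + t w p.1) := fun _ _ => rfl
  have hs : ∀ w w', G.Adj w w' → s w * s w' = s w' * s w := by
    intro w w' h
    simp only [s]
    split_ifs
    · exact ga_comm G h
    all_goals simp
  have ht : ∀ w w' g, G.Adj w w' → t w (g * s w') = t w g := by
    intro w w' g h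
    simp only [s, t]
    by_cases hw : w = v
    · subst hw
      rw [if_pos rfl, if_pos rfl]
      split_ifs with h1
      · rcases h1 with h1 | h1
        · exact hf g w' h1 h.symm
        · exact absurd h1 h.ne'
      · rw [mul_one]
    · rw [if_neg hw, if_neg hw]
  have hcomm : ∀ w w', G.Adj w w' → σ w * σ w' = σ w' * σ w := by
    intro w w' h
    ext p
    · simp only [Equiv.Perm.mul_apply, hσ, mul_assoc, hs w w' h]
    · simp only [Equiv.Perm.mul_apply, hσ, ht w w' _ h, ht w' w _ h.symm]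
      abel
  let ψ : RA G →* Equiv.Perm (RA G × M) :=
    PresentedGroup.toGroup (f := fun w => (σ w)⁻¹) (by
      rintro r ⟨u, w, h, rfl⟩
      simp only [map_mul, map_inv, FreeGroup.lift_apply_of]
      rw [mul_inv_eq_one, mul_inv_eq_iff_eq_mul, ← mul_inv_rev, ← mul_inv_rev, hcomm u w h])
  have hψ : ∀ w, ψ (ga G w) = (σ w)⁻¹ := fun w => PresentedGroup.toGroup.of _
  let B : Subgroup (RA G) := Subgroup.closure (ga G '' {w | w ∈ W ∨ w = v})
  have hB : ∀ h ∈ B, ∀ p, (ψ h p).1 = p.1 * h⁻¹ := by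
    intro h hh
    induction hh using Subgroup.closure_induction with
    | mem x hx =>
      obtain ⟨w, hw, rfl⟩ := hx
      intro p
      rw [hψ]
      change p.1 * (s w)⁻¹ = _
      simp only [s]
      rw [if_pos (show w ∈ W ∨ w = v from hw)]
    | one => intro p; simp
    | mul x y _ _ hx hy => intro p; rw [map_mul, Equiv.Perm.mul_apply, hx, hy, mul_inv_rev, mul_assoc]
    | inv x _ hx =>
      intro p
      have := hx (ψ x⁻¹ p)
      rw [← Equiv.Perm.mul_apply, ← map_mul, mul_inv_cancel, map_one, Equiv.Perm.one_apply] at this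
      rw [this]
      simp
  let o : RA G → RA G := fun g => (QuotientGroup.mk g : RA G ⧸ B).out
  have ho : ∀ g, g⁻¹ * o g ∈ B := fun g => by
    rw [← QuotientGroup.eq]; exact (QuotientGroup.out_eq' _).symm
  have key : ∀ g w, (w ∈ W ∨ w = v) → (ψ ((g * ga G w)⁻¹ * o (g * ga G w)) (o (g * ga G w), 0)).2 =
      (ψ (g⁻¹ * o g) (o g, 0)).2 + t w g := by
    intro g w hw
    have h1 : o (g * ga G w) = o g := by
      simp only [o]
      have hwB : ga G w ∈ B := Subgroup.subset_closure ⟨w, hw, rfl⟩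
      rw [QuotientGroup.mk_mul_of_mem g hwB]
    rw [h1, mul_inv_rev, mul_assoc, map_mul, map_inv, hψ, inv_inv, Equiv.Perm.mul_apply, hσ,
      hB _ (ho g)]
    simp
  refine ⟨fun g => (ψ (g⁻¹ * o g) (o g, 0)).2, fun g u hu => ?_, fun g => ?_⟩
  · have hne : u ≠ v := fun h => hv (h ▸ hu)
    simp only [key g u (Or.inl hu), t, if_neg hne, add_zero]
  · simp only [key g v (Or.inr rfl), t, if_pos]

lemma mem_exI_of_mul {W : Set V} {v : V} (hv : v ∉ W) {x : RR G} (hx : x * am G v ∈ exI G W) :
    x ∈ exI G {u | u ∈ W ∧ G.Adj u v} := by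
  set I := exI G {u | u ∈ W ∧ G.Adj u v} with hI
  obtain ⟨χ, h1, h2⟩ := exists_chi G W hv (fun g => I.mkQ (MonoidAlgebra.of ℤ (RA G) g)) (by
    intro g u hu huv
    rw [← sub_eq_zero, ← map_sub, ← of_mul_am, Submodule.mkQ_apply,
      Submodule.Quotient.mk_eq_zero]
    exact I.smul_mem _ (Submodule.subset_span ⟨u, ⟨hu, huv⟩, rfl⟩))
  let X : RR G →ₗ[ℤ] (RR G ⧸ I) := (MonoidAlgebra.basis (RA G) ℤ).constr ℤ χ
  have hX : ∀ g, X (MonoidAlgebra.of ℤ (RA G) g) = χ g := fun g =>
    (MonoidAlgebra.basis (RA G) ℤ).constr_basis ℤ χ g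
  have h3 : ∀ u ∈ W, ∀ y : RR G, X (y * am G u) = 0 := by
    intro u hu y
    induction y using MonoidAlgebra.induction_on with
    | of g => rw [of_mul_am, map_sub, hX, hX, h1 g u hu, sub_self]
    | add a b ha hb => rw [add_mul, map_add, ha, hb, add_zero]
    | smul r a ha => rw [smul_mul_assoc, map_smul, ha, smul_zero]
  have h4 : ∀ y : RR G, X (y * am G v) = I.mkQ y := by
    intro y
    induction y using MonoidAlgebra.induction_on with
    | of g => rw [of_mul_am, map_sub, hX, hX, h2 g, add_sub_cancel_left]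
    | add a b ha hb => rw [add_mul, map_add, ha, hb, map_add]
    | smul r a ha => rw [smul_mul_assoc, map_smul, ha, map_zsmul]
  have h5 : ∀ z ∈ exI G W, ∀ y : RR G, X (y * z) = 0 := by
    intro z hz
    induction hz using Submodule.span_induction with
    | mem z hz => obtain ⟨u, hu, rfl⟩ := hz; exact h3 u hu
    | zero => intro y; rw [mul_zero, map_zero]
    | add a b _ _ ha hb => intro y; rw [mul_add, map_add, ha, hb, add_zero]
    | smul r a _ ha => intro y; rw [smul_eq_mul, ← mul_assoc, ha]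
  have h6 := h5 _ hx 1
  rw [one_mul, h4, Submodule.mkQ_apply, Submodule.Quotient.mk_eq_zero] at h6
  exact h6

lemma of_sub_one_mem (g : RA G) : MonoidAlgebra.of ℤ (RA G) g - 1 ∈ exI G Set.univ := by
  have hg : g ∈ Subgroup.closure (Set.range (PresentedGroup.of : V → RA G)) := by
    rw [PresentedGroup.closure_range_of]; trivial
  induction hg using Subgroup.closure_induction with
  | mem x hx => obtain ⟨w, rfl⟩ := hx; exact Submodule.subset_span ⟨w, trivial, rfl⟩
  | one => rw [map_one, sub_self]; exact zero_mem _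
  | mul x y _ _ hx hy =>
    have : MonoidAlgebra.of ℤ (RA G) (x * y) - 1 = MonoidAlgebra.of ℤ (RA G) x •
        (MonoidAlgebra.of ℤ (RA G) y - 1) + (MonoidAlgebra.of ℤ (RA G) x - 1) := by
      rw [smul_eq_mul, mul_sub, mul_one, map_mul]; abel
    rw [this]
    exact add_mem (Submodule.smul_mem _ _ hy) hx
  | inv x _ hx =>
    have : MonoidAlgebra.of ℤ (RA G) x⁻¹ - 1 = -(MonoidAlgebra.of ℤ (RA G) x⁻¹ •
        (MonoidAlgebra.of ℤ (RA G) x - 1)) := by
      rw [smul_eq_mul, mul_sub, mul_one, ← map_mul, inv_mul_cancel, map_one]; abel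
    rw [this]
    exact neg_mem (Submodule.smul_mem _ _ hx)

end Vale.Agent.P173
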