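import Vale.Agent.P173.DefsT

/-! Lifts for local systems. -/

namespace Vale.Agent.P173

open Topology Filter

section
variable {X A B : Type*} [TopologicalSpace X] [TopologicalSpace A] [TopologicalSpace B]
  {ι G G' : Type*} [Group G] [Group G'] {U : ι → Set X} {τ : ι → X → G}

/-- It suffices to check the lifting condition in one chart at each point. -/
theorem LocSys.isLift_of (h : LocSys U τ) {k : A → X} (hk : Continuous k) {η : A → G}
    (H : ∀ a, ∃ i, k a ∈ U i ∧ ∀ᶠ b in 𝓝 a, η b * τ i (k b) = η a * τ i (k a)) :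
    IsLift U τ k η := by
  intro j a hj
  obtain ⟨i, hi, H⟩ := H a
  filter_upwards [H, (hk.tendsto a).eventually (h.compat i j _ hi hj)] with b h1 h2
  rw [← mul_inv_cancel_left (τ i (k b)) (τ j (k b)), h2, ← mul_assoc, h1, mul_assoc,
    mul_inv_cancel_left]

theorem LocSys.exists_lift (h : LocSys U τ) [SimplyConnectedSpace A]
    [LocallyPathConnectedSpace A] {k : A → X} (hk : Continuous k) (hc : ∀ a, ∃ i, k a ∈ U i)
    (a₀ : A) (g₀ : G) : ∃ η : A → G, IsLift U τ k η ∧ η a₀ = g₀ := by
  letI : TopologicalSpace G := ⊥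
  haveI : DiscreteTopology G := ⟨rfl⟩
  choose ix hix using hc
  let Z : FiberBundleCore ι A G :=
    { baseSet := fun i => k ⁻¹' U i
      isOpen_baseSet := fun i => (h.isOpen i).preimage hk
      indexAt := ix
      mem_baseSet_at := hix
      coordChange := fun i j a v => v * ((τ i (k a))⁻¹ * τ j (k a))
      coordChange_self := fun i a _ v => by rw [inv_mul_cancel, mul_one]
      continuousOn_coordChange := fun i j p hp => by
        refine ContinuousAt.continuousWithinAt ?_
        have h1 : ∀ᶠ q : A × G in 𝓝 p, q.2 * ((τ i (k q.1))⁻¹ * τ j (k q.1)) =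
            q.2 * ((τ i (k p.1))⁻¹ * τ j (k p.1)) := by
          filter_upwards [((hk.comp continuous_fst).tendsto p).eventually
            (h.compat i j _ hp.1.1 hp.1.2)] with q hq
          exact congrArg _ hq
        refine ContinuousAt.congr ?_ (EventuallyEq.symm h1)
        exact ((continuous_of_discreteTopology
          (f := fun v : G => v * ((τ i (k p.1))⁻¹ * τ j (k p.1)))).comp continuous_snd).continuousAt
      coordChange_comp := fun i j l a _ v => by rw [mul_assoc, mul_assoc, mul_inv_cancel_left] }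
  have hcov : IsCoveringMap Z.proj :=
    IsCoveringMap.mk Z.proj (fun _ => G) (fun a => Z.localTriv (ix a)) hix
  obtain ⟨s, ⟨h1, h2⟩, -⟩ := hcov.existsUnique_continuousMap_lifts (ContinuousMap.id A) a₀
    ⟨a₀, g₀ * τ (ix a₀) (k a₀)⟩ rfl
  have h3 : ∀ a, (s a).1 = a := congrFun h2
  refine ⟨fun a => (show G from (s a).2) * (τ (ix (s a).1) (k (s a).1))⁻¹, fun i a hi => ?_, ?_⟩
  · have h4 : ContinuousAt (fun b => (Z.localTriv i (s b)).2) a := by
      refine continuousAt_snd.comp (ContinuousAt.comp ?_ s.continuous.continuousAt)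
      refine (Z.localTriv i).continuousAt ?_
      rw [Z.mem_localTriv_source, h3]
      exact hi
    have h5 : ∀ b, (Z.localTriv i (s b)).2 =
        (show G from (s b).2) * (τ (ix (s b).1) (k (s b).1))⁻¹ * τ i (k b) := fun b => by
      rw [mul_assoc]
      conv_rhs => rw [← h3 b]
      conv_rhs => enter [1]; rw [h3 b]
      conv_rhs => enter [2, 1]; rw [h3 (s b).1]
      rfl
    simp only [← h5]
    exact h4.eventually (p := fun v => v = (Z.localTriv i (s a)).2)
      ((isOpen_discrete {(Z.localTriv i (s a)).2}).mem_nhds rfl)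
  · exact (congrArg (fun p : Z.TotalSpace => (show G from p.2) * (τ (ix p.1) (k p.1))⁻¹) h1).trans
      (mul_inv_cancel_right g₀ _)

omit [TopologicalSpace X] in
theorem IsLift.unique [PreconnectedSpace A] {k : A → X} (hc : ∀ a, ∃ i, k a ∈ U i)
    {η η' : A → G} (h : IsLift U τ k η) (h' : IsLift U τ k η') {a₀ : A} (e : η a₀ = η' a₀) :
    η = η' := by
  have key : IsLocallyConstant fun a => η a * (η' a)⁻¹ := by
    rw [IsLocallyConstant.iff_eventually_eq]
    intro a
    obtain ⟨i, hi⟩ := hc a
    filter_upwards [h i a hi, h' i a hi] with b h1 h2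
    rw [← mul_inv_cancel_right (η b) (τ i (k b)), h1, mul_assoc, mul_assoc, ← mul_inv_rev, h2,
      mul_inv_rev, mul_inv_cancel_left]
  funext a
  have := key.apply_eq_of_preconnectedSpace a a₀
  rw [e, mul_inv_cancel] at this
  exact mul_inv_eq_one.1 this

omit [TopologicalSpace X] in
theorem IsLift.mul_left {k : A → X} {η : A → G} (h : IsLift U τ k η) (g : G) :
    IsLift U τ k fun a => g * η a := fun i a hi => by
  filter_upwards [h i a hi] with b hb
  rw [mul_assoc, hb, mul_assoc]

omit [TopologicalSpace X] in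
theorem IsLift.comp {k : A → X} {η : A → G} (h : IsLift U τ k η) {m : B → A}
    (hm : Continuous m) : IsLift U τ (fun b => k (m b)) fun b => η (m b) :=
  fun i b hi => (hm.tendsto b).eventually (h i (m b) hi)

omit [TopologicalSpace X] in
theorem IsLift.map {k : A → X} {η : A → G} (h : IsLift U τ k η) (θ : G →* G') :
    IsLift U (fun i x => θ (τ i x)) k fun a => θ (η a) := fun i a hi => by
  filter_upwards [h i a hi] with b hb
  rw [← map_mul, hb, map_mul]

end

theorem isOpen_preimage_pathComponentIn {X Y : Type*} [TopologicalSpace X] [TopologicalSpace Y]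
    [LocallyPathConnectedSpace Y] {f : Y → X} (hf : Continuous f) {O : Set X} (hO : IsOpen O)
    (x : X) : IsOpen (f ⁻¹' pathComponentIn O x) := by
  refine isOpen_iff_mem_nhds.2 fun y hy => ?_
  have h1 : f y ∈ O := pathComponentIn_subset (show f y ∈ pathComponentIn O x from hy)
  refine mem_of_superset (pathComponentIn_mem_nhds ((hO.preimage hf).mem_nhds h1)) fun z hz => ?_
  exact JoinedIn.trans hy ((JoinedIn.map hz hf).mono (Set.image_preimage_subset _ _))

theorem Cell2.locPathConn {X : Type*} [TopologicalSpace X] {V E F : Type*} {pt : V → X}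
    {ed : E → ℝ → X} {fc : F → ℂ → X} {src tgt : E → V} (h : Cell2 pt ed fc src tgt) :
    LocallyPathConnectedSpace X :=
  locallyPathConnectedSpace_iff_isOpen_pathComponentIn.2 fun x _ hO =>
    h.weak2 _ (fun e => isOpen_preimage_pathComponentIn (h.ed_cont e) hO x)
      fun φ => isOpen_preimage_pathComponentIn (h.fc_cont φ) hO x

end Vale.Agent.P173
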