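import Vale.Agent.P173.Retr

/-! Nowhere vanishing sections over contractible spaces and winding functions. -/

namespace Vale.Agent.P173

open Topology Filter

theorem exists_modulus {X Y : Type*} [TopologicalSpace X] [PseudoMetricSpace Y]
    (Q : X → unitInterval → Y) (hQ : Continuous fun p : X × unitInterval => Q p.1 p.2) :
    ∃ τ : X → ℝ, Continuous τ ∧ (∀ x, 0 < τ x) ∧
      ∀ x (t t' : unitInterval), |(t : ℝ) - t'| < τ x → dist (Q x t) (Q x t') < 1 / 2 := by
  let f : X → unitInterval × unitInterval → ℝ := fun x q =>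
    |(q.1 : ℝ) - q.2| + max 0 (1 / 2 - dist (Q x q.1) (Q x q.2))
  have hf : Continuous (Function.uncurry f) := by
    have h1 : Continuous fun p : X × unitInterval × unitInterval => Q p.1 p.2.1 :=
      hQ.comp (f := fun p : X × unitInterval × unitInterval => (p.1, p.2.1)) (by fun_prop)
    have h2 : Continuous fun p : X × unitInterval × unitInterval => Q p.1 p.2.2 :=
      hQ.comp (f := fun p : X × unitInterval × unitInterval => (p.1, p.2.2)) (by fun_prop)
    exact Continuous.add (by fun_prop) (continuous_const.max (continuous_const.sub (h1.dist h2)))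
  have key : ∀ x, ∃ q ∈ Set.univ, sInf (f x '' Set.univ) = f x q ∧ ∀ q' ∈ Set.univ, f x q ≤ f x q' :=
    fun x => isCompact_univ.exists_sInf_image_eq_and_le Set.univ_nonempty
      (hf.comp (Continuous.prodMk_right x)).continuousOn
  refine ⟨fun x => sInf (f x '' Set.univ), isCompact_univ.continuous_sInf hf, fun x => ?_,
    fun x t t' h => ?_⟩
  · obtain ⟨q, -, h1, -⟩ := key x
    refine lt_of_lt_of_eq ?_ h1.symm
    by_cases h : q.1 = q.2
    · simp only [f, h, sub_self, abs_zero, dist_self]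
      norm_num
    · exact add_pos_of_pos_of_nonneg (abs_pos.2 (sub_ne_zero.2 fun e => h (Subtype.ext e)))
        (le_max_left _ _)
  · obtain ⟨q, -, h1, h2⟩ := key x
    have h3 := h2 (t, t') trivial
    rw [← h1] at h3
    have h4 := h.trans_le h3
    simp only [f, lt_add_iff_pos_right, lt_max_iff, lt_irrefl, false_or] at h4
    linarith

theorem exists_section {X W : Type*} [TopologicalSpace X] [ContractibleSpace X]
    [NormedAddCommGroup W] [NormedSpace ℂ W] (P : X → W →L[ℂ] W) (hP : Continuous P)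
    (h1 : ∀ x w, P x (P x w) = P x w) (h2 : ∀ x, P x ≠ 0) :
    ∃ v : X → W, Continuous v ∧ ∀ x, P x (v x) = v x ∧ v x ≠ 0 := by
  obtain ⟨x₀, ⟨H⟩⟩ := id_nullhomotopic X
  let K := H.symm
  have hK : Continuous fun p : X × unitInterval => K (p.2, p.1) :=
    K.continuous.comp continuous_swap
  obtain ⟨τ, hτ, hτ0, hτ1⟩ := exists_modulus (fun x t => P (K (t, x))) (hP.comp hK)
  obtain ⟨w₀, hw₀⟩ : ∃ w, P x₀ w ≠ 0 := by
    by_contra h
    push Not at h
    exact h2 x₀ (ContinuousLinearMap.ext h)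
  let t : ℕ → X → unitInterval := fun k x => Set.projIcc 0 1 zero_le_one (k * (τ x / 2))
  have ht : ∀ k, Continuous (t k) := fun k => continuous_projIcc.comp (by fun_prop)
  let R : ℕ → X → W →L[ℂ] W := fun k x => P (K (t k x, x))
  have hR : ∀ k, Continuous (R k) := fun k =>
    hP.comp (K.continuous.comp ((ht k).prodMk continuous_id))
  let v : ℕ → X → W := fun k => Nat.rec (fun _ => P x₀ w₀) (fun k v x => R (k + 1) x (v x)) k
  have hv : ∀ k x, v (k + 1) x = R (k + 1) x (v k x) := fun k x => rfl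
  have hvc : ∀ k, Continuous (v k) := by
    intro k
    induction k with
    | zero => exact continuous_const
    | succ k ih => exact (hR (k + 1)).clm_apply ih
  have hv1 : ∀ k x, R k x (v k x) = v k x := by
    intro k x
    cases k with
    | zero =>
      have e : t 0 x = 0 := Set.projIcc_of_le_left _ (by simp)
      simp only [R, e, K.apply_zero]
      exact h1 _ _
    | succ k => exact h1 _ _
  have hv2 : ∀ k x, v k x ≠ 0 := by
    intro k x
    induction k with
    | zero => exact hw₀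
    | succ k ih =>
      intro h0
      have h3 : dist (R k x) (R (k + 1) x) < 1 / 2 := by
        refine hτ1 x _ _ ((Set.abs_projIcc_sub_projIcc _).trans_lt ?_)
        have := hτ0 x
        push_cast
        rw [abs_lt]
        constructor <;> linarith
      have h4 := (R k x - R (k + 1) x).le_opNorm (v k x)
      rw [ContinuousLinearMap.sub_apply, hv1, ← hv, h0, sub_zero, ← dist_eq_norm] at h4
      have h5 := norm_pos_iff.2 ih
      nlinarith
  have hst : ∀ (k : ℕ) x, 2 / τ x ≤ k → R k x = P x := by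
    intro k x hk
    have e : t k x = 1 := Set.projIcc_of_right_le _ (by
      rw [div_le_iff₀ (hτ0 x)] at hk
      linarith)
    simp only [R, e, K.apply_one]
    rfl
  have hst' : ∀ x (k k' : ℕ), 2 / τ x ≤ k → k ≤ k' → v k' x = v k x := by
    intro x k k' hk hkk
    induction hkk with
    | refl => rfl
    | @step m hm ih =>
      have h3 : (k : ℝ) ≤ m := by exact_mod_cast hm
      rw [hv, ih, hst _ x (by push_cast; linarith), ← hst k x hk, hv1]
  refine ⟨fun x => v ⌈2 / τ x⌉₊ x, continuous_iff_continuousAt.2 fun x => ?_,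
    fun x => ⟨?_, hv2 _ x⟩⟩
  · have hc : Continuous fun x => 2 / τ x := continuous_const.div hτ fun x => (hτ0 x).ne'
    refine (hvc (⌈2 / τ x⌉₊ + 1)).continuousAt.congr ?_
    filter_upwards [hc.continuousAt.eventually (gt_mem_nhds (lt_add_one (2 / τ x)))] with y hy
    refine hst' y _ (⌈2 / τ x⌉₊ + 1) (Nat.le_ceil _) (Nat.ceil_le.2 ?_)
    have := Nat.le_ceil (2 / τ x)
    push_cast
    linarith
  · rw [← hst _ x (Nat.le_ceil _), hv1]

/-- The spanning vector of the line. -/
noncomputable def wA (z : ℂ) : ℂ × ℂ := (z, ((max 0 (1 - ‖z‖) : ℝ) : ℂ))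

/-- The squared length of `wA z`. -/
noncomputable def wN (z : ℂ) : ℂ := star z * z + (wA z).2 * (wA z).2

/-- The dual functional. -/
noncomputable def wL (z : ℂ) : ℂ × ℂ →L[ℂ] ℂ :=
  (wN z)⁻¹ • (star z • ContinuousLinearMap.fst ℂ ℂ ℂ + (wA z).2 • ContinuousLinearMap.snd ℂ ℂ ℂ)

/-- The projection onto the line. -/
noncomputable def wP (z : ℂ) : ℂ × ℂ →L[ℂ] ℂ × ℂ :=
  ContinuousLinearMap.smulRightL ℂ (ℂ × ℂ) (ℂ × ℂ) (wL z) (wA z)

lemma wP_apply (z : ℂ) (w : ℂ × ℂ) : wP z w = wL z w • wA z := rfl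

lemma wL_apply (z : ℂ) (w : ℂ × ℂ) : wL z w = (wN z)⁻¹ * (star z * w.1 + (wA z).2 * w.2) := rfl

lemma wN_ne (z : ℂ) : wN z ≠ 0 := by
  have e : wN z = ((‖z‖ ^ 2 + max 0 (1 - ‖z‖) * max 0 (1 - ‖z‖) : ℝ) : ℂ) := by
    simp only [wN, wA, RCLike.star_def, Complex.conj_mul']
    push_cast
    rfl
  rw [e, Complex.ofReal_ne_zero]
  by_cases h : z = 0
  · simp [h]
  · have := norm_pos_iff.2 h
    exact (add_pos_of_pos_of_nonneg (by positivity) (mul_self_nonneg _)).ne'

lemma wL_wA (z : ℂ) : wL z (wA z) = 1 := inv_mul_cancel₀ (wN_ne z)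

lemma wA_cont : Continuous wA := by
  unfold wA
  fun_prop

lemma wL_cont : Continuous wL := by
  have h1 := wA_cont
  have h2 : Continuous wN := by
    unfold wN
    fun_prop
  exact (h2.inv₀ wN_ne).smul ((continuous_star.smul continuous_const).add
    (h1.snd.smul continuous_const))

lemma wP_cont : Continuous wP :=
  ((ContinuousLinearMap.smulRightL ℂ (ℂ × ℂ) (ℂ × ℂ)).continuous.comp wL_cont).clm_apply wA_cont

lemma wP_out {z : ℂ} (hz : 1 ≤ ‖z‖) (w : ℂ × ℂ) : wP z w = (w.1, 0) := by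
  have e : (wA z).2 = 0 := by simp [wA, max_eq_left (sub_nonpos.2 hz)]
  have h := wN_ne z
  rw [wP_apply, wL_apply]
  ext
  · simp only [wN, e, mul_zero, add_zero, zero_mul] at h ⊢
    change _ * z = w.1
    rw [mul_assoc, mul_right_comm, inv_mul_cancel_left₀ h]
  · simp [e]

variable {X : Type*} [TopologicalSpace X] {V E F : Type*} {pt : V → X} {ed : E → ℝ → X}
  {fc : F → ℂ → X} {src tgt : E → V}

/-- A function with a single simple zero at the centre of `φ`. -/
theorem Cell2.exists_wind (h : Cell2 pt ed fc src tgt) [ContractibleSpace X] (φ : F) :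
    ∃ u : X → ℂ, Continuous u ∧ (∀ x, x ≠ fc φ 0 → u x ≠ 0) ∧
      ∃ κ : ℂ → ℂ, Continuous κ ∧ (∀ z, κ z ≠ 0) ∧ ∀ z, u (fc φ z) = κ z * z := by
  classical
  let c : X → ℂ := fun x => if hx : ∃ z, ‖z‖ < 1 ∧ x = fc φ z then hx.choose else 1
  have hsk : ∀ x ∈ sk1 pt ed, c x = 1 := fun x hx =>
    dif_neg fun ⟨z, h1, h2⟩ => h.fc_sk φ z h1 (h2 ▸ hx)
  have hφ : ∀ z, wP (c (fc φ z)) = wP z := fun z => by
    by_cases a : ‖z‖ < 1
    · have b : ∃ z', ‖z'‖ < 1 ∧ fc φ z = fc φ z' := ⟨z, a, rfl⟩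
      simp only [c, dif_pos b]
      rw [← (h.fc_inj _ _ _ _ a b.choose_spec.1 b.choose_spec.2).2]
    · rw [hsk _ (h.fc_out φ z (not_lt.1 a))]
      exact ContinuousLinearMap.ext fun w => by rw [wP_out (by simp), wP_out (not_lt.1 a)]
  have hψ : ∀ ψ z, ψ ≠ φ → c (fc ψ z) = 1 := fun ψ z hne => by
    by_cases a : ‖z‖ < 1
    · exact dif_neg fun ⟨z', h1, h2⟩ => hne (h.fc_inj _ _ _ _ a h1 h2).1
    · exact hsk _ (h.fc_out ψ z (not_lt.1 a))
  have hc0 : ∀ x, x ≠ fc φ 0 → c x ≠ 0 := fun x hx => by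
    simp only [c]
    split_ifs with b
    · exact fun e => hx (by rw [← e]; exact b.choose_spec.2)
    · exact one_ne_zero
  have hcont : Continuous fun x => wP (c x) := by
    refine continuousOn_univ.1 (h.continuousOn_of isOpen_univ (fun e => ?_) fun ψ => ?_)
    · simp only [hsk _ (Cell2.ed_mem_sk1 e _)]
      exact continuousOn_const
    · by_cases e : ψ = φ
      · simp only [e, hφ]
        exact wP_cont.continuousOn
      · simp only [hψ ψ _ e]
        exact continuousOn_const
  obtain ⟨v, hv, hv'⟩ := exists_section (fun x => wP (c x)) hcont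
    (fun x w => by rw [wP_apply _ w, map_smul, wP_apply, wL_wA, one_smul]) fun x e => by
      have h1 := wP_apply (c x) (wA (c x))
      have h2 := wL_wA (c x)
      rw [e, h2, one_smul, ContinuousLinearMap.zero_apply] at h1
      rw [← h1, map_zero] at h2
      exact zero_ne_one h2
  have key : ∀ z w, wP z w = w → w ≠ 0 → wL z w ≠ 0 ∧ w.1 = wL z w * z := fun z w h1 h2 => by
    rw [wP_apply] at h1
    refine ⟨fun e => h2 (by rw [← h1, e, zero_smul]), ?_⟩
    exact (congrArg Prod.fst h1).symm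
  refine ⟨fun x => (v x).1, hv.fst, fun x hx => ?_, fun z => wL z (v (fc φ z)),
    wL_cont.clm_apply (hv.comp (h.fc_cont φ)), fun z => ?_, fun z => ?_⟩
  · obtain ⟨h1, h2⟩ := key _ _ (hv' x).1 (hv' x).2
    exact h2.trans_ne (mul_ne_zero h1 (hc0 x hx))
  · exact (key z _ (hφ z ▸ (hv' _).1) (hv' _).2).1
  · exact (key z _ (hφ z ▸ (hv' _).1) (hv' _).2).2

end Vale.Agent.P173
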