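import Vale.Agent.P173.ReduceA

/-! From a complex with a free action and scaled pieces to the finite data. -/

namespace Vale.Agent.P173

universe u

namespace Red

open Subgroup

variable {H : Type} [Group H] {V E F : Type u} [MulAction H V] [MulAction H E] [MulAction H F]
  {src tgt : E → V} {bd : F → FreeGroup E} {L : Type} {gen : L → H} {ν : H → ℕ} {y0 : V}
  {f : L → FreeGroup E} {ZF : Finset F} {ZE : Finset E} {ZV : Set V} {s0 : V → FreeGroup E}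
  {c0 M : ℕ} {S : Type} {ι : S → H} {arr : S → L → S → Prop}

lemma len_act {w : FreeGroup E} (h : Len (FreeGroup.of '' (ZE : Set E)) M w) (g : H) {Z : Set E}
    (hZ : ∀ e ∈ ZE, g • e ∈ Z) : Len (FreeGroup.of '' Z) M (act g w) :=
  h.map (act g) (by
    rintro _ ⟨e, he, rfl⟩
    exact ⟨_, hZ e he, (act_of g e).symm⟩)

lemma walk_prod (lab : ∀ x σ y, arr x σ y → ι y = ι x * gen σ) {x y : S} {ω : List L}
    (h : Walk arr x ω y) : ι y = ι x * (ω.map gen).prod := by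
  induction h with
  | nil x => simp
  | cons h1 _ ih => rw [ih, lab _ _ _ h1, List.map_cons, List.prod_cons, mul_assoc]

lemma walk_wsum (lab : ∀ x σ y, arr x σ y → ι y = ι x * gen σ) {z : H → L → ℝ} {ψ : S → ℝ}
    (hψ : ∀ x σ y, arr x σ y → z (ι x) σ = ψ y - ψ x) {x y : S} {ω : List L}
    (h : Walk arr x ω y) : wsum gen z (ι x) ω = ψ y - ψ x := by
  induction h with
  | nil x => simp [wsum]
  | cons h1 _ ih => rw [wsum, ← lab _ _ _ h1, ih, hψ _ _ _ h1]; ring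

lemma len_fw (B : Base src tgt bd gen ν y0 f ZF ZE ZV s0 c0 M)
    (hm : ∀ g h, ν (g * h) ≤ ν g + ν h) (lab : ∀ x σ y, arr x σ y → ι y = ι x * gen σ)
    {Z : Set E} {x₀ : S} {R : ℕ} (hZ : ∀ x, ν ((ι x₀)⁻¹ * ι x) ≤ R → ∀ e ∈ ZE, ι x • e ∈ Z)
    {x y : S} {ω : List L} (h : Walk arr x ω y) (hR : ν ((ι x₀)⁻¹ * ι x) + ω.length * c0 ≤ R) :
    Len (FreeGroup.of '' Z) (ω.length * M) (fw gen f (ι x) ω) := by
  induction h with
  | nil x => exact Len.one
  | @cons x y _ σ ω h1 _ ih =>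
    rw [List.length_cons, Nat.succ_mul] at hR
    have h2 : ν ((ι x₀)⁻¹ * ι y) ≤ ν ((ι x₀)⁻¹ * ι x) + c0 := by
      rw [lab _ _ _ h1, ← mul_assoc]
      exact (hm _ _).trans (Nat.add_le_add_left (B.gen_le σ) _)
    rw [fw, ← lab _ _ _ h1, List.length_cons, Nat.succ_mul, add_comm]
    exact (len_act (B.f_len σ) _ (hZ x (by omega))).mul (ih (by omega))

lemma exists_r (hx : Cx H V E F src tgt bd) (inj : Function.Injective ι) [Nonempty S]
    (h0 : y0 ∈ ZV) : ∃ r : V → S, (∀ x, r (ι x • y0) = x) ∧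
      ∀ x, ∀ z ∈ ZV, (ι (r (ι x • z)))⁻¹ • ι x • z ∈ ZV := by
  have key : ∀ y : V, ∃ x : S, (∀ x', y = ι x' • y0 → x = x') ∧
      ((∃ x', (ι x')⁻¹ • y ∈ ZV) → (ι x)⁻¹ • y ∈ ZV) := by
    intro y
    by_cases h : ∃ x, y = ι x • y0
    · obtain ⟨x, rfl⟩ := h
      refine ⟨x, fun x' h => inj ?_, fun _ => by simpa using h0⟩
      have h1 : ((ι x')⁻¹ * ι x) • y0 = y0 := by rw [mul_smul, h, inv_smul_smul]
      exact (inv_mul_eq_one.1 (hx.free _ _ h1)).symm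
    · by_cases h' : ∃ x', (ι x')⁻¹ • y ∈ ZV
      · obtain ⟨x, hx'⟩ := h'
        exact ⟨x, fun x' e => absurd ⟨x', e⟩ h, fun _ => hx'⟩
      · exact ⟨Classical.arbitrary S, fun x' e => absurd ⟨x', e⟩ h, fun e => absurd e h'⟩
  choose r h1 h2 using key
  exact ⟨r, fun x => h1 _ x rfl, fun x z hz => h2 _ ⟨x, by simpa using hz⟩⟩

lemma exists_p (src tgt : E → V) (E0 : Finset E) : ∃ p : V → FreeGroup E,
    (∀ y, p y ∈ closure (FreeGroup.of '' (E0 : Set E))) ∧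
    ∀ e ∈ E0, ∃ y, Cov src tgt (p (src e) * FreeGroup.of e * (p (tgt e))⁻¹) y y := by
  let R : Setoid V := ⟨fun y y' => ∃ w ∈ closure (FreeGroup.of '' (E0 : Set E)), Cov src tgt w y y',
    fun y => ⟨1, one_mem _, Cov.one y⟩, fun ⟨_, h1, h2⟩ => ⟨_, inv_mem h1, h2.inv⟩,
    fun ⟨_, h1, h2⟩ ⟨_, h3, h4⟩ => ⟨_, mul_mem h1 h3, h2.mul h4⟩⟩
  have key : ∀ y, ∃ w ∈ closure (FreeGroup.of '' (E0 : Set E)),
      Cov src tgt w (Quotient.mk R y).out y := fun y => Quotient.mk_out (s := R) y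
  choose p h1 h2 using key
  refine ⟨p, h1, fun e he => ⟨_, ((h2 (src e)).mul (Cov.of e)).mul ?_⟩⟩
  have h3 : Quotient.mk R (src e) = Quotient.mk R (tgt e) :=
    Quotient.sound ⟨_, subset_closure ⟨e, he, rfl⟩, Cov.of e⟩
  rw [h3]
  exact (h2 (tgt e)).inv

end Red

open Red Subgroup in
theorem reduce {A : Type} [CStarAlgebra A] (hc : CoreP.{u} A) {H : Type} [Group H]
    (hs : Scal H A) {V E F : Type u} [MulAction H V] [MulAction H E] [MulAction H F]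
    {src tgt : E → V} {bd : F → FreeGroup E} (hx : Cx H V E F src tgt bd) : False := by
  classical
  obtain ⟨L, _, gen, ν, n1, nm, ni, hs⟩ := hs
  obtain ⟨y0, f, ZF, ZE, ZV, s0, c0, M, B⟩ := exists_base hx gen ν
  obtain ⟨ε, hε, hc⟩ := hc (M + 1 + M + 2 * c0 * M)
  obtain ⟨S, _, ι, arr, ρ, P⟩ := hs (2 * c0 + 2 * c0 * c0 + c0) ε hε
  rcases isEmpty_or_nonempty S with hS | hS
  · exact P.nontriv ⟨fun _ => 1, fun x => isEmptyElim x⟩
  obtain ⟨r, hr0, hr⟩ := exists_r hx P.inj B.y0_mem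
  have tri : ∀ x y z, ν ((ι x)⁻¹ * ι z) ≤ ν ((ι x)⁻¹ * ι y) + ν ((ι y)⁻¹ * ι z) := fun x y z => by
    have := nm ((ι x)⁻¹ * ι y) ((ι y)⁻¹ * ι z)
    rwa [mul_assoc, mul_inv_cancel_left] at this
  have sym : ∀ x y, ν ((ι x)⁻¹ * ι y) = ν ((ι y)⁻¹ * ι x) := fun x y => by
    rw [← ni, mul_inv_rev, inv_inv]
  have self : ∀ x, ν ((ι x)⁻¹ * ι x) = 0 := fun x => by rw [inv_mul_cancel, n1]
  have near : ∀ x, ∀ z ∈ ZV, ν ((ι (r (ι x • z)))⁻¹ * ι x) ≤ c0 := fun x z hz =>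
    B.near _ z hz (by rw [mul_smul]; exact hr x z hz)
  set E0 : Finset E := Finset.univ.biUnion fun x => ZE.image fun e => ι x • e with hE0
  set F0 : Finset F := Finset.univ.biUnion fun x => ZF.image fun φ => ι x • φ with hF0
  have mE : ∀ e, e ∈ E0 ↔ ∃ x, ∃ e0 ∈ ZE, ι x • e0 = e := fun e => by simp [hE0]
  have mF : ∀ φ, φ ∈ F0 ↔ ∃ x, ∃ φ0 ∈ ZF, ι x • φ0 = φ := fun e => by simp [hF0]
  have inE : ∀ x, ∀ e ∈ ZE, ι x • e ∈ (E0 : Set E) := fun x e he => (mE _).2 ⟨x, e, he, rfl⟩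
  have ends : ∀ x, ∀ e ∈ ZE, ν ((ι (r (src (ι x • e))))⁻¹ * ι x) ≤ c0 ∧
      ν ((ι (r (tgt (ι x • e))))⁻¹ * ι x) ≤ c0 := fun x e he => by
    rw [hx.src_smul, hx.tgt_smul]
    exact ⟨near x _ (B.src_mem e he), near x _ (B.tgt_mem e he)⟩
  have dist2 : ∀ e ∈ E0, ν ((ι (r (tgt e)))⁻¹ * ι (r (src e))) ≤ 2 * c0 := fun e he => by
    obtain ⟨x, e0, h0, rfl⟩ := (mE e).1 he
    have h1 := ends x e0 h0
    have h2 := tri (r (tgt (ι x • e0))) x (r (src (ι x • e0)))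
    rw [sym x] at h2
    omega
  have hω : ∀ e ∈ E0, ∃ ω : List L, ω.length ≤ 2 * c0 ∧ Walk arr (r (tgt e)) ω (r (src e)) :=
    fun e he => (P.walk _ _ (by have := dist2 e he; omega)).imp fun _ h =>
      ⟨h.1.trans (dist2 e he), h.2⟩
  choose! ω hω1 hω2 using hω
  set s : V → FreeGroup E := fun y => act (ι (r y)) (s0 ((ι (r y))⁻¹ • y)) with hs
  set ℓ : E → FreeGroup E := fun e =>
    s (src e) * FreeGroup.of e * (s (tgt e))⁻¹ * fw gen f (ι (r (tgt e))) (ω e) with hℓ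
  set a : E → unitary A := fun e => ρ (r (src e)) (r (tgt e)) with ha
  have inV : ∀ e ∈ E0, (ι (r (src e)))⁻¹ • src e ∈ ZV ∧ (ι (r (tgt e)))⁻¹ • tgt e ∈ ZV :=
    fun e he => by
      obtain ⟨x, e0, h0, rfl⟩ := (mE e).1 he
      rw [hx.src_smul, hx.tgt_smul]
      exact ⟨hr x _ (B.src_mem e0 h0), hr x _ (B.tgt_mem e0 h0)⟩
  have lenl : ∀ e ∈ E0, ∀ Z : Set E, (∀ x, ν ((ι (r (src e)))⁻¹ * ι x) ≤ 2 * c0 + 2 * c0 * c0 →
      ∀ e' ∈ ZE, ι x • e' ∈ Z) → Len (FreeGroup.of '' Z) (M + 1 + M + 2 * c0 * M) (ℓ e) := by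
    intro e he Z hZ
    have h1 := dist2 e he
    rw [sym] at h1
    have h2 := hω1 e he
    have h3 : e ∈ Z := by
      obtain ⟨x, e0, h0, rfl⟩ := (mE e).1 he
      exact hZ x (by have := (ends x e0 h0).1; omega) e0 h0
    refine (((len_act (B.s0_len _ (inV e he).1) _ (hZ _ (by rw [self]; omega))).mul
      (Len.of_mem ⟨e, h3, rfl⟩)).mul
      (len_act (B.s0_len _ (inV e he).2) _ (hZ _ (by omega))).inv).mul ?_
    refine (len_fw B nm P.lab hZ (hω2 e he) ?_).mono le_rfl (Nat.mul_le_mul_right _ h2)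
    exact Nat.add_le_add h1 (Nat.mul_le_mul_right _ h2)
  have model : ∀ e ∈ E0, (∃ y, Cov src tgt (ℓ e) y y) ∧
      Len (Group.conjugatesOfSet (Set.range bd)) M (ℓ e) := by
    intro e he
    have h1 := inV e he
    have h2 := walk_prod P.lab (hω2 e he)
    have h3 := hω1 e he
    obtain ⟨x, e0, h0, h4⟩ := (mE e).1 he
    have a1 : ((ι (r (src e)))⁻¹ * ι x) • src e0 = (ι (r (src e)))⁻¹ • src e := by
      rw [mul_smul, ← hx.src_smul, h4]
    have a2 : ((ι (r (tgt e)))⁻¹ * ι x) • tgt e0 = (ι (r (tgt e)))⁻¹ • tgt e := by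
      rw [mul_smul, ← hx.tgt_smul, h4]
    have a3 : (ι (r (src e)))⁻¹ * ι x * ((ι (r (tgt e)))⁻¹ * ι x)⁻¹ * ((ω e).map gen).prod = 1 := by
      rw [h2]; group
    have a4 : ι (r (src e)) * ((ι (r (src e)))⁻¹ * ι x * ((ι (r (tgt e)))⁻¹ * ι x)⁻¹) =
        ι (r (tgt e)) := by group
    have e1 : ℓ e = act (ι (r (src e))) (wd src tgt gen f s0 ((ι (r (src e)))⁻¹ * ι x)
        ((ι (r (tgt e)))⁻¹ * ι x) e0 (ω e)) := by
      simp only [wd, map_mul, map_inv, act_act, act_fw, act_of, a1, a2, a4, hℓ, hs]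
      rw [← mul_smul, mul_inv_cancel_left, h4]
    rw [e1]
    exact ⟨⟨_, cov_act hx (cov_wd hx B.cov_f (B.s0_cov _ (a1 ▸ h1.1)) (B.s0_cov _ (a2 ▸ h1.2)) a3)
      _⟩, len_conj_act hx (B.area _ _ e0 h0 _ (a1 ▸ h1.1) (a2 ▸ h1.2) h3 a3) _⟩
  obtain ⟨p, hp1, hp2⟩ := exists_p src tgt E0
  obtain ⟨F', hF'⟩ := unif_fin E0.finite_toSet
    (P := fun (Z : Finset F) e => Len (Group.conjugatesOfSet (bd '' (Z : Set F))) M (ℓ e))
    (fun _ _ _ h h' => h'.mono
      (Group.conjugatesOfSet_mono (Set.image_mono (by exact_mod_cast h))) le_rfl)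
    fun e he => len_conj_fin (model e he).2
  obtain ⟨F'', hF''⟩ := unif_fin E0.finite_toSet
    (P := fun (Z : Finset F) e => p (src e) * FreeGroup.of e * (p (tgt e))⁻¹ ∈
      normalClosure (bd '' (Z : Set F)))
    (fun _ _ _ h h' => normalClosure_mono (Set.image_mono (by exact_mod_cast h)) h')
    fun e he => (hp2 e he).elim fun _ h => exists_finset_normalClosure bd (mem_nc hx h)
  have lenbd : ∀ x, ∀ φ ∈ ZF, ∀ Z : Set E, (∀ e ∈ ZE, ι x • e ∈ Z) →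
      Len (FreeGroup.of '' Z) M (bd (ι x • φ)) := fun x φ hφ Z hZ => by
    rw [hx.bd_smul]
    exact len_act (B.bd_len φ hφ) _ hZ
  have fin2 : Fin2 src tgt bd E0 F0 (F0 ∪ (F' ∪ F'')) ℓ p (M + 1 + M + 2 * c0 * M) :=
    { sub := Finset.subset_union_left
      h2 := fun φ _ => (hx.h2 φ).imp fun _ h => ⟨h.1, fun ψ _ => h.2 ψ⟩
      cov := fun φ _ => hx.cov φ
      len_bd := fun φ hφ => by
        obtain ⟨x, φ0, h0, rfl⟩ := (mF φ).1 hφ
        exact (lenbd x φ0 h0 _ (inE x)).mono le_rfl (by omega)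
      len_l := fun e he => lenl e he _ fun x _ => inE x
      area_l := fun e he => (hF' e he).mono (Group.conjugatesOfSet_mono (Set.image_mono
        (by intro φ h; simp [show φ ∈ F' from h]))) (by omega)
      cov_l := fun e he => (model e he).1
      coc := fun z hz => by
        obtain ⟨ψ, hψ⟩ := P.h1 (fun h σ => pair z (act h (f σ))) fun x ω h1 h2 => by
          have h3 : (ω.map gen).prod = 1 := by
            have := walk_prod P.lab h2
            exact (left_eq_mul.1 this)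
          rw [← pair_fw, ← mul_one (ι x), ← act_fw, act, pair_map]
          refine pair_eq_zero_of_mem (B.fill ω h1 h3) ?_
          rintro _ ⟨φ, hφ, rfl⟩
          rw [← pair_map, ← hx.bd_smul]
          exact hz _ ((mF _).2 ⟨x, φ, hφ, rfl⟩)
        refine ⟨fun y => pair z (s y) + ψ (r y), fun e he => ?_⟩
        simp only [hℓ, pair_mul, pair_inv, pair_of, pair_fw]
        rw [walk_wsum P.lab hψ (hω2 e he)]
        ring
      p_mem := hp1
      lam_mem := fun e he => normalClosure_mono (Set.image_mono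
        (by intro φ h; simp [show φ ∈ F'' from h])) (hF'' e he)
      cov_lam := hp2 }
  have gau : ∀ x₀ x, ν ((ι x₀)⁻¹ * ι x) ≤ 2 * c0 + 2 * c0 * c0 → ∀ e ∈ ZE,
      ι x • e ∈ {e | a e = (ρ x₀ (r (src e)))⁻¹ * ρ x₀ (r (tgt e))} := by
    intro x₀ x h e he
    have h1 := ends x e he
    have h2 := tri x₀ x (r (src (ι x • e)))
    have h3 := tri x₀ x (r (tgt (ι x • e)))
    rw [sym x] at h2 h3
    rw [Set.mem_setOf_eq, eq_inv_mul_iff_mul_eq]
    exact P.cocycle _ _ _ (by omega) (by omega)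
  have hol : ∀ x₀ {N w y y'},
      Len (FreeGroup.of '' {e | a e = (ρ x₀ (r (src e)))⁻¹ * ρ x₀ (r (tgt e))}) N w →
      Cov src tgt w y y' → FreeGroup.lift a w = (ρ x₀ (r y))⁻¹ * ρ x₀ (r y') :=
    fun x₀ _ _ _ _ h1 h2 => (lift_congr h1.mem fun _ h => h).trans (h2.gauge fun y => ρ x₀ (r y))
  obtain ⟨g, hg⟩ := hc V E F src tgt bd E0 F0 _ ℓ p fin2 a
    (fun e he => P.small _ _ (by have := dist2 e he; rw [sym] at this; omega))
    (fun φ hφ => by
      obtain ⟨x, φ0, h0, rfl⟩ := (mF φ).1 hφ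
      obtain ⟨y, hy⟩ := hx.cov (ι x • φ0)
      rw [hol x (lenbd x φ0 h0 _ (gau x x (by rw [self]; omega))) hy, inv_mul_cancel])
    (fun e he => by
      obtain ⟨y, hy⟩ := (model e he).1
      rw [hol _ (lenl e he _ (gau _)) hy, inv_mul_cancel])
  refine P.nontriv ⟨fun x => g (ι x • y0), fun x σ y h => ?_⟩
  have h1 := cov_act hx (B.cov_f σ) (ι x)
  rw [← mul_smul, ← P.lab _ _ _ h] at h1
  have h2 := hol x (len_act (B.f_len σ) _ (gau x x (by rw [self]; omega))) h1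
  have h3 := (lift_congr (len_act (B.f_len σ) _ (inE x)).mem hg).trans (h1.gauge g)
  have h4 : ρ x x = 1 := by
    have := P.cocycle x x x (by rw [self]; omega) (by rw [self]; omega)
    exact mul_eq_left.1 this
  rw [hr0, hr0, h4, inv_one, one_mul] at h2
  rw [← h2, h3]

end Vale.Agent.P173
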