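import Vale.Agent.P173.BasicC

/-! The finite data of the complex that do not depend on the scale. -/

namespace Vale.Agent.P173.Red

universe u

open Subgroup

variable {H : Type} [Group H] {V E F : Type u} [MulAction H V] [MulAction H E] [MulAction H F]
  {src tgt : E → V} {bd : F → FreeGroup E} {L : Type}

/-- Translation of words. -/
def act (h : H) : FreeGroup E →* FreeGroup E := FreeGroup.map fun e => h • e

@[simp] lemma act_of (h : H) (e : E) : act h (FreeGroup.of e) = FreeGroup.of (h • e) := by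
  simp [act]

lemma act_act (g h : H) (w : FreeGroup E) : act g (act h w) = act (g * h) w := by
  rw [← MonoidHom.comp_apply]
  congr 1
  ext e
  simp [mul_smul]

@[simp] lemma act_one (w : FreeGroup E) : act (1 : H) w = w := by
  rw [show act (1 : H) = MonoidHom.id (FreeGroup E) by ext e; simp]
  rfl

/-- The word along a list of labels. -/
def fw (gen : L → H) (f : L → FreeGroup E) : H → List L → FreeGroup E
  | _, [] => 1
  | h, σ :: ω => act h (f σ) * fw gen f (h * gen σ) ω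

lemma act_fw (gen : L → H) (f : L → FreeGroup E) (g : H) (ω : List L) :
    ∀ h : H, act g (fw gen f h ω) = fw gen f (g * h) ω := by
  induction ω with
  | nil => intro h; simp [fw]
  | cons σ ω ih => intro h; simp only [fw, map_mul, act_act, ih, mul_assoc]

lemma pair_fw (gen : L → H) (f : L → FreeGroup E) (z : E → ℝ) (ω : List L) :
    ∀ h : H, pair z (fw gen f h ω) = wsum gen (fun h σ => pair z (act h (f σ))) h ω := by
  induction ω with
  | nil => intro h; simp [fw, wsum]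
  | cons σ ω ih => intro h; simp only [fw, wsum, pair_mul, ih]

lemma cov_act (hx : Cx H V E F src tgt bd) {w : FreeGroup E} {y y' : V} (hw : Cov src tgt w y y')
    (h : H) : Cov src tgt (act h w) (h • y) (h • y') :=
  hw.map (fun y => h • y) (fun e => h • e) (hx.src_smul h) (hx.tgt_smul h)

lemma cov_fw (hx : Cx H V E F src tgt bd) {gen : L → H} {f : L → FreeGroup E} {y0 : V}
    (hf : ∀ σ, Cov src tgt (f σ) y0 (gen σ • y0)) (ω : List L) :
    ∀ h : H, Cov src tgt (fw gen f h ω) (h • y0) ((h * (ω.map gen).prod) • y0) := by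
  induction ω with
  | nil => intro h; simpa [fw] using Cov.one _
  | cons σ ω ih =>
    intro h
    have h1 := cov_act hx (hf σ) h
    rw [← mul_smul] at h1
    have h2 := h1.mul (ih (h * gen σ))
    simpa only [fw, List.map_cons, List.prod_cons, mul_assoc] using h2

lemma mem_nc (hx : Cx H V E F src tgt bd) {w : FreeGroup E} {y : V} (hw : Cov src tgt w y y) :
    w ∈ normalClosure (Set.range bd) := by
  have e : FreeGroup.lift (fun e => (QuotientGroup.mk (FreeGroup.of e) :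
      FreeGroup E ⧸ normalClosure (Set.range bd))) = QuotientGroup.mk' _ := by
    ext e; simp
  obtain ⟨g, hg⟩ := hx.sc (FreeGroup E ⧸ normalClosure (Set.range bd))
    (fun e => QuotientGroup.mk (FreeGroup.of e)) fun φ => by
      rw [e, QuotientGroup.mk'_apply, QuotientGroup.eq_one_iff]
      exact subset_normalClosure ⟨φ, rfl⟩
  have h1 := hw.gauge g
  rw [← funext hg, e, inv_mul_cancel, QuotientGroup.mk'_apply, QuotientGroup.eq_one_iff] at h1
  exact h1

lemma exists_cov (hx : Cx H V E F src tgt bd) (y y' : V) : ∃ w, Cov src tgt w y y' :=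
  hx.conn (fun y' => ∃ w, Cov src tgt w y y') (fun e =>
    ⟨fun ⟨_, h⟩ => ⟨_, h.mul (Cov.of e)⟩, fun ⟨_, h⟩ => ⟨_, h.mul (Cov.of e).inv⟩⟩) y y'
    ⟨1, Cov.one y⟩

/-- `y` is reached from `y0` inside `Z`. -/
def Rch (src tgt : E → V) (y0 : V) (Z : Finset E) (y : V) : Prop :=
  ∃ w ∈ closure (FreeGroup.of '' (Z : Set E)), Cov src tgt w y0 y

lemma Rch.mono {y0 y : V} {Z Z' : Finset E} (h : Rch src tgt y0 Z y) (hZ : Z ⊆ Z') :
    Rch src tgt y0 Z' y :=
  h.imp fun _ h => ⟨closure_mono (Set.image_mono (by exact_mod_cast hZ)) h.1, h.2⟩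

/-- All endpoints are reached. -/
def Good (src tgt : E → V) (y0 : V) (Z : Finset E) : Prop :=
  ∀ e ∈ Z, Rch src tgt y0 Z (src e) ∧ Rch src tgt y0 Z (tgt e)

lemma Good.insert [DecidableEq E] {y0 : V} {Z : Finset E} (h : Good src tgt y0 Z) {e : E}
    (he : Rch src tgt y0 Z (src e) ∨ Rch src tgt y0 Z (tgt e)) :
    Good src tgt y0 (insert e Z) := by
  have hm : FreeGroup.of e ∈ closure (FreeGroup.of '' ((Insert.insert e Z : Finset E) : Set E)) :=
    subset_closure ⟨e, by simp, rfl⟩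
  intro e' he'
  rcases Finset.mem_insert.1 he' with rfl | he'
  · rcases he with he | he
    · obtain ⟨w, h1, h2⟩ := he.mono (Finset.subset_insert e' Z)
      exact ⟨⟨w, h1, h2⟩, _, mul_mem h1 hm, h2.mul (Cov.of e')⟩
    · obtain ⟨w, h1, h2⟩ := he.mono (Finset.subset_insert e' Z)
      exact ⟨⟨_, mul_mem h1 (inv_mem hm), h2.mul (Cov.of e').inv⟩, w, h1, h2⟩
  · exact ⟨(h e' he').1.mono (Finset.subset_insert _ _), (h e' he').2.mono (Finset.subset_insert _ _)⟩

lemma exists_good (hx : Cx H V E F src tgt bd) (y0 : V) (Z' : Finset E) :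
    ∃ Z : Finset E, Z' ⊆ Z ∧ Good src tgt y0 Z := by
  classical
  have key : ∀ y, ∃ Z : Finset E, Good src tgt y0 Z ∧ Rch src tgt y0 Z y := fun y =>
    hx.conn (fun y => ∃ Z : Finset E, Good src tgt y0 Z ∧ Rch src tgt y0 Z y) (fun e =>
      ⟨fun ⟨Z, h1, h2⟩ => ⟨insert e Z, h1.insert (Or.inl h2),
        (h1.insert (Or.inl h2) e (Finset.mem_insert_self _ _)).2⟩,
      fun ⟨Z, h1, h2⟩ => ⟨insert e Z, h1.insert (Or.inr h2),
        (h1.insert (Or.inr h2) e (Finset.mem_insert_self _ _)).1⟩⟩) y0 y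
      ⟨∅, fun _ h => absurd h (Finset.notMem_empty _), 1, one_mem _, Cov.one y0⟩
  induction Z' using Finset.induction_on with
  | empty => exact ⟨∅, le_rfl, fun _ h => absurd h (Finset.notMem_empty _)⟩
  | insert e Z' _ ih =>
    obtain ⟨Z, h1, h2⟩ := ih
    obtain ⟨Z₁, h3, h4⟩ := key (src e)
    have h5 : Good src tgt y0 (Z ∪ Z₁) := fun e' he' => by
      rcases Finset.mem_union.1 he' with h | h
      · exact ⟨(h2 e' h).1.mono Finset.subset_union_left, (h2 e' h).2.mono Finset.subset_union_left⟩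
      · exact ⟨(h3 e' h).1.mono Finset.subset_union_right,
          (h3 e' h).2.mono Finset.subset_union_right⟩
    exact ⟨insert e (Z ∪ Z₁), Finset.insert_subset_insert _ (h1.trans Finset.subset_union_left),
      h5.insert (Or.inl (h4.mono Finset.subset_union_right))⟩

lemma unif_nat {α : Type*} {T : Set α} (hT : T.Finite) {P : ℕ → α → Prop}
    (hm : ∀ M M' t, M ≤ M' → P M t → P M' t) (h : ∀ t ∈ T, ∃ M, P M t) :
    ∃ M, ∀ t ∈ T, P M t := by
  choose! m hm' using h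
  obtain ⟨M, hM⟩ := (hT.image m).bddAbove
  exact ⟨M, fun t ht => hm _ _ t (hM ⟨t, ht, rfl⟩) (hm' t ht)⟩

lemma unif_fin {α β : Type*} {T : Set α} (hT : T.Finite) {P : Finset β → α → Prop}
    (hm : ∀ M M' t, M ⊆ M' → P M t → P M' t) (h : ∀ t ∈ T, ∃ M, P M t) :
    ∃ M, ∀ t ∈ T, P M t := by
  classical
  choose! m hm' using h
  exact ⟨hT.toFinset.biUnion m, fun t ht => hm _ _ t
    (Finset.subset_biUnion_of_mem m (hT.mem_toFinset.2 ht)) (hm' t ht)⟩

/-- The model of the loops. -/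
def wd (src tgt : E → V) (gen : L → H) (f : L → FreeGroup E) (s0 : V → FreeGroup E) (d₁ d₂ : H)
    (e : E) (ω : List L) : FreeGroup E :=
  s0 (d₁ • src e) * FreeGroup.of (d₁ • e) * (act (d₁ * d₂⁻¹) (s0 (d₂ • tgt e)))⁻¹ *
    fw gen f (d₁ * d₂⁻¹) ω

/-- The data independent of the scale. -/
structure Base (src tgt : E → V) (bd : F → FreeGroup E) (gen : L → H) (ν : H → ℕ) (y0 : V)
    (f : L → FreeGroup E) (ZF : Finset F) (ZE : Finset E) (ZV : Set V) (s0 : V → FreeGroup E)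
    (c0 M : ℕ) : Prop where
  cov_f : ∀ σ, Cov src tgt (f σ) y0 (gen σ • y0)
  f_len : ∀ σ, Len (FreeGroup.of '' (ZE : Set E)) M (f σ)
  bd_len : ∀ φ ∈ ZF, Len (FreeGroup.of '' (ZE : Set E)) M (bd φ)
  fill : ∀ ω : List L, ω.length ≤ 4 → (ω.map gen).prod = 1 →
    fw gen f 1 ω ∈ normalClosure (bd '' (ZF : Set F))
  y0_mem : y0 ∈ ZV
  src_mem : ∀ e ∈ ZE, src e ∈ ZV
  tgt_mem : ∀ e ∈ ZE, tgt e ∈ ZV
  s0_len : ∀ y ∈ ZV, Len (FreeGroup.of '' (ZE : Set E)) M (s0 y)
  s0_cov : ∀ y ∈ ZV, Cov src tgt (s0 y) y0 y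
  near : ∀ h : H, ∀ z ∈ ZV, h • z ∈ ZV → ν h ≤ c0
  gen_le : ∀ σ, ν (gen σ) ≤ c0
  area : ∀ d₁ d₂ : H, ∀ e ∈ ZE, ∀ ω : List L, d₁ • src e ∈ ZV → d₂ • tgt e ∈ ZV →
    ω.length ≤ 2 * c0 → d₁ * d₂⁻¹ * (ω.map gen).prod = 1 →
    Len (Group.conjugatesOfSet (Set.range bd)) M (wd src tgt gen f s0 d₁ d₂ e ω)

lemma cov_wd (hx : Cx H V E F src tgt bd) {gen : L → H} {f : L → FreeGroup E} {y0 : V}
    (hf : ∀ σ, Cov src tgt (f σ) y0 (gen σ • y0)) {s0 : V → FreeGroup E} {d₁ d₂ : H} {e : E}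
    {ω : List L} (h1 : Cov src tgt (s0 (d₁ • src e)) y0 (d₁ • src e))
    (h2 : Cov src tgt (s0 (d₂ • tgt e)) y0 (d₂ • tgt e))
    (h3 : d₁ * d₂⁻¹ * (ω.map gen).prod = 1) :
    Cov src tgt (wd src tgt gen f s0 d₁ d₂ e ω) y0 y0 := by
  have a1 := Cov.of (src := src) (tgt := tgt) (d₁ • e)
  rw [hx.src_smul, hx.tgt_smul] at a1
  have a2 := cov_act hx h2 (d₁ * d₂⁻¹)
  rw [← mul_smul, inv_mul_cancel_right] at a2
  have a3 := cov_fw hx hf ω (d₁ * d₂⁻¹)
  rw [h3, one_smul] at a3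
  exact ((h1.mul a1).mul a2.inv).mul a3

theorem exists_base [Fintype L] (hx : Cx H V E F src tgt bd) (gen : L → H) (ν : H → ℕ) :
    ∃ (y0 : V) (f : L → FreeGroup E) (ZF : Finset F) (ZE : Finset E) (ZV : Set V)
      (s0 : V → FreeGroup E) (c0 M : ℕ), Base src tgt bd gen ν y0 f ZF ZE ZV s0 c0 M := by
  classical
  obtain ⟨y0⟩ := hx.ne
  choose f hf using fun σ => exists_cov hx y0 (gen σ • y0)
  obtain ⟨ZF, hZF⟩ := unif_fin (List.finite_length_le L 4)
    (P := fun (Z : Finset F) ω => (ω.map gen).prod = 1 →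
      fw gen f 1 ω ∈ normalClosure (bd '' (Z : Set F)))
    (fun _ _ _ h h' h'' => normalClosure_mono (Set.image_mono (by exact_mod_cast h)) (h' h''))
    fun ω _ => by
      by_cases h : (ω.map gen).prod = 1
      · have h1 := cov_fw hx hf ω 1
        rw [h, mul_one] at h1
        exact (exists_finset_normalClosure bd (mem_nc hx h1)).imp fun _ h _ => h
      · exact ⟨∅, fun h' => absurd h' h⟩
  obtain ⟨Z', hZ'⟩ := unif_fin ((Set.finite_range f).union (ZF.finite_toSet.image bd))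
    (P := fun (Z : Finset E) w => w ∈ closure (FreeGroup.of '' (Z : Set E)))
    (fun _ _ _ h h' => closure_mono (Set.image_mono (by exact_mod_cast h)) h')
    fun w _ => exists_finset_mem w
  obtain ⟨ZE, hsub, hgood⟩ := exists_good hx y0 Z'
  set ZV : Set V := insert y0 (src '' ZE ∪ tgt '' ZE) with hZV
  have hfin : ZV.Finite :=
    ((ZE.finite_toSet.image src).union (ZE.finite_toSet.image tgt)).insert y0
  have hr : ∀ y ∈ ZV, Rch src tgt y0 ZE y := by
    rintro y (rfl | ⟨e, he, rfl⟩ | ⟨e, he, rfl⟩)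
    · exact ⟨1, one_mem _, Cov.one _⟩
    · exact (hgood e he).1
    · exact (hgood e he).2
  choose! s0 hs1 hs2 using hr
  have hD : {h : H | ∃ z ∈ ZV, h • z ∈ ZV}.Finite := by
    refine ((hfin.prod hfin).biUnion (t := fun q : V × V => {h : H | h • q.1 = q.2})
      fun q _ => Set.Subsingleton.finite fun g hg h hh => ?_).subset ?_
    · have h1 : (h⁻¹ * g) • q.1 = q.1 := by
        rw [mul_smul, show g • q.1 = q.2 from hg, ← show h • q.1 = q.2 from hh, inv_smul_smul]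
      exact (inv_mul_eq_one.1 (hx.free _ _ h1)).symm
    · rintro h ⟨z, h1, h2⟩
      exact Set.mem_biUnion (x := (z, h • z)) ⟨h1, h2⟩ rfl
  obtain ⟨c0, hc0⟩ := ((hD.union (Set.finite_range gen)).image ν).bddAbove
  obtain ⟨M₁, hM₁⟩ := unif_nat (((Set.finite_range f).union (ZF.finite_toSet.image bd)).union
    (hfin.image s0)) (P := fun M w => Len (FreeGroup.of '' (ZE : Set E)) M w)
    (fun _ _ _ h h' => h'.mono le_rfl h) (by
      rintro w (h | ⟨y, hy, rfl⟩)
      · exact exists_len (closure_mono (Set.image_mono (by exact_mod_cast hsub)) (hZ' w h))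
      · exact exists_len (hs1 y hy))
  obtain ⟨M₂, hM₂⟩ := unif_nat
    ((hD.prod hD).prod (ZE.finite_toSet.prod (List.finite_length_le L (2 * c0))))
    (P := fun M q => q.1.1 • src q.2.1 ∈ ZV → q.1.2 • tgt q.2.1 ∈ ZV →
      q.1.1 * q.1.2⁻¹ * (q.2.2.map gen).prod = 1 →
      Len (Group.conjugatesOfSet (Set.range bd)) M (wd src tgt gen f s0 q.1.1 q.1.2 q.2.1 q.2.2))
    (fun _ _ _ h h' a b c => (h' a b c).mono le_rfl h) (fun q _ => by
      by_cases h : q.1.1 • src q.2.1 ∈ ZV ∧ q.1.2 • tgt q.2.1 ∈ ZV ∧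
        q.1.1 * q.1.2⁻¹ * (q.2.2.map gen).prod = 1
      · exact (exists_len (mem_nc hx (cov_wd hx hf (hs2 _ h.1) (hs2 _ h.2.1) h.2.2))).imp
          fun _ h _ _ _ => h
      · exact ⟨0, fun a b c => absurd ⟨a, b, c⟩ h⟩)
  have hsrc : ∀ e ∈ ZE, src e ∈ ZV := fun e he => Or.inr (Or.inl ⟨e, he, rfl⟩)
  have htgt : ∀ e ∈ ZE, tgt e ∈ ZV := fun e he => Or.inr (Or.inr ⟨e, he, rfl⟩)
  refine ⟨y0, f, ZF, ZE, ZV, s0, c0, max M₁ M₂, hf,
    fun σ => (hM₁ _ (Or.inl (Or.inl ⟨σ, rfl⟩))).mono le_rfl (le_max_left _ _),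
    fun φ hφ => (hM₁ _ (Or.inl (Or.inr ⟨φ, hφ, rfl⟩))).mono le_rfl (le_max_left _ _),
    fun ω h1 h2 => hZF ω h1 h2, Or.inl rfl, hsrc, htgt,
    fun y hy => (hM₁ _ (Or.inr ⟨y, hy, rfl⟩)).mono le_rfl (le_max_left _ _), hs2,
    fun h z h1 h2 => hc0 ⟨h, Or.inl ⟨z, h1, h2⟩, rfl⟩,
    fun σ => hc0 ⟨_, Or.inr ⟨σ, rfl⟩, rfl⟩, fun d₁ d₂ e he ω h1 h2 h3 h4 => ?_⟩
  exact (hM₂ ((d₁, d₂), e, ω) ⟨⟨⟨_, hsrc e he, h1⟩, _, htgt e he, h2⟩, he, h3⟩ h1 h2 h4).mono le_rfl
    (le_max_right _ _)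

lemma len_conj_fin {M : ℕ} {w : FreeGroup E}
    (h : Len (Group.conjugatesOfSet (Set.range bd)) M w) :
    ∃ F1 : Finset F, Len (Group.conjugatesOfSet (bd '' (F1 : Set F))) M w := by
  obtain ⟨l, h1, h2, h3⟩ := h
  have key : ∀ x ∈ Group.conjugatesOfSet (Set.range bd),
      ∃ F1 : Finset F, x ∈ Group.conjugatesOfSet (bd '' (F1 : Set F)) := fun x hx => by
    obtain ⟨_, ⟨φ, rfl⟩, hx⟩ := Group.mem_conjugatesOfSet_iff.1 hx
    exact ⟨{φ}, Group.mem_conjugatesOfSet_iff.2 ⟨_, ⟨φ, by simp, rfl⟩, hx⟩⟩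
  obtain ⟨F1, hF⟩ := unif_fin l.finite_toSet
    (P := fun (Z : Finset F) x => x ∈ Group.conjugatesOfSet (bd '' (Z : Set F)) ∨
      x⁻¹ ∈ Group.conjugatesOfSet (bd '' (Z : Set F)))
    (fun _ _ _ h h' => h'.imp
      (fun h' => Group.conjugatesOfSet_mono (Set.image_mono (by exact_mod_cast h)) h')
      (fun h' => Group.conjugatesOfSet_mono (Set.image_mono (by exact_mod_cast h)) h'))
    fun x hx => (h2 x hx).elim (fun h => (key _ h).imp fun _ => Or.inl)
      fun h => (key _ h).imp fun _ => Or.inr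
  exact ⟨F1, l, h1, hF, h3⟩

lemma len_conj_act (hx : Cx H V E F src tgt bd) {M : ℕ} {w : FreeGroup E}
    (h : Len (Group.conjugatesOfSet (Set.range bd)) M w) (g : H) :
    Len (Group.conjugatesOfSet (Set.range bd)) M (act g w) :=
  h.map (act g) fun x hx' => by
    obtain ⟨_, ⟨φ, rfl⟩, h1⟩ := Group.mem_conjugatesOfSet_iff.1 hx'
    exact Group.mem_conjugatesOfSet_iff.2
      ⟨_, ⟨g • φ, hx.bd_smul g φ⟩, (act g).map_isConj h1⟩

end Vale.Agent.P173.Red
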