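import Vale.Agent.P173.DefsW
import Vale.Agent.P173.LocSys

/-! The retraction onto the one-skeleton and the edge local system. -/

namespace Vale.Agent.P173

open Topology Filter

variable {X : Type*} [TopologicalSpace X] {V E F : Type*} {pt : V → X} {ed : E → ℝ → X}
  {fc : F → ℂ → X} {src tgt : E → V}

namespace Cell2

variable (h : Cell2 pt ed fc src tgt)
include h

theorem glue_pt {Z : Type*} (fV : V → Z) (fE : E → ℝ → Z) (d : Z) (v : V) :
    glue pt ed fV fE d (pt v) = fV v := by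
  have e : ∃ v', pt v = pt v' := ⟨v, rfl⟩
  rw [glue, dif_pos e, ← h.pt_inj e.choose_spec]

theorem ed_cases (e : E) (s : ℝ) : |s| < 1 ∨ ∃ v, ed e s = pt v := by
  rcases le_or_gt s (-1) with h1 | h1
  · exact .inr ⟨_, h.ed_src e s h1⟩
  rcases le_or_gt 1 s with h2 | h2
  · exact .inr ⟨_, h.ed_tgt e s h2⟩
  · exact .inl (abs_lt.2 ⟨h1, h2⟩)

/-- For compatible data the glued function restricts to `fE e` on all of the edge `e`. -/
theorem glue_ed {Z : Type*} {fV : V → Z} {fE : E → ℝ → Z} (d : Z)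
    (h1 : ∀ e s, s ≤ -1 → fE e s = fV (src e)) (h2 : ∀ e s, 1 ≤ s → fE e s = fV (tgt e))
    (e : E) (s : ℝ) : glue pt ed fV fE d (ed e s) = fE e s := by
  rcases le_or_gt s (-1) with a1 | a1
  · rw [h.ed_src e s a1, h.glue_pt, h1 e s a1]
  rcases le_or_gt 1 s with a2 | a2
  · rw [h.ed_tgt e s a2, h.glue_pt, h2 e s a2]
  have a : |s| < 1 := abs_lt.2 ⟨a1, a2⟩
  have b : ∃ q : E × ℝ, |q.2| < 1 ∧ ed e s = ed q.1 q.2 := ⟨(e, s), a, rfl⟩
  obtain ⟨c1, c2⟩ := h.ed_inj _ _ _ _ a b.choose_spec.1 b.choose_spec.2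
  rw [glue, dif_neg fun ⟨v, hv⟩ => h.pt_ed v e s a hv.symm, dif_pos b, ← c1, ← c2]

theorem tau_pt {G : Type*} [Group G] (a : E → G) (v : V) : tau pt ed a (pt v) = 1 := h.glue_pt _ _ _ v

theorem tau_ed {G : Type*} [Group G] (a : E → G) (e : E) (s : ℝ) :
    tau pt ed a (ed e s) = if 0 < s ∧ s < 1 then a e else 1 :=
  h.glue_ed (fE := fun e s => if 0 < s ∧ s < 1 then a e else 1) _
    (fun _ _ hs => if_neg fun c => by linarith [c.1]) (fun _ _ hs => if_neg fun c => by linarith [c.2])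
    e s

theorem tau_map {G G' : Type*} [Group G] [Group G'] (a : E → G) (θ : G →* G') (x : X) :
    θ (tau pt ed a x) = tau pt ed (fun e => θ (a e)) x := by
  have _ := h
  unfold tau glue
  split_ifs <;> simp [apply_ite θ]

theorem ed_mem_Uo (e : E) (s : ℝ) : ed e s ∈ Uo ed ↔ |s| < 1 := by
  refine ⟨fun ⟨e', s', h1, h2⟩ => (h.ed_cases e s).elim id fun ⟨v, hv⟩ => ?_, fun h1 => ⟨e, s, h1, rfl⟩⟩
  exact (h.pt_ed v e' s' h1 (hv.symm.trans h2)).elim

theorem ed_mem_Us (e : E) (s : ℝ) : ed e s ∈ Us ed ↔ s ≠ 0 := by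
  refine ⟨fun h1 h2 => h1 e (by rw [h2]), fun h1 e' h2 => ?_⟩
  rcases h.ed_cases e s with a | ⟨v, hv⟩
  · exact h1 (h.ed_inj _ _ _ _ a (by simp) h2).2
  · exact h.pt_ed v e' 0 (by simp) (hv.symm.trans h2)

theorem pt_mem_Us (v : V) : pt v ∈ Us ed := fun e => h.pt_ed v e 0 (by simp)

theorem pt_not_mem_Uo (v : V) : pt v ∉ Uo ed := fun ⟨e, s, h1, h2⟩ => h.pt_ed v e s h1 h2

theorem mem_sk1 {x : X} : x ∈ sk1 pt ed ↔ (∃ v, x = pt v) ∨ ∃ e s, |s| < 1 ∧ x = ed e s := by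
  simp only [sk1, Set.mem_union, Set.mem_range, Set.mem_iUnion]
  refine ⟨?_, ?_⟩
  · rintro (⟨v, rfl⟩ | ⟨e, s, rfl⟩)
    · exact .inl ⟨v, rfl⟩
    · exact (h.ed_cases e s).elim (fun a => .inr ⟨e, s, a, rfl⟩) .inl
  · rintro (⟨v, rfl⟩ | ⟨e, s, -, rfl⟩)
    · exact .inl ⟨v, rfl⟩
    · exact .inr ⟨e, s, rfl⟩

omit h [TopologicalSpace X] in
theorem ed_mem_sk1 (e : E) (s : ℝ) : ed e s ∈ sk1 pt ed :=
  .inr (Set.mem_iUnion.2 ⟨e, s, rfl⟩)

theorem ret_of_mem {x : X} (hx : x ∈ sk1 pt ed) : ret fc x = x :=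
  dif_neg fun ⟨q, h1, h2⟩ => h.fc_sk q.1 q.2 h1 (h2 ▸ hx)

omit h in
theorem norm_div_norm {z : ℂ} (hz : z ≠ 0) : ‖z / ‖z‖‖ = 1 := by
  rw [norm_div, Complex.norm_real, norm_norm, div_self (norm_ne_zero_iff.2 hz)]

theorem ret_fc (φ : F) {z : ℂ} (hz : z ≠ 0) : ret fc (fc φ z) = fc φ (z / ‖z‖) := by
  by_cases a : ‖z‖ < 1
  · have b : ∃ q : F × ℂ, ‖q.2‖ < 1 ∧ fc φ z = fc q.1 q.2 := ⟨(φ, z), a, rfl⟩
    obtain ⟨c1, c2⟩ := h.fc_inj _ _ _ _ a b.choose_spec.1 b.choose_spec.2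
    rw [ret, dif_pos b, ← c1, ← c2]
  · rw [h.ret_of_mem (h.fc_out φ z (not_lt.1 a)),
      ← h.fc_rad φ (z / ‖z‖) ‖z‖ (norm_div_norm hz).ge (not_lt.1 a), mul_div_cancel₀]
    exact_mod_cast norm_ne_zero_iff.2 hz

theorem ret_mem {x : X} (hx : x ∉ cen fc) : ret fc x ∈ sk1 pt ed := by
  rcases h.cover x with a | a | ⟨φ, z, -, rfl⟩
  · rw [h.ret_of_mem (h.mem_sk1.2 (.inl a))]; exact h.mem_sk1.2 (.inl a)
  · rw [h.ret_of_mem (h.mem_sk1.2 (.inr a))]; exact h.mem_sk1.2 (.inr a)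
  · have hz : z ≠ 0 := fun e => hx ⟨φ, by rw [e]⟩
    rw [h.ret_fc φ hz]
    exact h.fc_out φ _ (norm_div_norm hz).ge

theorem not_mem_cen {x : X} (hx : x ∈ sk1 pt ed) : x ∉ cen fc :=
  fun ⟨φ, e⟩ => h.fc_sk φ 0 (by simp) (by rwa [← e] at hx)

theorem fc_mem_cen (φ : F) (z : ℂ) : fc φ z ∈ cen fc ↔ z = 0 := by
  refine ⟨fun a => ?_, fun e => ⟨φ, by rw [e]⟩⟩
  by_cases b : ‖z‖ < 1
  · obtain ⟨ψ, e⟩ := a
    exact (h.fc_inj _ _ _ _ (by simp) b e).2.symm
  · exact (h.not_mem_cen (h.fc_out φ z (not_lt.1 b)) a).elim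

theorem mem_thick {W : Set X} {x : X} (hx : x ∈ sk1 pt ed) : x ∈ thick fc W ↔ x ∈ W := by
  simp only [thick, Set.mem_inter_iff, Set.mem_compl_iff, Set.mem_preimage, h.ret_of_mem hx,
    h.not_mem_cen hx, not_false_eq_true, true_and]

theorem loop_mem (φ : F) (θ : ℝ) : loop fc φ θ ∈ sk1 pt ed :=
  h.fc_out φ _ (Complex.norm_exp_ofReal_mul_I θ).ge

theorem loop_cont (φ : F) : Continuous (loop fc φ) :=
  (h.fc_cont φ).comp (by fun_prop)

/-- The image of an open subset of the open unit disc is open. -/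
theorem isOpen_fc_image (φ : F) {N : Set ℂ} (hN : IsOpen N) (h1 : ∀ z ∈ N, ‖z‖ < 1) :
    IsOpen (fc φ '' N) := by
  refine h.weak2 _ (fun e => ?_) fun ψ => ?_
  · convert isOpen_empty
    refine Set.eq_empty_of_forall_notMem fun s ⟨z, hz, e'⟩ => h.fc_sk φ z (h1 z hz) ?_
    rw [e']; exact ed_mem_sk1 e s
  · have key : ∀ w, fc ψ w ∈ fc φ '' N → φ = ψ ∧ w ∈ N := fun w ⟨z, hz, e'⟩ => by
      by_cases b : ‖w‖ < 1
      · obtain ⟨c1, c2⟩ := h.fc_inj _ _ _ _ (h1 z hz) b e'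
        exact ⟨c1, c2 ▸ hz⟩
      · exact (h.fc_sk φ z (h1 z hz) (e' ▸ h.fc_out ψ w (not_lt.1 b))).elim
    by_cases e : φ = ψ
    · subst e
      convert hN
      exact Set.ext fun w => ⟨fun a => (key w a).2, fun a => ⟨w, a, rfl⟩⟩
    · convert isOpen_empty
      exact Set.eq_empty_of_forall_notMem fun w a => e (key w a).1

/-- Continuity on open sets can be checked cell by cell. -/
theorem continuousOn_of {Z : Type*} [TopologicalSpace Z] {f : X → Z} {O : Set X} (hO : IsOpen O)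
    (h1 : ∀ e, ContinuousOn (fun s => f (ed e s)) (ed e ⁻¹' O))
    (h2 : ∀ φ, ContinuousOn (fun z => f (fc φ z)) (fc φ ⁻¹' O)) : ContinuousOn f O :=
  (continuousOn_open_iff hO).2 fun _ ht => h.weak2 _
    (fun e => (h1 e).isOpen_inter_preimage (hO.preimage (h.ed_cont e)) ht)
    fun φ => (h2 φ).isOpen_inter_preimage (hO.preimage (h.fc_cont φ)) ht

theorem isOpen_thick {W : Set X} (hW : ∀ e, IsOpen (ed e ⁻¹' W)) : IsOpen (thick fc W) := by
  refine h.weak2 _ (fun e => ?_) fun φ => ?_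
  · convert hW e using 1
    exact Set.ext fun s => h.mem_thick (ed_mem_sk1 e s)
  · have c : ContinuousOn (fun z : ℂ => fc φ (z / ‖z‖)) {0}ᶜ :=
      (h.fc_cont φ).comp_continuousOn (continuousOn_id.div (by fun_prop) fun z hz => by
        exact_mod_cast norm_ne_zero_iff.2 hz)
    convert c.isOpen_inter_preimage isOpen_compl_singleton (h.weak1 W hW) using 1
    ext z
    simp only [thick, Set.mem_preimage, Set.mem_inter_iff, Set.mem_compl_iff, h.fc_mem_cen,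
      Set.mem_singleton_iff, Set.mem_union]
    refine and_congr_right fun hz => ?_
    rw [h.ret_fc φ hz]
    simp [h.fc_out φ _ (norm_div_norm hz).ge]

theorem continuousOn_thick {Z : Type*} [TopologicalSpace Z] {f : X → Z} {W : Set X}
    (hW : ∀ e, IsOpen (ed e ⁻¹' W)) (hf : ∀ e, ContinuousOn (fun s => f (ed e s)) (ed e ⁻¹' W)) :
    ContinuousOn (fun x => f (ret fc x)) (thick fc W) :=
  (continuousOn_open_iff (h.isOpen_thick hW)).2 fun t ht => by
    convert h.isOpen_thick (W := W ∩ f ⁻¹' t) fun e => (hf e).isOpen_inter_preimage (hW e) ht using 1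
    exact Set.inter_assoc _ _ _

theorem eventually_thick {Z : Type*} {f : X → Z} {W : Set X} (hW : ∀ e, IsOpen (ed e ⁻¹' W))
    (hf : ∀ e s, ed e s ∈ W → ∀ᶠ s' in 𝓝 s, f (ed e s') = f (ed e s)) {x : X}
    (hx : x ∈ thick fc W) : ∀ᶠ y in 𝓝 x, f (ret fc y) = f (ret fc x) := by
  have : IsOpen (thick fc (W ∩ {y | f y = f (ret fc x)})) := h.isOpen_thick fun e =>
    isOpen_iff_eventually.2 fun s hs => by
      filter_upwards [(hW e).mem_nhds hs.1, hf e s hs.1] with s' a b using ⟨a, b.trans hs.2⟩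
  filter_upwards [this.mem_nhds ⟨hx.1, hx.2, rfl⟩] with y hy using hy.2.2

theorem isOpen_Us (e : E) : IsOpen (ed e ⁻¹' Us ed) := by
  convert isOpen_compl_singleton (x := (0 : ℝ))
  exact Set.ext fun s => h.ed_mem_Us e s

theorem isOpen_Uo (e : E) : IsOpen (ed e ⁻¹' Uo ed) := by
  convert isOpen_lt (f := fun s : ℝ => |s|) (g := fun _ => 1) (by fun_prop) (by fun_prop)
  exact Set.ext fun s => h.ed_mem_Uo e s

omit h in
theorem eventually_pos_iff {s : ℝ} (hs : s ≠ 0) : ∀ᶠ s' in 𝓝 s, 0 < s' ↔ 0 < s := by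
  rcases hs.lt_or_gt with a | a
  · filter_upwards [gt_mem_nhds a] with s' b using iff_of_false b.not_gt a.not_gt
  · filter_upwards [lt_mem_nhds a] with s' b using iff_of_true b a

theorem locSys {G : Type*} [Group G] (a : E → G) : LocSys (sU ed fc) (sT pt ed fc a) := by
  have key : ∀ x, x ∈ sU ed fc true → x ∈ sU ed fc false →
      ∀ᶠ y in 𝓝 x, tau pt ed a (ret fc y) = tau pt ed a (ret fc x) := fun x h1 h2 =>
    h.eventually_thick (W := Us ed ∩ Uo ed) (fun e => (h.isOpen_Us e).inter (h.isOpen_Uo e))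
      (fun e s hs => by
        have a1 := (abs_lt.1 ((h.ed_mem_Uo e s).1 hs.2)).2
        filter_upwards [eventually_pos_iff ((h.ed_mem_Us e s).1 hs.1), gt_mem_nhds a1] with s' b c
        simp only [h.tau_ed, b, c, a1]) ⟨h1.1, h1.2, h2.2⟩
  refine ⟨fun i => ?_, fun i j x hi hj => ?_⟩
  · cases i
    · exact h.isOpen_thick h.isOpen_Uo
    · exact h.isOpen_thick h.isOpen_Us
  · cases i <;> cases j
    · simp
    · filter_upwards [key x hj hi] with y hy
      simp only [sT, hy]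
    · filter_upwards [key x hi hj] with y hy
      simp only [sT, hy]
    · simp

theorem exists_mem_sU {x : X} (hx : x ∉ cen fc) : ∃ b, x ∈ sU ed fc b := by
  rcases h.mem_sk1.1 (h.ret_mem hx) with ⟨v, e⟩ | e
  · exact ⟨true, hx, show ret fc x ∈ Us ed from e ▸ h.pt_mem_Us v⟩
  · exact ⟨false, hx, e⟩

/-- The explicit lift along an edge. -/
theorem isLift_ed {G : Type*} [Group G] (a : E → G) (e : E) :
    IsLift (sU ed fc) (sT pt ed fc a) (ed e) fun s => if s < 1 then 1 else a e := by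
  intro i s hs
  cases i
  · have a1 := (abs_lt.1 ((h.ed_mem_Uo e s).1 ((h.mem_thick (ed_mem_sk1 e s)).1 hs))).2
    filter_upwards [gt_mem_nhds a1] with s' b
    simp only [sT, a1, b]
  · have key : ∀ s : ℝ, (if s < 1 then 1 else a e) * sT pt ed fc a true (ed e s) =
        if 0 < s then a e else 1 := fun s => by
      simp only [sT, h.ret_of_mem (ed_mem_sk1 e s), h.tau_ed]
      by_cases b : s < 1
      · simp [b]
      · simp [b, show 0 < s by linarith]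
    filter_upwards [eventually_pos_iff ((h.ed_mem_Us e s).1 ((h.mem_thick (ed_mem_sk1 e s)).1 hs))]
      with s' b
    simp only [key, b]

theorem exists_isBd (φ : F) : ∃ w, IsBd pt ed fc φ w := by
  obtain ⟨η, h1, h2⟩ := (h.locSys FreeGroup.of).exists_lift (h.loop_cont φ)
    (fun θ => h.exists_mem_sU (h.not_mem_cen (h.loop_mem φ θ))) 0 1
  exact ⟨_, η, h1, h2, rfl⟩

theorem isBd_unique {φ : F} {w w' : FreeGroup E} (h1 : IsBd pt ed fc φ w)
    (h2 : IsBd pt ed fc φ w') : w = w' := by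
  obtain ⟨η, a1, a2, rfl⟩ := h1
  obtain ⟨η', b1, b2, rfl⟩ := h2
  rw [IsLift.unique (fun θ => h.exists_mem_sU (h.not_mem_cen (h.loop_mem φ θ))) a1 b1
    (a2.trans b2.symm)]

theorem isBd_lift {φ : F} {w : FreeGroup E} (h1 : IsBd pt ed fc φ w) {G : Type*} [Group G]
    (a : E → G) : ∃ η : ℝ → G, IsLift (sU ed fc) (sT pt ed fc a) (loop fc φ) η ∧ η 0 = 1 ∧
      η (2 * Real.pi) = FreeGroup.lift a w := by
  obtain ⟨η, a1, a2, rfl⟩ := h1
  refine ⟨fun θ => FreeGroup.lift a (η θ), ?_, by simp only [a2, map_one], rfl⟩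
  convert a1.map (FreeGroup.lift a) using 1
  funext i x
  cases i
  · simp [sT]
  · simp only [sT, h.tau_map, FreeGroup.lift_apply_of]

end Cell2

end Vale.Agent.P173
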