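import Vale.Agent.P173.DefsS

/-! The small flat connection on the scaled complex. -/

namespace Vale.Agent.P173

open scoped Matrix.Norms.L2Operator Quaternion

variable {V : Type} [Fintype V] [DecidableEq V] {G : SimpleGraph V}

/-- The standard embedding of the quaternions into complex matrices. -/
noncomputable def sqPsi : ℍ[ℝ] →+* Matrix (Fin 2) (Fin 2) ℂ where
  toFun q := !![⟨q.re, q.imI⟩, ⟨q.imJ, q.imK⟩; ⟨-q.imJ, q.imK⟩, ⟨q.re, -q.imI⟩]
  map_one' := by
    ext i j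
    fin_cases i <;> fin_cases j <;> simp [Complex.ext_iff]
  map_mul' p q := by
    ext i j
    fin_cases i <;> fin_cases j <;>
      simp [Complex.ext_iff, Matrix.mul_apply, Fin.sum_univ_two] <;> constructor <;> ring
  map_zero' := by
    ext i j
    fin_cases i <;> fin_cases j <;> simp [Complex.ext_iff]
  map_add' p q := by
    ext i j
    fin_cases i <;> fin_cases j <;> simp [Complex.ext_iff, add_comm]

lemma sqPsi_apply (q : ℍ[ℝ]) :
    sqPsi q = !![⟨q.re, q.imI⟩, ⟨q.imJ, q.imK⟩; ⟨-q.imJ, q.imK⟩, ⟨q.re, -q.imI⟩] := rfl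

lemma sqPsi_star (q : ℍ[ℝ]) : sqPsi (star q) = star (sqPsi q) := by
  ext i j
  fin_cases i <;> fin_cases j <;> simp [sqPsi_apply, Complex.ext_iff]

lemma sqPsi_coe (r : ℝ) : sqPsi (r : ℍ[ℝ]) = (r : ℂ) • (1 : Matrix (Fin 2) (Fin 2) ℂ) := by
  ext i j
  fin_cases i <;> fin_cases j <;> simp [sqPsi_apply, Complex.ext_iff]

lemma sqPsi_norm (q : ℍ[ℝ]) : ‖sqPsi q‖ = ‖q‖ := by
  have h := CStarRing.norm_star_mul_self (x := sqPsi q)
  rw [← sqPsi_star, ← map_mul, Quaternion.star_mul_self, sqPsi_coe, norm_smul, norm_one, mul_one,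
    Quaternion.normSq_eq_norm_mul_self, Complex.norm_real, Real.norm_of_nonneg (by positivity)] at h
  exact ((mul_self_inj (norm_nonneg _) (norm_nonneg _)).1 h).symm

lemma sq_star_mul {q : ℍ[ℝ]} (h : ‖q‖ = 1) : star q * q = 1 := by
  rw [Quaternion.star_mul_self, Quaternion.normSq_eq_norm_mul_self, h, mul_one]; rfl

lemma sq_mul_star {q : ℍ[ℝ]} (h : ‖q‖ = 1) : q * star q = 1 := by
  rw [Quaternion.self_mul_star, Quaternion.normSq_eq_norm_mul_self, h, mul_one]; rfl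

lemma sqPsi_mem {q : ℍ[ℝ]} (h : ‖q‖ = 1) : sqPsi q ∈ unitary (Matrix (Fin 2) (Fin 2) ℂ) :=
  ⟨by rw [← sqPsi_star, ← map_mul, sq_star_mul h, map_one],
    by rw [← sqPsi_star, ← map_mul, sq_mul_star h, map_one]⟩

lemma sq_normalize {E : Type*} [NormedAddCommGroup E] [NormedSpace ℝ E] {A B : E} (hA : A ≠ 0)
    (hB : B ≠ 0) : ‖‖B‖⁻¹ • B - ‖A‖⁻¹ • A‖ ≤ 2 * ‖B - A‖ / ‖A‖ := by
  have hA' : 0 < ‖A‖ := norm_pos_iff.2 hA
  have hB' : 0 < ‖B‖ := norm_pos_iff.2 hB
  have e : ‖B‖⁻¹ • B - ‖A‖⁻¹ • A = (‖B‖⁻¹ - ‖A‖⁻¹) • B + ‖A‖⁻¹ • (B - A) := by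
    rw [sub_smul, smul_sub]; abel
  have h1 : |‖B‖⁻¹ - ‖A‖⁻¹| * ‖B‖ = |‖B‖ - ‖A‖| / ‖A‖ := by
    rw [show ‖B‖⁻¹ - ‖A‖⁻¹ = -(‖B‖ - ‖A‖) / (‖A‖ * ‖B‖) by field_simp; ring, abs_div, abs_neg,
      abs_of_pos (mul_pos hA' hB')]
    field_simp
  rw [e]
  refine (norm_add_le _ _).trans ?_
  rw [norm_smul, norm_smul, Real.norm_eq_abs, h1, norm_inv, norm_norm, le_div_iff₀ hA']
  have h2 := abs_norm_sub_norm_le B A
  field_simp
  linarith

omit [DecidableEq V] in
lemma sq_coord_le {n : ℕ} (x y : Pt G n) (v : V) : y.1 v ≤ x.1 v + dist1 G x y ∧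
    x.1 v ≤ y.1 v + dist1 G x y := by
  have h : ((x.1 v : ℤ) - y.1 v).natAbs ≤ dist1 G x y :=
    Finset.single_le_sum (f := fun v => ((x.1 v : ℤ) - y.1 v).natAbs) (fun _ _ => Nat.zero_le _)
      (Finset.mem_univ v)
  omega

omit [DecidableEq V] in
lemma sq_exists_max [Nonempty V] {n : ℕ} (x : Pt G n) : ∃ u, n ≤ Fintype.card V * x.1 u := by
  obtain ⟨u, -, hu⟩ := Finset.exists_max_image Finset.univ x.1 Finset.univ_nonempty
  exact ⟨u, x.2.1.symm.trans_le (Finset.sum_le_card_nsmul _ _ _ hu)⟩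

lemma sq_exists_pt {u v : V} (h : AE G u v) {n : ℕ} (i j : ℕ) (hij : i + j = n) :
    ∃ x : Pt G n, x.1 = Pi.single u i + Pi.single v j := by
  have h' : AE G v u := h.imp Eq.symm fun h => h.symm
  have hs : ∀ w, (Pi.single u i + Pi.single v j : V → ℕ) w ≠ 0 → w = u ∨ w = v := by
    intro w hw
    by_contra hc
    rw [not_or] at hc
    exact hw (by rw [Pi.add_apply, Pi.single_eq_of_ne hc.1, Pi.single_eq_of_ne hc.2, add_zero])
  refine ⟨⟨Pi.single u i + Pi.single v j, ?_, fun w w' hw hw' => ?_⟩, rfl⟩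
  · simp [Finset.sum_add_distrib, hij]
  · rcases hs w hw with rfl | rfl <;> rcases hs w' hw' with rfl | rfl
    · exact Or.inl rfl
    · exact h
    · exact h'
    · exact Or.inl rfl

theorem pt_conn {a : V → V → ℍ[ℝ]} (ha : QRep G a) (c : ℕ) (ε : ℝ) (hε : 0 < ε) :
    ∃ n₀ : ℕ, ∀ n, n₀ ≤ n → ∃ ρ : Pt G n → Pt G n → unitary (Matrix (Fin 2) (Fin 2) ℂ),
      (∀ x₀ x y, dist1 G x₀ x ≤ c → dist1 G x₀ y ≤ c → ρ x₀ x * ρ x y = ρ x₀ y) ∧
      (∀ x y, dist1 G x y ≤ c → ‖(ρ x y : Matrix (Fin 2) (Fin 2) ℂ) - 1‖ ≤ ε) ∧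
      ¬ ∃ g : Pt G n → unitary (Matrix (Fin 2) (Fin 2) ℂ),
        ∀ x σ y, arr G n x σ y → ρ x y = (g x)⁻¹ * g y := by
  classical
  obtain ⟨u₀, w₀, hw₀⟩ := ha.nontriv
  have : Nonempty V := ⟨u₀⟩
  set N := Fintype.card V with hN
  have hN0 : 0 < N := Fintype.card_pos
  obtain ⟨n₁, hn₁⟩ := exists_nat_ge (2 * c * N / ε)
  refine ⟨max n₁ (N * c + 1), fun n hn => ?_⟩
  have hn1 : n₁ ≤ n := le_of_max_le_left hn
  have hn2 : N * c < n := le_of_max_le_right hn
  let b : V → V → ℍ[ℝ] := fun u v => if AE G u v then a u v else 1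
  have hb1 : ∀ u v, ‖b u v‖ = 1 := by
    intro u v
    simp only [b]
    split_ifs with h
    · exact ha.norm u v h
    · exact norm_one
  have hb2 : ∀ u v, 0 ≤ (b u v).re := by
    intro u v
    simp only [b]
    split_ifs with h
    · exact ha.re u v h
    · simp
  have hb3 : ∀ u, b u u = 1 := fun u => (if_pos (Or.inl rfl)).trans (ha.self u)
  have hb4 : ∀ u v w, AE G u v → AE G v w → AE G u w → b u v * b v w = b u w := by
    intro u v w h1 h2 h3
    simp only [b, if_pos h1, if_pos h2, if_pos h3]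
    exact ha.coc u v w h1 h2 h3
  choose U hU using fun x : Pt G n => sq_exists_max x
  have hUc : ∀ x : Pt G n, c < x.1 (U x) := fun x =>
    lt_of_mul_lt_mul_left (hn2.trans_le (hU x)) (Nat.zero_le _)
  have hU0 : ∀ x : Pt G n, x.1 (U x) ≠ 0 := fun x => by have := hUc x; omega
  have hU1 : ∀ x y : Pt G n, dist1 G x y ≤ c → x.1 (U y) ≠ 0 ∧ y.1 (U x) ≠ 0 := by
    intro x y h
    have h1 := sq_coord_le x y (U y)
    have h2 := sq_coord_le x y (U x)
    have h3 := hUc x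
    have h4 := hUc y
    omega
  let φ : V → Pt G n → ℍ[ℝ] := fun u x => ∑ v, (x.1 v : ℝ) • b u v
  have hφ1 : ∀ u x, (x.1 u : ℝ) ≤ ‖φ u x‖ := by
    intro u x
    have h1 : (φ u x).re = ∑ v, (x.1 v : ℝ) * (b u v).re := by
      exact map_sum (QuaternionAlgebra.reₗ (-1 : ℝ) 0 (-1)) (fun v => (x.1 v : ℝ) • b u v)
        Finset.univ
    have h2 : (x.1 u : ℝ) * (b u u).re ≤ ∑ v, (x.1 v : ℝ) * (b u v).re :=
      Finset.single_le_sum (f := fun v => (x.1 v : ℝ) * (b u v).re)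
        (fun v _ => mul_nonneg (Nat.cast_nonneg _) (hb2 u v)) (Finset.mem_univ u)
    rw [hb3, Quaternion.re_one, mul_one, ← h1] at h2
    refine h2.trans (Real.le_sqrt_of_sq_le ?_ |>.trans_eq (norm_eq_sqrt_real_inner _).symm)
    rw [Quaternion.inner_self, Quaternion.normSq_def']
    nlinarith [sq_nonneg (φ u x).imI, sq_nonneg (φ u x).imJ, sq_nonneg (φ u x).imK]
  have hφ0 : ∀ u x, x.1 u ≠ 0 → φ u x ≠ 0 := by
    intro u x h
    have h1 : (0 : ℝ) < x.1 u := by exact_mod_cast Nat.pos_of_ne_zero h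
    exact norm_pos_iff.1 (h1.trans_le (hφ1 u x))
  have hφ2 : ∀ u u' (y : Pt G n), y.1 u ≠ 0 → y.1 u' ≠ 0 → b u u' * φ u' y = φ u y := by
    intro u u' y h h'
    simp only [φ, Finset.mul_sum]
    refine Finset.sum_congr rfl fun v _ => ?_
    by_cases hv : y.1 v = 0
    · simp [hv]
    · rw [mul_smul_comm, hb4 u u' v (y.2.2 _ _ h h') (y.2.2 _ _ h' hv) (y.2.2 _ _ h hv)]
  have hφ3 : ∀ u (x y : Pt G n), ‖φ u y - φ u x‖ ≤ dist1 G x y := by
    intro u x y
    simp only [φ, dist1]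
    rw [← Finset.sum_sub_distrib, Nat.cast_sum]
    refine norm_sum_le_of_le _ fun v _ => le_of_eq ?_
    rw [← sub_smul, norm_smul, hb1, mul_one, Nat.cast_natAbs, Real.norm_eq_abs, abs_sub_comm]
    push_cast
    rfl
  let F : Pt G n → ℍ[ℝ] := fun x => ‖φ (U x) x‖⁻¹ • φ (U x) x
  have hF : ∀ x, ‖F x‖ = 1 := fun x => norm_smul_inv_norm (𝕜 := ℝ) (hφ0 _ _ (hU0 x))
  let q : Pt G n → Pt G n → ℍ[ℝ] := fun x y => star (F x) * b (U x) (U y) * F y
  have hq : ∀ x y, ‖q x y‖ = 1 := fun x y => by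
    simp only [q, norm_mul, norm_star, hF, hb1, mul_one]
  refine ⟨fun x y => ⟨sqPsi (q x y), sqPsi_mem (hq x y)⟩, fun x₀ x y h1 h2 => ?_,
    fun x y h => ?_, ?_⟩
  · refine Subtype.ext ?_
    change sqPsi _ * sqPsi _ = sqPsi _
    rw [← map_mul]
    congr 1
    have e1 := (hU1 x₀ x h1).1
    have e2 := (hU1 x₀ y h2).1
    simp only [q]
    rw [← hb4 (U x₀) (U x) (U y) (x₀.2.2 _ _ (hU0 x₀) e1) (x₀.2.2 _ _ e1 e2)
      (x₀.2.2 _ _ (hU0 x₀) e2)]
    simp only [mul_assoc]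
    rw [← mul_assoc (F x), sq_mul_star (hF x), one_mul]
  · change ‖sqPsi _ - 1‖ ≤ ε
    have e1 := (hU1 x y h).2
    have e2 := hφ2 (U x) (U y) y e1 (hU0 y)
    have e3 : ‖φ (U y) y‖ = ‖φ (U x) y‖ := by rw [← e2, norm_mul, hb1, one_mul]
    have e4 : q x y - 1 = star (F x) * (‖φ (U x) y‖⁻¹ • φ (U x) y - F x) := by
      rw [mul_sub, sq_star_mul (hF x), ← e3, ← e2, ← mul_smul_comm, ← mul_assoc]
    rw [← map_one sqPsi, ← map_sub, sqPsi_norm, e4, norm_mul, norm_star, hF, one_mul]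
    refine (sq_normalize (hφ0 _ _ (hU0 x)) (hφ0 _ _ e1)).trans ?_
    have h1 : (n : ℝ) ≤ N * x.1 (U x) := by exact_mod_cast hU x
    have h2 := hφ1 (U x) x
    have h3 := hφ3 (U x) x y
    have h4 : (dist1 G x y : ℝ) ≤ c := by exact_mod_cast h
    have h5 : (n₁ : ℝ) ≤ n := by exact_mod_cast hn1
    have h6 : (0 : ℝ) < N := by exact_mod_cast hN0
    rw [div_le_iff₀ hε] at hn₁
    rw [div_le_iff₀ (norm_pos_iff.2 (hφ0 _ _ (hU0 x)))]
    have h7 : (N : ℝ) * (2 * c) ≤ N * (ε * x.1 (U x)) := by nlinarith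
    have h8 := le_of_mul_le_mul_left h7 h6
    nlinarith
  · rintro ⟨g, hg⟩
    let k : Pt G n → Matrix (Fin 2) (Fin 2) ℂ := fun x => (g x : Matrix _ _ ℂ) * sqPsi (star (F x))
    have hk : ∀ x σ y, arr G n x σ y → k x * sqPsi (b (U x) (U y)) = k y := by
      intro x σ y h
      have h1 := congrArg Subtype.val (mul_inv_cancel_left (g x) (g y))
      rw [← hg x σ y h] at h1
      change (g x).1 * sqPsi (q x y) = (g y).1 at h1
      simp only [k]
      rw [← h1, mul_assoc, mul_assoc, ← map_mul, ← map_mul, mul_assoc _ (F y), sq_mul_star (hF y),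
        mul_one]
    choose e he using fun u : V => sq_exists_pt (G := G) (u := u) (v := u) (Or.inl rfl) (n := n) n 0 rfl
    have he' : ∀ u, (e u).1 = Pi.single u n := fun u => by rw [he, Pi.single_zero, add_zero]
    have hUe : ∀ u, U (e u) = u := fun u => by
      by_contra hne
      exact hU0 (e u) (by rw [he', Pi.single_eq_of_ne hne])
    have hedge : ∀ u v, G.Adj u v → k (e u) * sqPsi (a u v) = k (e v) := by
      intro u v huv
      have h1 : ∀ j i, i + j = n → ∀ x : Pt G n, x.1 = Pi.single u i + Pi.single v j →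
          k (e u) * sqPsi (b u (U x)) = k x := by
        intro j
        induction j with
        | zero =>
          intro i hi x hx
          have : x = e u := Subtype.ext (by rw [hx, he', Pi.single_zero, add_zero, ← hi, add_zero])
          rw [this, hUe, hb3, map_one, mul_one]
        | succ j ih =>
          intro i hi y hy
          obtain ⟨x, hx⟩ := sq_exists_pt (G := G) (u := u) (v := v) (Or.inr huv) (n := n)
            (i + 1) j (by omega)
          have hs : ∀ (z : Pt G n) i j, z.1 = Pi.single u i + Pi.single v j → ∀ w, z.1 w ≠ 0 →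
              w = u ∨ w = v := by
            intro z i j hz w hw
            by_contra hc
            rw [not_or] at hc
            exact hw (by rw [hz, Pi.add_apply, Pi.single_eq_of_ne hc.1, Pi.single_eq_of_ne hc.2, add_zero])
          have hAE : ∀ w w', (w = u ∨ w = v) → (w' = u ∨ w' = v) → AE G w w' := by
            rintro w w' (rfl | rfl) (rfl | rfl)
            · exact Or.inl rfl
            · exact Or.inr huv
            · exact Or.inr huv.symm
            · exact Or.inl rfl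
          have harr : arr G n x ⟨(u, v), huv⟩ y := by
            refine ⟨?_, fun w hw => hAE _ _ (hs x _ _ hx w hw) (Or.inr rfl)⟩
            change y.1 + Pi.single u 1 = x.1 + Pi.single v 1
            rw [hx, hy, Pi.single_add, Pi.single_add]
            abel
          have h2 := hs x _ _ hx _ (hU0 x)
          have h3 := hs y _ _ hy _ (hU0 y)
          rw [← hk x _ y harr, ← ih (i + 1) (by omega) x hx, mul_assoc (k (e u)), ← map_mul,
            hb4 _ _ _ (hAE _ _ (Or.inl rfl) h2) (hAE _ _ h2 h3) (hAE _ _ (Or.inl rfl) h3)]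
      have h2 := h1 n 0 (zero_add n) (e v) (by rw [he', Pi.single_zero, zero_add])
      rw [hUe] at h2
      rw [← h2]
      congr 2
      exact (if_pos (Or.inr huv)).symm
    have hwalk : ∀ u v (w : G.Walk u v),
        k (e u) * sqPsi (w.darts.map fun d => a d.fst d.snd).prod = k (e v) := by
      intro u v w
      induction w with
      | nil => simp
      | cons h w ih =>
        rw [SimpleGraph.Walk.darts_cons, List.map_cons, List.prod_cons, map_mul, ← mul_assoc,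
          hedge _ _ h, ih]
    have h1 := hwalk _ _ w₀
    have h2 : sqPsi (F (e u₀)) * star (g (e u₀) : Matrix (Fin 2) (Fin 2) ℂ) * k (e u₀) = 1 := by
      simp only [k]
      rw [mul_assoc, ← mul_assoc (star _), (g (e u₀)).2.1, one_mul, ← map_mul, sq_mul_star (hF _),
        map_one]
    have h3 := congrArg (sqPsi (F (e u₀)) * star (g (e u₀) : Matrix (Fin 2) (Fin 2) ℂ) * ·) h1
    simp only [← mul_assoc] at h3
    rw [h2, one_mul, ← map_one sqPsi, ← sub_eq_zero, ← map_sub, ← norm_eq_zero, sqPsi_norm,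
      norm_eq_zero, sub_eq_zero] at h3
    exact hw₀ h3

end Vale.Agent.P173
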