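import Vale.Agent.P173.ScalH1
import Vale.Agent.P173.ScalQ
import Vale.Agent.P173.ExactA

/-! The scaled complexes inside the Bestvina-Brady group. -/

namespace Vale.Agent.P173

open scoped Matrix.Norms.L2Operator Quaternion

variable {V : Type} [Fintype V] [DecidableEq V] {G : SimpleGraph V}

/-- The abelianisation of the Artin group. -/
def sgAb (G : SimpleGraph V) : RA G →* Multiplicative (V → ℤ) :=
  PresentedGroup.toGroup (f := fun v => Multiplicative.ofAdd (Pi.single v 1)) (by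
    rintro r ⟨u, v, -, rfl⟩
    simp only [map_mul, map_inv, FreeGroup.lift_apply_of]
    rw [mul_inv_eq_one, mul_inv_eq_iff_eq_mul, mul_comm])

/-- The monomial of a lattice point. -/
noncomputable def sgMon (G : SimpleGraph V) (x : V → ℕ) : RA G :=
  (Finset.univ.toList.map fun v => ga G v ^ x v).prod

omit [Fintype V] [DecidableEq V] in
lemma sg_commute {u v : V} (h : AE G u v) : Commute (ga G u) (ga G v) := by
  rcases h with rfl | h
  · exact Commute.refl _
  · exact ga_comm G h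

lemma sgMon_add (x : V → ℕ) (v : V) (h : ∀ w, x w ≠ 0 → AE G w v) :
    sgMon G (x + Pi.single v 1) = sgMon G x * ga G v := by
  have key : ∀ l : List V, Commute (ga G v) (l.map fun w => ga G w ^ x w).prod ∧
      (l.map fun w => ga G w ^ (x + Pi.single v 1 : V → ℕ) w).prod =
        (l.map fun w => ga G w ^ x w).prod * ga G v ^ l.count v := by
    intro l
    induction l with
    | nil => simp
    | cons w l ih =>
      simp only [List.map_cons, List.prod_cons]
      refine ⟨Commute.mul_right ?_ ih.1, ?_⟩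
      · by_cases hw : x w = 0
        · rw [hw, pow_zero]; exact Commute.one_right _
        · exact (sg_commute (h w hw)).symm.pow_right _
      · rw [ih.2, Pi.add_apply]
        by_cases hw : w = v
        · subst hw
          rw [Pi.single_eq_same, List.count_cons_self, pow_succ, pow_succ', mul_assoc, mul_assoc,
            ← mul_assoc (ga G w), ih.1.eq, mul_assoc]
        · rw [Pi.single_eq_of_ne hw, List.count_cons_of_ne hw, add_zero, mul_assoc]
  have h1 := (key Finset.univ.toList).2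
  rw [List.count_eq_one_of_mem (Finset.nodup_toList _) (Finset.mem_toList.2 (Finset.mem_univ v)),
    pow_one] at h1
  exact h1

lemma sgAb_mon (x : V → ℕ) : sgAb G (sgMon G x) = Multiplicative.ofAdd fun v => (x v : ℤ) := by
  have h1 : ∀ v, sgAb G (ga G v) = Multiplicative.ofAdd (Pi.single v 1) := fun v =>
    PresentedGroup.toGroup.of _
  rw [sgMon, map_list_prod, List.map_map, Finset.prod_map_toList]
  simp only [Function.comp, map_pow, h1, ← ofAdd_nsmul]
  rw [← ofAdd_sum]
  congr 1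
  ext v
  simp [Finset.sum_apply, Pi.single_apply]

omit [DecidableEq V] in
lemma ht_mon (x : V → ℕ) : ht G (sgMon G x) = Multiplicative.ofAdd ((∑ v, x v : ℕ) : ℤ) := by
  have h1 : ∀ v, ht G (ga G v) = Multiplicative.ofAdd 1 := fun v => PresentedGroup.toGroup.of _
  rw [sgMon, map_list_prod, List.map_map, Finset.prod_map_toList]
  simp only [Function.comp, map_pow, h1, ← ofAdd_nsmul]
  rw [← ofAdd_sum]
  simp

theorem exists_embed [Nonempty V] (G : SimpleGraph V) :
    ∃ (gen : Lb G → BB G) (ν : BB G → ℕ), ν 1 = 0 ∧ (∀ g h, ν (g * h) ≤ ν g + ν h) ∧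
      (∀ g, ν g⁻¹ = ν g) ∧ ∀ n, ∃ ι : Pt G n → BB G,
        (∀ x y, ν ((ι x)⁻¹ * ι y) = dist1 G x y) ∧
        ∀ x σ y, arr G n x σ y → ι y = ι x * gen σ := by
  obtain ⟨v₀⟩ := ‹Nonempty V›
  have h1 : ∀ v, ht G (ga G v) = Multiplicative.ofAdd 1 := fun v => PresentedGroup.toGroup.of _
  refine ⟨fun σ => ⟨(ga G σ.1.1)⁻¹ * ga G σ.1.2, ?_⟩,
    fun h => ∑ v, (Multiplicative.toAdd (sgAb G h.1) v).natAbs, ?_, fun g h => ?_, fun g => ?_,
    fun n => ⟨fun x => ⟨(ga G v₀ ^ n)⁻¹ * sgMon G x.1, ?_⟩, fun x y => ?_, fun x σ y h => ?_⟩⟩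
  · rw [MonoidHom.mem_ker, map_mul, map_inv, h1, h1, inv_mul_cancel]
  · simp
  · rw [← Finset.sum_add_distrib]
    refine Finset.sum_le_sum fun v _ => ?_
    rw [Subgroup.coe_mul, map_mul, toAdd_mul, Pi.add_apply]
    exact Int.natAbs_add_le _ _
  · refine Finset.sum_congr rfl fun v _ => ?_
    rw [Subgroup.coe_inv, map_inv, toAdd_inv, Pi.neg_apply, Int.natAbs_neg]
  · rw [MonoidHom.mem_ker, map_mul, map_inv, map_pow, h1, ht_mon, x.2.1, ← ofAdd_nsmul,
      nsmul_one, inv_mul_cancel]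
  · refine Finset.sum_congr rfl fun v _ => ?_
    rw [Subgroup.coe_mul, Subgroup.coe_inv]
    simp only [mul_inv_rev, inv_inv, mul_assoc, mul_inv_cancel_left, map_mul, map_inv, sgAb_mon,
      toAdd_mul, toAdd_inv, toAdd_ofAdd, Pi.add_apply, Pi.neg_apply]
    omega
  · refine Subtype.ext ?_
    change _ * sgMon G y.1 = _ * sgMon G x.1 * ((ga G σ.1.1)⁻¹ * ga G σ.1.2)
    have huv : σ.1.1 ≠ σ.1.2 := σ.2.ne
    have h2 : x.1 σ.1.1 ≠ 0 := by
      have := congrFun h.1 σ.1.1
      rw [Pi.add_apply, Pi.add_apply, Pi.single_eq_same, Pi.single_eq_of_ne huv] at this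
      omega
    have h3 := sgMon_add (G := G) y.1 σ.1.1 fun w hw => by
      by_cases hwv : w = σ.1.2
      · rw [hwv]; exact Or.inr σ.2.symm
      · refine x.2.2 _ _ ?_ h2
        have := congrFun h.1 w
        rw [Pi.add_apply, Pi.add_apply, Pi.single_eq_of_ne hwv] at this
        omega
    rw [h.1, sgMon_add x.1 σ.1.2 h.2] at h3
    rw [mul_assoc, (Commute.inv_left (ga_comm G σ.2)).eq, ← mul_assoc (sgMon G x.1), h3,
      mul_inv_cancel_right]

theorem scal (hG : H1 G) {a : V → V → ℍ[ℝ]} (ha : QRep G a) :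
    Scal (BB G) (Matrix (Fin 2) (Fin 2) ℂ) := by
  obtain ⟨u₀, -⟩ := ha.nontriv
  have : Nonempty V := ⟨u₀⟩
  obtain ⟨gen, ν, h1, h2, h3, h4⟩ := exists_embed G
  refine ⟨Lb G, inferInstance, gen, ν, h1, h2, h3, fun c ε hε => ?_⟩
  obtain ⟨n₀, hn₀⟩ := pt_conn ha c ε hε
  set n := max n₀ (Fintype.card V * c + 1) with hn
  have hn2 : Fintype.card V * c < n := Nat.lt_of_succ_le (le_max_right _ _)
  obtain ⟨ρ, hρ1, hρ2, hρ3⟩ := hn₀ n (le_max_left _ _)
  obtain ⟨ι, hι1, hι2⟩ := h4 n
  refine ⟨Pt G n, @Fintype.ofFinite _ (pt_finite n), ι, arr G n, ρ, fun x y h => ?_, hι2,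
    fun z hz => ?_, fun x y h => ?_, fun x₀ x y h h' => hρ1 x₀ x y (hι1 x₀ x ▸ h) (hι1 x₀ y ▸ h'),
    fun x y h => hρ2 x y (hι1 x y ▸ h), hρ3⟩
  · have h5 := hι1 x y
    rw [h, inv_mul_cancel, h1] at h5
    refine Subtype.ext (funext fun v => ?_)
    have := sq_coord_le x y v
    omega
  · refine pt_h1 hG (by omega) (fun x σ => z (ι x) σ) ?_ ?_ ?_
    · intro x σ y τ a1 a2
      have := hz x [σ, τ] (by simp) (.cons a1 (.cons a2 (.nil _)))
      simp only [wsum, ← hι2 _ _ _ a1] at this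
      linarith
    · intro x σ y τ w υ a1 a2 a3
      have := hz x [σ, τ, υ] (by simp) (.cons a1 (.cons a2 (.cons a3 (.nil _))))
      simp only [wsum, ← hι2 _ _ _ a1, ← hι2 _ _ _ a2] at this
      linarith
    · intro x σ y τ w υ t χ a1 a2 a3 a4
      have := hz x [σ, τ, υ, χ] (by simp) (.cons a1 (.cons a2 (.cons a3 (.cons a4 (.nil _)))))
      simp only [wsum, ← hι2 _ _ _ a1, ← hι2 _ _ _ a2, ← hι2 _ _ _ a3] at this
      linarith
  · rw [hι1] at h ⊢
    obtain ⟨u, hu⟩ := sq_exists_max x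
    have h5 : c < x.1 u := lt_of_mul_lt_mul_left (hn2.trans_le hu) (Nat.zero_le _)
    have h6 := sq_coord_le x y u
    exact pt_walk x y (u := u) (by omega) (by omega)

end Vale.Agent.P173
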