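import Vale.Agent.P173.DefsS

/-! The first cohomology of the scaled complex vanishes; short walks. -/

namespace Vale.Agent.P173

variable {V : Type} [Fintype V] [DecidableEq V] {G : SimpleGraph V}

namespace ScalH1

omit [Fintype V] [DecidableEq V] in
lemma AE_symm {u v : V} (h : AE G u v) : AE G v u := h.imp Eq.symm G.adj_symm

omit [Fintype V] [DecidableEq V] in
lemma AE_adj {u v : V} (h : AE G u v) (hne : u ≠ v) : G.Adj u v := h.resolve_left hne

variable {n : ℕ}

lemma arr_apply {x y : Pt G n} {σ : Lb G} (h : arr G n x σ y) (v : V) :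
    y.1 v + (if v = σ.1.1 then 1 else 0) = x.1 v + (if v = σ.1.2 then 1 else 0) := by
  simpa [Pi.single_apply] using congrFun h.1 v

lemma arr_fst {x y : Pt G n} {σ : Lb G} (h : arr G n x σ y) : y.1 σ.1.1 + 1 = x.1 σ.1.1 := by
  simpa [σ.2.ne] using arr_apply h σ.1.1

lemma arr_snd {x y : Pt G n} {σ : Lb G} (h : arr G n x σ y) : y.1 σ.1.2 = x.1 σ.1.2 + 1 := by
  simpa [σ.2.ne'] using arr_apply h σ.1.2

lemma arr_other {x y : Pt G n} {σ : Lb G} (h : arr G n x σ y) {v : V} (h1 : v ≠ σ.1.1)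
    (h2 : v ≠ σ.1.2) : y.1 v = x.1 v := by
  simpa [h1, h2] using arr_apply h v

lemma arr_supp {x y : Pt G n} {σ : Lb G} (h : arr G n x σ y) {v : V} (hv : y.1 v ≠ 0) :
    x.1 v ≠ 0 ∨ v = σ.1.2 := by
  have := arr_apply h v
  by_cases h2 : v = σ.1.2
  · exact Or.inr h2
  · rw [if_neg h2] at this
    left
    omega

lemma arr_unique {x y y' : Pt G n} {σ : Lb G} (h : arr G n x σ y) (h' : arr G n x σ y') :
    y = y' := Subtype.ext (add_right_cancel (h.1.trans h'.1.symm))

lemma arr_symm {x y : Pt G n} {σ : Lb G} (h : arr G n x σ y) :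
    arr G n y ⟨(σ.1.2, σ.1.1), σ.2.symm⟩ x := by
  refine ⟨h.1.symm, fun w hw => ?_⟩
  rcases arr_supp h hw with h1 | rfl
  · exact x.2.2 w σ.1.1 h1 (by have := arr_fst h; omega)
  · exact Or.inr σ.2.symm

lemma exists_arr (x : Pt G n) {a b : V} (hab : G.Adj a b) (ha : x.1 a ≠ 0)
    (hb : ∀ w, x.1 w ≠ 0 → AE G w b) : ∃ y, arr G n x ⟨(a, b), hab⟩ y := by
  have key : (x.1 - Pi.single a 1 + Pi.single b 1 : V → ℕ) + Pi.single a 1 =
      x.1 + Pi.single b 1 := by
    funext v
    simp only [Pi.add_apply, Pi.sub_apply, Pi.single_apply]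
    by_cases h : v = a
    · subst h
      simp only [if_true]
      omega
    · simp only [if_neg h]
      omega
  have hs : ∀ v, (x.1 - Pi.single a 1 + Pi.single b 1 : V → ℕ) v ≠ 0 → x.1 v ≠ 0 ∨ v = b := by
    intro v hv
    by_cases h : v = b
    · exact Or.inr h
    · simp only [Pi.add_apply, Pi.sub_apply, Pi.single_eq_of_ne h] at hv
      left
      omega
  refine ⟨⟨x.1 - Pi.single a 1 + Pi.single b 1, ?_, fun u v hu hv => ?_⟩, key, hb⟩
  · have := congrArg (fun f : V → ℕ => ∑ v, f v) key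
    simp only [Pi.add_apply _ (Pi.single a 1 : V → ℕ), Pi.add_apply x.1, Finset.sum_add_distrib,
      Finset.sum_pi_single', Finset.mem_univ, if_true, x.2.1] at this
    omega
  · rcases hs u hu with h1 | rfl <;> rcases hs v hv with h2 | rfl
    · exact x.2.2 _ _ h1 h2
    · exact hb _ h1
    · exact AE_symm (hb _ h2)
    · exact Or.inl rfl

lemma sum_split (x : Pt G n) (u : V) : x.1 u + ∑ v ∈ Finset.univ.erase u, x.1 v = n :=
  (Finset.add_sum_erase _ _ (Finset.mem_univ u)).trans x.2.1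

lemma exists_other (x : Pt G n) {u : V} (h : x.1 u ≠ n) : ∃ w, w ≠ u ∧ x.1 w ≠ 0 := by
  by_contra h'
  push Not at h'
  have := sum_split x u
  rw [Finset.sum_eq_zero fun v hv => h' v (Finset.ne_of_mem_erase hv)] at this
  exact h this

lemma two_le (x : Pt G n) {u w w' : V} (h1 : w ≠ u) (h2 : w' ≠ u) (h3 : w ≠ w') :
    x.1 u + x.1 w + x.1 w' ≤ n := by
  have h4 : ∑ v ∈ {u, w, w'}, x.1 v ≤ ∑ v, x.1 v :=
    Finset.sum_le_sum_of_subset (Finset.subset_univ _)
  rw [Finset.sum_insert (by simp [h1.symm, h2.symm]), Finset.sum_pair h3, x.2.1] at h4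
  omega

/-- all the mass at one vertex -/
def pu (n : ℕ) (u : V) : Pt G n := ⟨Pi.single u n, by simp, fun a b ha hb => by
  have h1 : a = u := by_contra fun h => ha (Pi.single_eq_of_ne h _)
  have h2 : b = u := by_contra fun h => hb (Pi.single_eq_of_ne h _)
  exact Or.inl (h1.trans h2.symm)⟩

lemma eq_pu {x : Pt G n} {u : V} (h : x.1 u = n) : x = pu n u := by
  refine Subtype.ext (funext fun v => ?_)
  by_cases hv : v = u
  · rw [hv, h]
    exact (Pi.single_eq_same (M := fun _ => ℕ) u n).symm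
  · have h1 := sum_split x u
    have h2 := Finset.single_le_sum (f := x.1) (fun _ _ => Nat.zero_le _)
      (Finset.mem_erase.2 ⟨hv, Finset.mem_univ v⟩)
    have h3 : (pu (G := G) n u).1 v = 0 := Pi.single_eq_of_ne (M := fun _ => ℕ) hv n
    omega

/-- the star of a vertex -/
def St (u : V) (x : Pt G n) : Prop := ∀ w, x.1 w ≠ 0 → AE G w u

lemma St.of_arr {u : V} {x y : Pt G n} {σ : Lb G} (hx : St u x) (h : arr G n x σ y)
    (hu : AE G σ.1.2 u) : St u y := fun w hw => by
  rcases arr_supp h hw with h1 | rfl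
  exacts [hx w h1, hu]

lemma st_pu {u v : V} (h : AE G u v) : St v (pu (G := G) n u) := fun w hw => by
  have h1 : w = u := by_contra fun h => hw (Pi.single_eq_of_ne (M := fun _ => ℕ) h n)
  rwa [h1]

open Classical in
/-- the potential on the star, by recursion -/
noncomputable def pot (z : Pt G n → Lb G → ℝ) (u : V) : ℕ → Pt G n → ℝ
  | 0, _ => 0
  | k + 1, x => if h : ∃ q : Lb G × Pt G n, arr G n x q.1 q.2 ∧ q.1.1.2 = u then
      pot z u k h.choose.2 - z x h.choose.1 else 0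

variable {z : Pt G n → Lb G → ℝ}
  (h2 : ∀ x σ y τ, arr G n x σ y → arr G n y τ x → z x σ + z y τ = 0)
  (h3 : ∀ x σ y τ w υ, arr G n x σ y → arr G n y τ w → arr G n w υ x →
    z x σ + z y τ + z w υ = 0)
  (h4 : ∀ x σ y τ w υ t χ, arr G n x σ y → arr G n y τ w → arr G n w υ t → arr G n t χ x →
    z x σ + z y τ + z w υ + z t χ = 0)

include h2 h4 in
lemma pot_succ (u : V) (k : ℕ) : ∀ (x y : Pt G n) (σ : Lb G), x.1 u + (k + 1) = n →
    arr G n x σ y → σ.1.2 = u → pot z u (k + 1) x = pot z u k y - z x σ := by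
  induction k using Nat.strong_induction_on with
  | _ k ih =>
  intro x y σ hx h hσ
  have hex : ∃ q : Lb G × Pt G n, arr G n x q.1 q.2 ∧ q.1.1.2 = u := ⟨(σ, y), h, hσ⟩
  rw [pot, dif_pos hex]
  obtain ⟨h', hσ'⟩ := hex.choose_spec
  generalize hex.choose.1 = σ' at h' hσ'
  generalize hex.choose.2 = y' at h'
  obtain ⟨⟨w, u₁⟩, hw⟩ := σ
  obtain ⟨⟨w', u₂⟩, hw'⟩ := σ'
  obtain rfl : u = u₁ := hσ.symm
  obtain rfl : u = u₂ := hσ'.symm
  by_cases hww : w = w'
  · subst hww
    rw [arr_unique h h']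
  have e1 := arr_fst h
  have e1' := arr_fst h'
  have e2 := arr_snd h
  have e2' := arr_snd h'
  have e3 := arr_other h (v := w') (Ne.symm hww) hw'.ne
  have e4 := two_le x hw.ne hw'.ne hww
  dsimp only at e1 e1' e2 e2' e4
  obtain ⟨k, rfl⟩ : ∃ j, k = j + 1 := ⟨k - 1, by omega⟩
  obtain ⟨t, ht⟩ := exists_arr y (a := w') (b := u) hw' (by omega) (St.of_arr h.2 h (Or.inl rfl))
  have ht' : arr G n y' ⟨(w, u), hw⟩ t := by
    refine ⟨funext fun v => ?_, St.of_arr h'.2 h' (Or.inl rfl)⟩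
    have a1 := arr_apply h v
    have a2 := arr_apply h' v
    have a3 := arr_apply ht v
    simp only [Pi.add_apply, Pi.single_apply] at a1 a2 a3 ⊢
    omega
  rw [ih k k.lt_succ_self y t _ (by omega) ht rfl, ih k k.lt_succ_self y' t _ (by omega) ht' rfl]
  have b1 := h4 _ _ _ _ _ _ _ _ h ht (arr_symm ht') (arr_symm h')
  have b2 := h2 _ _ _ _ ht' (arr_symm ht')
  have b3 := h2 _ _ _ _ h' (arr_symm h')
  linarith

/-- the potential on the star -/
noncomputable def psi (z : Pt G n → Lb G → ℝ) (u : V) (x : Pt G n) : ℝ := pot z u (n - x.1 u) x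

include h2 h4 in
lemma psi_to {x y : Pt G n} {σ : Lb G} (h : arr G n x σ y) :
    z x σ = psi z σ.1.2 y - psi z σ.1.2 x := by
  have e2 := arr_snd h
  have e3 := sum_split y σ.1.2
  have e4 : n - x.1 σ.1.2 = n - y.1 σ.1.2 + 1 := by omega
  rw [psi, psi, e4, pot_succ h2 h4 σ.1.2 _ x y σ (by omega) h rfl]
  ring

include h2 h3 h4 in
lemma psi_edge {u : V} {x y : Pt G n} {σ : Lb G} (h : arr G n x σ y) (hx : St u x)
    (hb : AE G σ.1.2 u) : z x σ = psi z u y - psi z u x := by
  by_cases h1 : σ.1.2 = u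
  · rw [← h1]
    exact psi_to h2 h4 h
  by_cases h0 : σ.1.1 = u
  · have b1 := psi_to h2 h4 (arr_symm h)
    have b2 := h2 _ _ _ _ h (arr_symm h)
    rw [← h0]
    linarith
  have e1 := arr_fst h
  have e2 := arr_snd h
  have ha : G.Adj σ.1.1 u := AE_adj (hx _ (by omega)) h0
  obtain ⟨t, ht⟩ := exists_arr x ha (by omega) hx
  have ht' : arr G n y ⟨(σ.1.2, u), AE_adj hb h1⟩ t := by
    refine ⟨funext fun v => ?_, St.of_arr hx h hb⟩
    have a1 := arr_apply h v
    have a3 := arr_apply ht v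
    simp only [Pi.add_apply, Pi.single_apply] at a1 a3 ⊢
    omega
  have b1 := psi_to h2 h4 ht
  have b2 := psi_to h2 h4 ht'
  have b3 := h3 _ _ _ _ _ _ h ht' (arr_symm ht)
  have b4 := h2 _ _ _ _ ht (arr_symm ht)
  dsimp only at b1 b2
  linarith

include h2 h3 h4 in
lemma psi_sub {u v : V} (huv : AE G u v) (k : ℕ) : ∀ x : Pt G n, x.1 u + k = n → St u x → St v x →
    psi z u x - psi z v x = psi z u (pu n u) - psi z v (pu n u) := by
  induction k with
  | zero => exact fun x hx _ _ => by rw [← eq_pu hx]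
  | succ k ih =>
    intro x hx hu hv
    obtain ⟨w, hw, hw0⟩ := exists_other x (u := u) (by omega)
    obtain ⟨y, hy⟩ := exists_arr x (AE_adj (hu w hw0) hw) hw0 hu
    have e2 := arr_snd hy
    dsimp only at e2
    rw [← ih y (by omega) (hu.of_arr hy (Or.inl rfl)) (hv.of_arr hy huv)]
    have b1 := psi_edge h2 h3 h4 hy hu (Or.inl rfl)
    have b2 := psi_edge h2 h3 h4 hy hv huv
    linarith

end ScalH1

open ScalH1

theorem pt_h1 (hG : H1 G) {n : ℕ} (hn : 0 < n) (z : Pt G n → Lb G → ℝ)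
    (h2 : ∀ x σ y τ, arr G n x σ y → arr G n y τ x → z x σ + z y τ = 0)
    (h3 : ∀ x σ y τ w υ, arr G n x σ y → arr G n y τ w → arr G n w υ x →
      z x σ + z y τ + z w υ = 0)
    (h4 : ∀ x σ y τ w υ t χ, arr G n x σ y → arr G n y τ w → arr G n w υ t → arr G n t χ x →
      z x σ + z y τ + z w υ + z t χ = 0) :
    ∃ ψ : Pt G n → ℝ, ∀ x σ y, arr G n x σ y → z x σ = ψ y - ψ x := by
  have key : ∀ {u v : V}, AE G u v → ∀ x : Pt G n, St u x → St v x →
      psi z u x - psi z v x = psi z u (pu n u) - psi z v (pu n u) := fun {u v} huv x hu hv =>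
    psi_sub h2 h3 h4 huv _ x (sum_split x u) hu hv
  obtain ⟨k, hk⟩ := hG (fun u v => psi z u (pu n u) - psi z v (pu n u)) fun u v w huv hvw huw => by
    rw [← key hvw (pu n u) (st_pu huv) (st_pu huw)]
    ring
  have hs : ∀ x : Pt G n, ∃ u, x.1 u ≠ 0 := fun x => by
    by_contra h
    push Not at h
    have := x.2.1
    rw [Finset.sum_eq_zero fun v _ => h v] at this
    omega
  choose s hs using hs
  have h5 : ∀ (x : Pt G n) (b : V), St b x → psi z (s x) x + k (s x) = psi z b x + k b := by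
    intro x b hb
    have b1 := key (hb _ (hs x)) x (fun w hw => x.2.2 _ _ hw (hs x)) hb
    have b2 := hk _ _ (hb _ (hs x))
    linarith
  refine ⟨fun x => psi z (s x) x + k (s x), fun x σ y h => ?_⟩
  dsimp only
  rw [h5 x σ.1.2 h.2, h5 y σ.1.2 (St.of_arr h.2 h (Or.inl rfl)), psi_to h2 h4 h]
  ring

theorem pt_walk {n : ℕ} (x y : Pt G n) {u : V} (hx : x.1 u ≠ 0) (hy : y.1 u ≠ 0) :
    ∃ ω : List (Lb G), ω.length ≤ dist1 G x y ∧ Walk (arr G n) x ω y := by
  have key : ∀ k, ∀ x : Pt G n, x.1 u ≠ 0 →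
      ∑ v ∈ Finset.univ.erase u, ((x.1 v : ℤ) - y.1 v).natAbs = k →
      ∃ ω : List (Lb G), ω.length ≤ k ∧ Walk (arr G n) x ω y := by
    intro k
    induction k using Nat.strong_induction_on with
    | _ k ih =>
    intro x hx hk
    have step : ∀ (a : V) (x' : Pt G n) (σ : Lb G), a ≠ u → arr G n x σ x' → x'.1 u ≠ 0 →
        (∀ v, v ≠ u → v ≠ a → x'.1 v = x.1 v) →
        ((x'.1 a : ℤ) - y.1 a).natAbs < ((x.1 a : ℤ) - y.1 a).natAbs →
        ∃ ω : List (Lb G), ω.length ≤ k ∧ Walk (arr G n) x ω y := by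
      intro a x' σ ha h hx' h1 h2
      have h3 : ∑ v ∈ Finset.univ.erase u, ((x'.1 v : ℤ) - y.1 v).natAbs < k := by
        rw [← hk]
        refine Finset.sum_lt_sum (fun v hv => ?_) ⟨a, Finset.mem_erase.2 ⟨ha, Finset.mem_univ a⟩, h2⟩
        by_cases hva : v = a
        · rw [hva]
          exact h2.le
        · rw [h1 v (Finset.ne_of_mem_erase hv) hva]
      obtain ⟨ω, hω, hw⟩ := ih _ h3 x' hx' rfl
      exact ⟨σ :: ω, by rw [List.length_cons]; omega, Walk.cons h hw⟩
    by_cases h1 : ∃ a, a ≠ u ∧ y.1 a < x.1 a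
    · obtain ⟨a, ha, h1⟩ := h1
      obtain ⟨x', h⟩ := exists_arr x (AE_adj (x.2.2 a u (by omega) hx) ha) (by omega)
        fun w hw => x.2.2 w u hw hx
      have e1 := arr_fst h
      have e2 := arr_snd h
      dsimp only at e1 e2
      exact step a x' _ ha h (by omega) (fun v hv hv' => arr_other h hv' hv) (by omega)
    push Not at h1
    have s1 := sum_split x u
    have s2 := sum_split y u
    by_cases h2 : ∃ b, b ≠ u ∧ x.1 b < y.1 b
    · obtain ⟨b, hb, h2⟩ := h2
      have s3 : ∑ v ∈ Finset.univ.erase u, x.1 v < ∑ v ∈ Finset.univ.erase u, y.1 v :=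
        Finset.sum_lt_sum (fun v hv => h1 v (Finset.ne_of_mem_erase hv))
          ⟨b, Finset.mem_erase.2 ⟨hb, Finset.mem_univ b⟩, h2⟩
      obtain ⟨x', h⟩ := exists_arr x (AE_adj (y.2.2 u b hy (by omega)) hb.symm) hx fun w hw => by
        by_cases hwu : w = u
        · rw [hwu]
          exact y.2.2 u b hy (by omega)
        · have := h1 w hwu
          exact y.2.2 w b (by omega) (by omega)
      have e1 := arr_fst h
      have e2 := arr_snd h
      dsimp only at e1 e2
      exact step b x' _ hb h (by omega) (fun v hv hv' => arr_other h hv hv') (by omega)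
    push Not at h2
    have h3 : ∀ v, v ≠ u → x.1 v = y.1 v := fun v hv => le_antisymm (h1 v hv) (h2 v hv)
    have s3 : ∑ v ∈ Finset.univ.erase u, x.1 v = ∑ v ∈ Finset.univ.erase u, y.1 v :=
      Finset.sum_congr rfl fun v hv => h3 v (Finset.ne_of_mem_erase hv)
    have h4 : x = y := Subtype.ext (funext fun v => by
      by_cases hv : v = u
      · rw [hv]
        omega
      · exact h3 v hv)
    rw [h4]
    exact ⟨[], Nat.zero_le _, Walk.nil y⟩
  obtain ⟨ω, hω, hw⟩ := key _ x hx rfl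
  exact ⟨ω, hω.trans (Finset.sum_le_sum_of_subset (Finset.erase_subset _ _)), hw⟩

theorem pt_finite (n : ℕ) : Finite (Pt G n) := by
  refine Finite.of_injective (fun (x : Pt G n) (v : V) => (⟨x.1 v, ?_⟩ : Fin (n + 1))) ?_
  · have := sum_split x v
    omega
  · exact fun x y h => Subtype.ext (funext fun v => congrArg Fin.val (congrFun h v))

end Vale.Agent.P173
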