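import Vale.Agent.P173.DefsL

/-! The top differential splits over the Bestvina-Brady group. -/

namespace Vale.Agent.P173

open MonoidAlgebra

theorem spl_family {R M N : Type} [Ring R] [AddCommGroup M] [AddCommGroup N] [Module R M]
    [Module R N] {p q : M →ₗ[R] N} {a b : N →ₗ[R] M} (ha : ∀ t, a (p t) = t)
    (hb : ∀ t, b (q t) = t) : ∃ S : ℤ → N →ₗ[R] M, ∀ j t, S (j + 1) (p t) - S j (q t) = t := by
  let U : ℕ → N →ₗ[R] M := fun n => Nat.rec 0 (fun _ X => a + X ∘ₗ q ∘ₗ a) n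
  let W : ℕ → N →ₗ[R] M := fun n => Nat.rec 0 (fun _ X => X ∘ₗ p ∘ₗ b - b) n
  refine ⟨fun j => if 0 ≤ j then U j.toNat else W (-j).toNat, fun j t => ?_⟩
  rcases le_or_gt 0 j with h | h
  · obtain ⟨n, rfl⟩ := Int.eq_ofNat_of_zero_le h
    have h1 : ((n : ℤ) + 1).toNat = n + 1 := by omega
    simp only [h, show (0 : ℤ) ≤ n + 1 by omega, if_true, h1, Int.toNat_natCast]
    simp [U, ha]
  · obtain ⟨n, rfl⟩ : ∃ n : ℕ, j = -((n : ℤ) + 1) := ⟨(-j - 1).toNat, by omega⟩
    have h1 : (- -((n : ℤ) + 1)).toNat = n + 1 := by omega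
    have h2 : (if 0 ≤ -((n : ℤ) + 1) + 1 then U (-((n : ℤ) + 1) + 1).toNat
        else W (-(-((n : ℤ) + 1) + 1)).toNat) = W n := by
      split_ifs with h3
      · obtain rfl : n = 0 := by omega
        rfl
      · congr 1; omega
    simp only [h2, h.not_ge, if_false, h1]
    simp [W, hb]

theorem spl_ind {ι A : Type} [Fintype ι] [DecidableEq ι] [Group A]
    {P : (ι → MonoidAlgebra ℤ A) → Prop} (h0 : P 0)
    (h1 : ∀ i g, P (Pi.single i (of ℤ A g))) (h2 : ∀ x y, P x → P y → P (x + y))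
    (h3 : ∀ (n : ℤ) x, P x → P (n • x)) (c : ι → MonoidAlgebra ℤ A) : P c := by
  induction c using Pi.single_induction with
  | zero => exact h0
  | add x y hx hy => exact h2 x y hx hy
  | single i x =>
    induction x using MonoidAlgebra.induction_on with
    | of g => exact h1 i g
    | add x y hx hy => rw [Pi.single_add]; exact h2 _ _ hx hy
    | smul n x hx => rw [Pi.single_smul]; exact h3 n _ hx

variable {V : Type} [LinearOrder V] [Fintype V] {G : SimpleGraph V}

/-- twisted simplicial boundary -/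
noncomputable def splD (a b c : Tr G → RA G) : (Tr G → RR G) →ₗ[RR G] (Ed G → RR G) :=
  Fintype.linearCombination (RR G) fun τ =>
    (Pi.single (f0 τ) (of ℤ _ (a τ)) - Pi.single (f1 τ) (of ℤ _ (b τ)) +
      Pi.single (f2 τ) (of ℤ _ (c τ)) : Ed G → RR G)

theorem splD_single (a b c : Tr G → RA G) (τ : Tr G) (g : RA G) :
    splD a b c (Pi.single τ (of ℤ _ g)) = Pi.single (f0 τ) (of ℤ _ (g * a τ)) -
      Pi.single (f1 τ) (of ℤ _ (g * b τ)) + Pi.single (f2 τ) (of ℤ _ (g * c τ)) := by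
  simp only [splD, Fintype.linearCombination_apply_single, smul_add, smul_sub, ← Pi.single_smul',
    smul_eq_mul, map_mul]

theorem splD_inv (h : Split G) {a b c q : Tr G → RA G} {p : Ed G → RA G}
    (ha : ∀ τ, a τ * p (f0 τ) = q τ) (hb : ∀ τ, b τ * p (f1 τ) = q τ)
    (hc : ∀ τ, c τ * p (f2 τ) = q τ) :
    ∃ L : (Ed G → RR G) →ₗ[RR G] (Tr G → RR G), ∀ t, L (splD a b c t) = t := by
  obtain ⟨s, hs⟩ := h
  refine ⟨Fintype.linearCombination (RR G) fun e τ' => s e τ' • of ℤ _ (p e * (q τ')⁻¹),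
    spl_ind (by simp) (fun τ g => ?_) (fun x y hx hy => by rw [map_add, map_add, hx, hy])
    fun n x hx => by rw [map_zsmul, map_zsmul, hx]⟩
  funext τ'
  simp only [splD_single, map_add, map_sub, Fintype.linearCombination_apply_single, Pi.add_apply,
    Pi.sub_apply, Pi.smul_apply, smul_eq_mul, mul_smul_comm, ← map_mul, mul_assoc]
  simp only [← mul_assoc (a τ), ← mul_assoc (b τ), ← mul_assoc (c τ), ha, hb, hc]
  rw [← sub_smul, ← add_smul, hs]
  split_ifs with e
  · subst e; simp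
  · simp [Ne.symm e]

omit [LinearOrder V] [Fintype V] in
theorem spl_comm {u v : V} (h : G.Adj u v) : ga G u * ga G v = ga G v * ga G u := by
  have := PresentedGroup.one_of_mem (rels := {r : FreeGroup V | ∃ u v, G.Adj u v ∧
    r = FreeGroup.of u * FreeGroup.of v * (FreeGroup.of u)⁻¹ * (FreeGroup.of v)⁻¹})
    ⟨u, v, h, rfl⟩
  simp only [map_mul, map_inv] at this
  exact mul_inv_eq_iff_eq_mul.1 (mul_inv_eq_one.1 this)

omit [LinearOrder V] [Fintype V] in
theorem spl_ht (g : RA G) (v : V) : (ht G (g * ga G v)).toAdd = (ht G g).toAdd + 1 := by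
  simp [ht, ga]

theorem spl3 (h : Split G) : Spl3 G := by
  obtain ⟨a, ha⟩ := splD_inv h (a := fun τ => ga G τ.1.1) (b := fun τ => ga G τ.1.2.1)
    (c := fun τ => ga G τ.1.2.2) (p := fun e => ga G e.1.1 * ga G e.1.2)
    (q := fun τ => ga G τ.1.1 * (ga G τ.1.2.1 * ga G τ.1.2.2)) (fun _ => rfl)
    (fun τ => by simp only [f1, ← mul_assoc, spl_comm τ.2.2.2.1])
    (fun τ => by
      simp only [f2]
      rw [← mul_assoc, ← spl_comm τ.2.2.2.2.2, mul_assoc, spl_comm τ.2.2.2.2.1])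
  obtain ⟨b, hb⟩ := splD_inv h (a := 1) (b := 1) (c := 1) (p := 1) (q := 1) (fun _ => mul_one _)
    (fun _ => mul_one _) (fun _ => mul_one _)
  obtain ⟨S, hS⟩ := spl_family ha hb
  let Λ : Ed G → RR G →ₗ[ℤ] (Tr G → RR G) := fun e =>
    (basis (RA G) ℤ).constr ℤ fun g => S (ht G g).toAdd (Pi.single e (of ℤ _ g))
  let σ : (Ed G → RR G) →ₗ[ℤ] (Tr G → RR G) := LinearMap.lsum ℤ _ ℤ Λ
  have hσ : ∀ e g, σ (Pi.single e (of ℤ _ g)) = S (ht G g).toAdd (Pi.single e (of ℤ _ g)) := by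
    intro e g
    rw [LinearMap.lsum_piSingle]
    exact (basis (RA G) ℤ).constr_basis ℤ _ g
  refine ⟨σ.toAddMonoidHom, fun k => spl_ind (by simp) (fun e g => ?_)
    (fun x y hx hy => by rw [smul_add, map_add, map_add, hx, hy, smul_add])
    fun n x hx => by rw [smul_comm, map_zsmul, map_zsmul, hx, smul_comm],
    spl_ind (by simp) (fun τ g => ?_) (fun x y hx hy => by rw [map_add, map_add, hx, hy])
    fun n x hx => by rw [map_zsmul, map_zsmul, hx]⟩
  · have h1 : ht G (k.1 * g) = ht G g := by rw [map_mul, MonoidHom.mem_ker.1 k.2, one_mul]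
    change σ _ = _ • σ _
    rw [hσ, ← map_smul, ← Pi.single_smul', smul_eq_mul, ← map_mul, hσ, h1]
  · have h1 : d3 G (Pi.single τ (of ℤ _ g)) = splD (fun τ => ga G τ.1.1) (fun τ => ga G τ.1.2.1)
        (fun τ => ga G τ.1.2.2) (Pi.single τ (of ℤ _ g)) - splD 1 1 1 (Pi.single τ (of ℤ _ g)) := by
      simp only [d3, splD, Fintype.linearCombination_apply_single, am, ← smul_sub, Pi.one_apply,
        map_one, Pi.single_sub]
      congr 1; abel
    change σ _ = _
    rw [h1, map_sub]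
    refine Eq.trans ?_ (hS (ht G g).toAdd (Pi.single τ (of ℤ _ g)))
    simp only [splD_single, map_add, map_sub, hσ, spl_ht, Pi.one_apply, mul_one]

end Vale.Agent.P173
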