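import Vale.Agent.P173.Retr

/-! Boundary words: covariance, equivariance, connectivity. -/

namespace Vale.Agent.P173

open Topology Filter

universe u

variable {X : Type*} [TopologicalSpace X] {V E F : Type u} {pt : V → X} {ed : E → ℝ → X}
  {fc : F → ℂ → X} {src tgt : E → V}

theorem Cell2.eventually_loop (h : Cell2 pt ed fc src tgt) {Z : Type*} {f : X → Z} {W : Set X}
    (hW : ∀ e, IsOpen (ed e ⁻¹' W))
    (hf : ∀ e s, ed e s ∈ W → ∀ᶠ s' in 𝓝 s, f (ed e s') = f (ed e s)) (φ : F) {θ : ℝ}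
    (hθ : loop fc φ θ ∈ thick fc W) : ∀ᶠ t in 𝓝 θ, f (loop fc φ t) = f (loop fc φ θ) := by
  filter_upwards [((h.loop_cont φ).tendsto θ).eventually (h.eventually_thick hW hf hθ)] with t ht
  rwa [h.ret_of_mem (h.loop_mem φ t), h.ret_of_mem (h.loop_mem φ θ)] at ht

omit [TopologicalSpace X] in
theorem loop_two_pi (φ : F) : loop fc φ (2 * Real.pi) = loop fc φ 0 := by
  simp [loop, Complex.exp_two_pi_mul_I]

theorem Cell2.isBd_cov (h : Cell2 pt ed fc src tgt) {φ : F} {w : FreeGroup E}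
    (hw : IsBd pt ed fc φ w) : ∃ y, Cov src tgt w y y := by
  let G := FreeGroup (E ⊕ V)
  let a : E → G := fun e => FreeGroup.of (Sum.inl e)
  let g : V → G := fun v => FreeGroup.of (Sum.inr v)
  let a' : E → G := fun e => (g (src e))⁻¹ * a e * g (tgt e)
  obtain ⟨η, l1, l2, l3⟩ := h.isBd_lift hw a
  obtain ⟨η', m1, m2, m3⟩ := h.isBd_lift hw a'
  let b : X → G := glue pt ed g (fun e s => if s < 1 then g (src e) else g (tgt e)) 1
  let n : X → G := glue pt ed g (fun e s => if 0 < s then g (tgt e) else g (src e)) 1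
  have hb : ∀ e s, b (ed e s) = if s < 1 then g (src e) else g (tgt e) :=
    h.glue_ed _ (fun _ _ hs => if_pos (by linarith)) fun _ _ hs => if_neg hs.not_gt
  have hn : ∀ e s, n (ed e s) = if 0 < s then g (tgt e) else g (src e) :=
    h.glue_ed _ (fun _ _ hs => if_neg (by linarith)) fun _ _ hs => if_pos (by linarith)
  have key : ∀ x ∈ sk1 pt ed, b x * tau pt ed a' x = tau pt ed a x * n x := fun x hx => by
    rcases h.mem_sk1.1 hx with ⟨v, rfl⟩ | ⟨e, s, hs, rfl⟩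
    · simp only [b, n, h.tau_pt, h.glue_pt, mul_one, one_mul]
    · have := (abs_lt.1 hs).2
      by_cases c : 0 < s
      · simp only [hb, hn, h.tau_ed, this, c, a', mul_assoc, and_self, if_true]
        exact mul_inv_cancel_left _ _
      · simp only [hb, hn, h.tau_ed, this, c, false_and, if_true, if_false, mul_one, one_mul]
  have l4 : IsLift (sU ed fc) (sT pt ed fc a') (loop fc φ) fun θ => η θ * b (loop fc φ θ) := by
    intro i θ hθ
    cases i
    · filter_upwards [l1 _ θ hθ, h.eventually_loop (f := b) h.isOpen_Uo (fun e s hs => by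
        have a1 := (abs_lt.1 ((h.ed_mem_Uo e s).1 hs)).2
        filter_upwards [gt_mem_nhds a1] with s' c
        simp only [hb, a1, c]) φ hθ] with t c1 c2
      simp only [sT, mul_one] at c1 ⊢
      rw [c1, c2]
    · filter_upwards [l1 _ θ hθ, h.eventually_loop (f := n) h.isOpen_Us (fun e s hs => by
        filter_upwards [Cell2.eventually_pos_iff ((h.ed_mem_Us e s).1 hs)] with s' c
        simp only [hn, c]) φ hθ] with t c1 c2
      simp only [sT, h.ret_of_mem (h.loop_mem φ _)] at c1 ⊢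
      rw [mul_assoc, mul_assoc, key _ (h.loop_mem φ _), key _ (h.loop_mem φ _), ← mul_assoc,
        ← mul_assoc, c1, c2]
  have l5 := congrFun (IsLift.unique (fun θ => h.exists_mem_sU (h.not_mem_cen (h.loop_mem φ θ))) m1
    (l4.mul_left (b (loop fc φ 0))⁻¹) (a₀ := 0) (by rw [m2, l2, one_mul, inv_mul_cancel])) (2 * Real.pi)
  obtain ⟨y, hy⟩ : ∃ y, b (loop fc φ 0) = g y := by
    rcases h.mem_sk1.1 (h.loop_mem φ 0) with ⟨v, e⟩ | ⟨e, s, hs, e'⟩
    · exact ⟨v, by rw [e]; exact h.glue_pt ..⟩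
    · exact ⟨src e, by rw [e', hb, if_pos (abs_lt.1 hs).2]⟩
  rw [m3, l3, loop_two_pi, hy, ← mul_assoc] at l5
  refine ⟨y, l5.trans ?_⟩
  rw [FreeGroup.map_eq_lift]
  rfl

theorem Cell2.isBd_smul (h : Cell2 pt ed fc src tgt) {H : Type} [Group H] [MulAction H X]
    [MulAction H V] [MulAction H E] [MulAction H F] (hH : CellAct H pt ed fc) {φ : F}
    {w : FreeGroup E} (hw : IsBd pt ed fc φ w) (g : H) :
    IsBd pt ed fc (g • φ) (FreeGroup.map (fun e => g • e) w) := by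
  obtain ⟨η, l1, l2, l3⟩ := h.isBd_lift hw fun e => FreeGroup.of (g • e)
  refine ⟨η, fun i θ hθ => ?_, l2, l3.trans (by rw [FreeGroup.map_eq_lift]; rfl)⟩
  have e1 : ∀ θ, loop fc (g • φ) θ = g • loop fc φ θ := fun θ => hH.fc_smul ..
  have k1 : ∀ x ∈ sk1 pt ed, (g • x ∈ Uo ed → x ∈ Uo ed) ∧ (g • x ∈ Us ed → x ∈ Us ed) ∧
      tau pt ed FreeGroup.of (g • x) = tau pt ed (fun e => FreeGroup.of (g • e)) x := fun x hx => by
    rcases h.mem_sk1.1 hx with ⟨v, rfl⟩ | ⟨e, s, hs, rfl⟩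
    · rw [← hH.pt_smul, h.tau_pt, h.tau_pt]
      exact ⟨fun c => (h.pt_not_mem_Uo _ c).elim, fun _ => h.pt_mem_Us _, rfl⟩
    · rw [← hH.ed_smul, h.tau_ed, h.tau_ed, h.ed_mem_Uo, h.ed_mem_Uo, h.ed_mem_Us, h.ed_mem_Us]
      exact ⟨id, id, rfl⟩
  have k2 : ∀ t, sT pt ed fc FreeGroup.of i (loop fc (g • φ) t) =
      sT pt ed fc (fun e => FreeGroup.of (g • e)) i (loop fc φ t) := fun t => by
    cases i
    · rfl
    · simp only [sT, h.ret_of_mem (h.loop_mem _ _)]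
      rw [e1, (k1 _ (h.loop_mem φ t)).2.2]
  simp only [k2]
  refine l1 i θ ?_
  cases i
  · have := (h.mem_thick (h.loop_mem _ _)).1 hθ
    rw [e1] at this
    exact (h.mem_thick (h.loop_mem _ _)).2 ((k1 _ (h.loop_mem φ θ)).1 this)
  · have := (h.mem_thick (h.loop_mem _ _)).1 hθ
    rw [e1] at this
    exact (h.mem_thick (h.loop_mem _ _)).2 ((k1 _ (h.loop_mem φ θ)).2.1 this)

theorem Cell2.conn (h : Cell2 pt ed fc src tgt) [PreconnectedSpace X] (P : V → Prop)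
    (hP : ∀ e, P (src e) ↔ P (tgt e)) (y y' : V) (hy : P y) : P y' := by
  let q : X → Prop := glue pt ed P (fun e _ => P (src e)) False
  have q1 : ∀ v, q (pt v) = P v := h.glue_pt _ _ _
  have q2 : ∀ e s, q (ed e s) = P (src e) :=
    h.glue_ed (fE := fun e _ => P (src e)) _ (fun _ _ _ => rfl) fun e _ _ => propext (hP e)
  have q3 : ∀ φ θ, q (loop fc φ θ) = q (fc φ 1) := fun φ θ => by
    have : IsLocallyConstant fun θ => q (loop fc φ θ) :=
      (IsLocallyConstant.iff_eventually_eq _).2 fun θ => h.eventually_loop (W := Set.univ)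
        (fun _ => isOpen_univ) (fun e s _ => .of_forall fun s' => by rw [q2, q2]) φ
        ((h.mem_thick (h.loop_mem φ θ)).2 trivial)
    simpa [loop] using this.apply_eq_of_preconnectedSpace θ 0
  let Q : X → Prop := fun x =>
    (x ∈ sk1 pt ed ∧ q x) ∨ ∃ φ z, ‖z‖ < 1 ∧ x = fc φ z ∧ q (fc φ 1)
  have Q1 : ∀ x ∈ sk1 pt ed, Q x ↔ q x := fun x hx =>
    ⟨fun c => c.elim (·.2) fun ⟨φ, z, c1, c2, _⟩ => (h.fc_sk φ z c1 (c2 ▸ hx)).elim,
      fun c => .inl ⟨hx, c⟩⟩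
  have Q2 : ∀ e s, Q (ed e s) ↔ P (src e) := fun e s => by rw [Q1 _ (Cell2.ed_mem_sk1 e s), q2]
  have Q3 : ∀ φ z, Q (fc φ z) ↔ q (fc φ 1) := fun φ z => by
    by_cases c : ‖z‖ < 1
    · refine ⟨fun d => d.elim (fun d => (h.fc_sk φ z c d.1).elim) fun ⟨ψ, w, c1, c2, c3⟩ => ?_,
        fun d => .inr ⟨φ, z, c, rfl, d⟩⟩
      rwa [(h.fc_inj _ _ _ _ c c1 c2).1]
    · rw [Q1 _ (h.fc_out φ z (not_lt.1 c)), ← q3 φ z.arg, loop,
        ← h.fc_rad φ _ ‖z‖ (Complex.norm_exp_ofReal_mul_I _).ge (not_lt.1 c),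
        Complex.norm_mul_exp_arg_mul_I]
  have op : ∀ R : Prop → Prop, IsOpen {x | R (Q x)} := fun R => h.weak2 _
    (fun e => by simp only [Set.preimage_setOf_eq, Q2]; exact isOpen_const)
    fun φ => by simp only [Set.preimage_setOf_eq, Q3]; exact isOpen_const
  have pm : ∀ v, pt v ∈ sk1 pt ed := fun v => .inl ⟨v, rfl⟩
  have := IsClopen.eq_univ ⟨⟨op Not⟩, op id⟩ ⟨pt y, (Q1 _ (pm y)).2 (q1 y ▸ hy)⟩
  rw [← q1, ← Q1 _ (pm y')]
  exact Set.eq_univ_iff_forall.1 this (pt y')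

theorem Cell2.nonempty (h : Cell2 pt ed fc src tgt) [Nonempty X] : Nonempty V := by
  obtain ⟨x⟩ := ‹Nonempty X›
  rcases h.cover x with ⟨v, -⟩ | ⟨e, -⟩ | ⟨φ, -⟩
  · exact ⟨v⟩
  · exact ⟨src e⟩
  · rcases h.mem_sk1.1 (h.loop_mem φ 0) with ⟨v, -⟩ | ⟨e, -⟩
    exacts [⟨v⟩, ⟨src e⟩]

end Vale.Agent.P173
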