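import Vale.Agent.P173.Retr

/-! Flat edge labellings on a simply connected complex are pure gauge. -/

namespace Vale.Agent.P173

open Topology Filter

variable {X : Type*} [TopologicalSpace X] {V E F : Type*} {pt : V → X} {ed : E → ℝ → X}
  {fc : F → ℂ → X} {src tgt : E → V}

theorem exp_arg_eq {z : ℂ} (hz : z ≠ 0) : Complex.exp (z.arg * Complex.I) = z / ‖z‖ := by
  rw [eq_div_iff (by exact_mod_cast norm_ne_zero_iff.2 hz), mul_comm,
    Complex.norm_mul_exp_arg_mul_I]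

theorem Cell2.lift_periodic (h : Cell2 pt ed fc src tgt) {G : Type*} [Group G] {a : E → G} {φ : F}
    {η : ℝ → G} (l : IsLift (sU ed fc) (sT pt ed fc a) (loop fc φ) η)
    (e : η (2 * Real.pi) = η 0) {s t : ℝ}
    (hst : Complex.exp (s * Complex.I) = Complex.exp (t * Complex.I)) : η s = η t := by
  have l2 := l.comp (m := fun θ : ℝ => θ + 2 * Real.pi) (by fun_prop)
  have e2 : (fun θ => loop fc φ (θ + 2 * Real.pi)) = loop fc φ := funext fun θ => by
    simp [loop, add_mul, Complex.exp_add, Complex.exp_two_pi_mul_I]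
  rw [e2] at l2
  have p : Function.Periodic η (2 * Real.pi) := congrFun (IsLift.unique
    (fun θ => h.exists_mem_sU (h.not_mem_cen (h.loop_mem φ θ))) l2 l (a₀ := 0) (by simpa using e))
  obtain ⟨n, hn⟩ := Complex.exp_eq_exp_iff_exists_int.1 hst
  have : s = t + n * (2 * Real.pi) := by
    have := congrArg Complex.im hn
    simpa using this
  rw [this, p.int_mul n]

theorem Cell2.sc (h : Cell2 pt ed fc src tgt) [SimplyConnectedSpace X] {bd : F → FreeGroup E}
    (hbd : ∀ φ, IsBd pt ed fc φ (bd φ)) {G : Type*} [Group G] (a : E → G)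
    (ha : ∀ φ, FreeGroup.lift a (bd φ) = 1) :
    ∃ g : V → G, ∀ e, a e = (g (src e))⁻¹ * g (tgt e) := by
  choose η l1 l2 l3 using fun φ => h.isBd_lift (hbd φ) a
  let j : {q : F × ℂ // ‖q.2‖ < 1} → X := fun q => fc q.1.1 q.1.2
  have hj : Function.Injective j := fun q q' e =>
    Subtype.ext (Prod.ext_iff.2 (h.fc_inj _ _ _ _ q.2 q'.2 e))
  let τD : X → G := Function.extend j (fun q => (η q.1.1 q.1.2.arg)⁻¹) 1
  have hτ : ∀ φ z, ‖z‖ < 1 → τD (fc φ z) = (η φ z.arg)⁻¹ := fun φ z hz =>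
    hj.extend_apply _ _ ⟨(φ, z), hz⟩
  let D : Set X := ⋃ φ, fc φ '' {z | ‖z‖ < 1}
  have hb : IsOpen {z : ℂ | ‖z‖ < 1} := isOpen_lt (by fun_prop) (by fun_prop)
  have key : ∀ i x, x ∈ D → x ∈ sU ed fc i → ∀ᶠ y in 𝓝 x,
      (τD y)⁻¹ * sT pt ed fc a i y = (τD x)⁻¹ * sT pt ed fc a i x := by
    intro i x hx hi
    obtain ⟨φ, z₀, hz, rfl⟩ := Set.mem_iUnion.1 hx
    have h0 : z₀ ≠ 0 := fun e => by
      cases i <;> exact hi.1 ((h.fc_mem_cen φ z₀).2 e)
    have r : ∀ (z : ℂ) (θ : ℝ), z ≠ 0 → Complex.exp (θ * Complex.I) = z / ‖z‖ →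
        ret fc (fc φ z) = ret fc (loop fc φ θ) := fun z θ hz e => by
      rw [h.ret_fc φ hz, h.ret_of_mem (h.loop_mem φ θ), loop, e]
    have t : ∀ (z : ℂ) (θ : ℝ), z ≠ 0 → Complex.exp (θ * Complex.I) = z / ‖z‖ →
        sT pt ed fc a i (fc φ z) = sT pt ed fc a i (loop fc φ θ) := fun z θ hz e => by
      cases i
      · rfl
      · simp only [sT, r z θ hz e]
    have m : loop fc φ z₀.arg ∈ sU ed fc i := by
      cases i <;> exact ⟨h.not_mem_cen (h.loop_mem _ _), by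
        rw [Set.mem_preimage, ← r z₀ _ h0 (exp_arg_eq h0)]; exact hi.2⟩
    have c : Tendsto (fun z => (z / z₀).arg + z₀.arg) (𝓝 z₀) (𝓝 z₀.arg) := by
      have c1 : ContinuousAt (fun z => (z / z₀).arg + z₀.arg) z₀ :=
        (ContinuousAt.comp (f := fun z => z / z₀) (Complex.continuousAt_arg (by
          simp [div_self h0])) (by fun_prop)).add continuousAt_const
      simpa [div_self h0] using c1.tendsto
    have ev : ∀ᶠ z in 𝓝 z₀, ‖z‖ < 1 ∧ (τD (fc φ z))⁻¹ * sT pt ed fc a i (fc φ z) =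
        (τD (fc φ z₀))⁻¹ * sT pt ed fc a i (fc φ z₀) := by
      filter_upwards [c.eventually (l1 φ i _ m), hb.mem_nhds hz, isOpen_ne.mem_nhds h0] with z e1 e2 e3
      have e4 : Complex.exp ((((z / z₀).arg + z₀.arg : ℝ) : ℂ) * Complex.I) = z / ‖z‖ := by
        have n0 : (‖z₀‖ : ℂ) ≠ 0 := by exact_mod_cast norm_ne_zero_iff.2 h0
        have n1 : (‖z‖ : ℂ) ≠ 0 := by exact_mod_cast norm_ne_zero_iff.2 e3
        rw [Complex.ofReal_add, add_mul, Complex.exp_add, exp_arg_eq (div_ne_zero e3 h0),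
          exp_arg_eq h0, norm_div, Complex.ofReal_div]
        field_simp
      refine ⟨e2, ?_⟩
      rw [hτ φ z e2, hτ φ z₀ hz, inv_inv, inv_inv, t z _ e3 e4, t z₀ _ h0 (exp_arg_eq h0), ← e1,
        h.lift_periodic (l1 φ) (by rw [l2, l3, ha]) ((exp_arg_eq e3).trans e4.symm)]
    obtain ⟨N, n1, n2, n3⟩ := eventually_nhds_iff.1 ev
    filter_upwards [(h.isOpen_fc_image φ n2 fun z hz => (n1 z hz).1).mem_nhds ⟨z₀, n3, rfl⟩]
    rintro _ ⟨z, hz, rfl⟩
    exact (n1 z hz).2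
  let U : Option Bool → Set X := fun o => o.elim D (sU ed fc)
  let τ : Option Bool → X → G := fun o => o.elim τD (sT pt ed fc a)
  have ls : LocSys U τ := by
    refine ⟨?_, ?_⟩
    · rintro (_ | i)
      · exact isOpen_iUnion fun φ => h.isOpen_fc_image φ hb fun _ => id
      · exact (h.locSys a).isOpen i
    · rintro (_ | i) (_ | j) x hi hj
      · simp
      · exact key j x hi hj
      · filter_upwards [key i x hj hi] with y hy
        simpa [τ] using congrArg Inv.inv hy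
      · exact (h.locSys a).compat i j x hi hj
  have := h.locPathConn
  obtain ⟨x₀⟩ : Nonempty X := inferInstance
  obtain ⟨ζ, hζ, -⟩ := ls.exists_lift continuous_id (fun x => by
    by_cases c : x ∈ cen fc
    · obtain ⟨φ, rfl⟩ := c
      exact ⟨none, Set.mem_iUnion.2 ⟨φ, 0, by simp, rfl⟩⟩
    · exact (h.exists_mem_sU c).elim fun b hb => ⟨some b, hb⟩) x₀ 1
  refine ⟨fun v => ζ (pt v), fun e => ?_⟩
  have k1 : IsLift (sU ed fc) (sT pt ed fc a) (ed e) fun s => ζ (ed e s) := fun i =>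
    hζ.comp (h.ed_cont e) (some i)
  have k2 := congrFun (IsLift.unique
    (fun s => h.exists_mem_sU (h.not_mem_cen (Cell2.ed_mem_sk1 e s))) k1
    ((h.isLift_ed a e).mul_left (ζ (pt (src e)))) (a₀ := -1)
    (by rw [h.ed_src e _ le_rfl, if_pos (by norm_num), mul_one])) 1
  rw [h.ed_tgt e _ le_rfl, if_neg (lt_irrefl _)] at k2
  beta_reduce
  rw [k2, inv_mul_cancel_left]

end Vale.Agent.P173
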