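import Vale.Agent.P173.ProjLift

/-! Vanishing of the second homology. -/

namespace Vale.Agent.P173

open Topology Filter

variable {X : Type*} [TopologicalSpace X] {V E F : Type*} {pt : V → X} {ed : E → ℝ → X}
  {fc : F → ℂ → X} {src tgt : E → V}

theorem exists_cont_log {A : Type*} [TopologicalSpace A] [SimplyConnectedSpace A]
    [LocallyPathConnectedSpace A] {f : A → ℂ} (hf : Continuous f) (h0 : ∀ a, f a ≠ 0) (a₀ : A) :
    ∃ L : A → ℂ, Continuous L ∧ L a₀ = Complex.log (f a₀) ∧ ∀ a, Complex.exp (L a) = f a := by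
  obtain ⟨L, h1, h2⟩ := (Complex.isCoveringMapOn_exp.existsUnique_continuousMap_lifts ⟨f, hf⟩
    (a₀ := a₀) (Complex.exp_log (h0 a₀)) h0).exists
  exact ⟨L, L.continuous, h1, congrFun h2⟩

theorem eventually_eq_of_exp {A : Type*} [TopologicalSpace A] {m : A → ℂ} {a : A}
    (hm : ContinuousAt m a) (h1 : ∀ b, Complex.exp (m b) = 1) : ∀ᶠ b in 𝓝 a, m b = m a := by
  filter_upwards [hm.tendsto.eventually (Metric.ball_mem_nhds (m a) Real.two_pi_pos)] with b hb
  obtain ⟨n, hn⟩ := Complex.exp_eq_exp_iff_exists_int.1 ((h1 b).trans (h1 a).symm)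
  rw [dist_eq_norm, hn, add_sub_cancel_left] at hb
  have : |n| < 1 := by
    have h2 : ‖(n : ℂ) * (2 * Real.pi * Complex.I)‖ = |(n : ℝ)| * (2 * Real.pi) := by
      simp [abs_of_pos Real.pi_pos]
    rw [h2, mul_lt_iff_lt_one_left Real.two_pi_pos] at hb
    exact_mod_cast hb
  rw [hn, Int.abs_lt_one_iff.1 this]
  simp

/-- Winding numbers along attaching loops are computed by an edge cochain. -/
theorem Cell2.exists_log_cochain (h : Cell2 pt ed fc src tgt) {u : X → ℂ} (hu : Continuous u)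
    (h0 : ∀ x ∈ sk1 pt ed, u x ≠ 0) : ∃ β : E → ℂ, ∀ φ w, IsBd pt ed fc φ w →
      ∀ l : ℝ → ℂ, Continuous l → (∀ θ, Complex.exp (l θ) = u (loop fc φ θ)) →
        pair β w = l (2 * Real.pi) - l 0 := by
  let c : ℝ → ℝ := fun s => max (-1) (min s 1)
  have c1 : ∀ s, s ≤ -1 → c s = -1 := fun s hs => max_eq_left ((min_le_left _ _).trans hs)
  have c2 : ∀ s, 1 ≤ s → c s = 1 := fun s hs => by
    simp only [c, min_eq_right hs]; norm_num
  have c3 : ∀ e s, ed e (c s) = ed e s := fun e s => by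
    rcases le_total s (-1) with a | a
    · rw [c1 s a, h.ed_src e _ le_rfl, h.ed_src e _ a]
    rcases le_total 1 s with b | b
    · rw [c2 s b, h.ed_tgt e _ le_rfl, h.ed_tgt e _ b]
    · simp only [c, min_eq_left b, max_eq_right a]
  choose L L1 L2 L3 using fun e => exists_cont_log (hu.comp (h.ed_cont e))
    (fun s => h0 _ (Cell2.ed_mem_sk1 e s)) (-1)
  have pm : ∀ v, u (pt v) ≠ 0 := fun v => h0 _ (.inl ⟨v, rfl⟩)
  let β : E → ℂ := fun e => L e 1 - Complex.log (u (pt (tgt e)))
  have hβ : ∀ e, Complex.exp (β e) = 1 := fun e => by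
    rw [Complex.exp_sub, L3, Complex.exp_log (pm _), Function.comp_apply, h.ed_tgt e _ le_rfl,
      div_self (pm _)]
  let Λ : X → ℂ := glue pt ed (fun v => Complex.log (u (pt v)))
    (fun e s => L e (c s) - if s < 1 then 0 else β e) 0
  have hΛ : ∀ e s, Λ (ed e s) = L e (c s) - if s < 1 then 0 else β e :=
    h.glue_ed _ (fun e s hs => by
      rw [c1 s hs, L2, if_pos (by linarith), sub_zero, Function.comp_apply, h.ed_src e _ le_rfl])
      fun e s hs => by rw [c2 s hs, if_neg hs.not_gt, sub_sub_cancel]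
  let a : E → Multiplicative ℂ := fun e => .ofAdd (β e)
  have k1 : ∀ x ∈ sk1 pt ed, Complex.exp (Λ x) = u x ∧
      Complex.exp (tau pt ed a x).toAdd = 1 := fun x hx => by
    rcases h.mem_sk1.1 hx with ⟨v, rfl⟩ | ⟨e, s, hs, rfl⟩
    · rw [h.tau_pt]
      exact ⟨by simp only [Λ, h.glue_pt, Complex.exp_log (pm _)], by simp⟩
    · rw [hΛ, if_pos (abs_lt.1 hs).2, sub_zero, L3, Function.comp_apply, c3, h.tau_ed]
      refine ⟨rfl, ?_⟩
      split_ifs
      · exact hβ e
      · simp
  have cL : ∀ e, Continuous fun s => L e (c s) := fun e => (L1 e).comp (by fun_prop)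
  have o1 := h.continuousOn_thick (f := Λ) h.isOpen_Uo fun e =>
    (cL e).continuousOn.congr fun s hs => by
      beta_reduce
      rw [hΛ, if_pos (abs_lt.1 ((h.ed_mem_Uo e s).1 hs)).2, sub_zero]
  have o2 := h.continuousOn_thick (f := fun x => Λ x - (tau pt ed a x).toAdd) h.isOpen_Us fun e =>
    continuousOn_of_forall_continuousAt fun s hs => by
      have e1 : ∀ s, Λ (ed e s) - (tau pt ed a (ed e s)).toAdd =
          L e (c s) - if 0 < s then β e else 0 := fun s => by
        rw [hΛ, h.tau_ed]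
        by_cases b : s < 1
        · by_cases b' : 0 < s <;> simp [b, b', a]
        · simp [b, show 0 < s by linarith]
      refine ((cL e).sub (continuous_const (y := if 0 < s then β e else 0))).continuousAt.congr ?_
      filter_upwards [Cell2.eventually_pos_iff ((h.ed_mem_Us e s).1 hs)] with s' b
      simp only [e1, b, Pi.sub_apply]
  refine ⟨β, fun φ w hw l hl he => ?_⟩
  obtain ⟨η, l1, l2, l3⟩ := h.isBd_lift hw a
  have l4 : IsLift (sU ed fc) (sT pt ed fc a) (loop fc φ)
      fun θ => .ofAdd (l θ - Λ (loop fc φ θ)) := by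
    have u0 : ∀ θ, u (loop fc φ θ) ≠ 0 := fun θ => h0 _ (h.loop_mem φ θ)
    intro i θ hθ
    cases i
    · have := (o1.continuousAt ((h.isOpen_thick h.isOpen_Uo).mem_nhds hθ)).comp
        (h.loop_cont φ).continuousAt
      simp only [Function.comp_def, h.ret_of_mem (h.loop_mem φ _)] at this
      filter_upwards [eventually_eq_of_exp (m := fun θ => l θ - Λ (loop fc φ θ))
        (hl.continuousAt.sub this) fun t => by
          rw [Complex.exp_sub, he, (k1 _ (h.loop_mem φ t)).1, div_self (u0 t)]] with t ht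
      simp only [sT, ht]
    · have := (o2.continuousAt ((h.isOpen_thick h.isOpen_Us).mem_nhds hθ)).comp
        (h.loop_cont φ).continuousAt
      simp only [Function.comp_def, h.ret_of_mem (h.loop_mem φ _)] at this
      filter_upwards [eventually_eq_of_exp
        (m := fun θ => l θ - (Λ (loop fc φ θ) - (tau pt ed a (loop fc φ θ)).toAdd))
        (hl.continuousAt.sub this) fun t => by
          rw [Complex.exp_sub, Complex.exp_sub, he, (k1 _ (h.loop_mem φ t)).1,
            (k1 _ (h.loop_mem φ t)).2, div_one, div_self (u0 t)]] with t ht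
      refine Multiplicative.toAdd.injective ?_
      simp only [sT, h.ret_of_mem (h.loop_mem φ _), toAdd_mul, toAdd_ofAdd]
      linear_combination ht
  have l5 := congrFun (IsLift.unique (fun θ => h.exists_mem_sU (h.not_mem_cen (h.loop_mem φ θ))) l1
    (l4.mul_left (Multiplicative.ofAdd (l 0 - Λ (loop fc φ 0)))⁻¹) (a₀ := 0)
    (by rw [l2, inv_mul_cancel])) (2 * Real.pi)
  have e2 : loop fc φ (2 * Real.pi) = loop fc φ 0 := by
    simp [loop, Complex.exp_two_pi_mul_I]
  rw [l3, e2] at l5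
  rw [pair, l5]
  simp

theorem Cell2.h2 (h : Cell2 pt ed fc src tgt) [ContractibleSpace X] {bd : F → FreeGroup E}
    (hbd : ∀ φ, IsBd pt ed fc φ (bd φ)) (φ : F) :
    ∃ β : E → ℝ, pair β (bd φ) = 1 ∧ ∀ ψ, ψ ≠ φ → pair β (bd ψ) = 0 := by
  obtain ⟨u, u1, u2, κ, k1, k2, k3⟩ := h.exists_wind φ
  obtain ⟨β, hβ⟩ := h.exists_log_cochain u1 fun x hx => u2 x fun e =>
    h.fc_sk φ 0 (by simp) (e ▸ hx)
  let θ : ℂ →+ ℝ := (AddMonoidHom.mulRight (2 * Real.pi)⁻¹).comp Complex.imAddGroupHom
  have e2 : Complex.exp (((2 * Real.pi : ℝ) : ℂ) * Complex.I) =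
      Complex.exp (((0 : ℝ) : ℂ) * Complex.I) := by simp [Complex.exp_two_pi_mul_I]
  refine ⟨fun e => θ (β e), ?_, fun ψ hψ => ?_⟩
  · obtain ⟨K, K1, -, K3⟩ := exists_cont_log k1 k2 0
    rw [← pair_hom, hβ φ _ (hbd φ) (fun t => K (Complex.exp (t * Complex.I)) + t * Complex.I)
      (by fun_prop) fun t => by rw [Complex.exp_add, K3, loop, k3], e2]
    simp [θ]
    field_simp
  · obtain ⟨K, K1, -, K3⟩ := exists_cont_log (u1.comp (h.fc_cont ψ)) (fun z => u2 _ fun e => by
      have hz : z = 0 := (h.fc_mem_cen ψ z).1 ⟨φ, e.symm⟩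
      rw [hz] at e
      exact hψ (h.fc_inj _ _ _ _ (by simp) (by simp) e).1) 0
    rw [← pair_hom, hβ ψ _ (hbd ψ) (fun t => K (Complex.exp (t * Complex.I)))
      (by fun_prop) fun t => K3 _, e2, sub_self, map_zero]

end Vale.Agent.P173
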